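import Vale.Agent.P200.Defs

open MvPolynomial Module TensorProduct Finset

namespace Vale.Agent.P200

namespace Asym

open Filter Topology Asymptotics

/-- `f d / d ^ m` tends to `L`. -/
def Gr (m : ℕ) (f : ℕ → ℝ) (L : ℝ) : Prop :=
  Tendsto (fun d : ℕ => f d / (d : ℝ) ^ m) atTop (𝓝 L)

theorem ratio (a : ℕ) : Tendsto (fun d : ℕ => ((d + a : ℕ) : ℝ) / (d : ℝ)) atTop (𝓝 1) := by
  have h1 : Tendsto (fun d : ℕ => 1 + (a : ℝ) / (d : ℝ)) atTop (𝓝 (1 + 0)) :=
    tendsto_const_nhds.add (tendsto_const_div_atTop_nhds_zero_nat (a : ℝ))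
  rw [add_zero] at h1
  refine h1.congr' ?_
  filter_upwards [eventually_gt_atTop 0] with d hd
  have : (d : ℝ) ≠ 0 := by positivity
  push_cast
  field_simp

theorem Gr.shift {m : ℕ} {f : ℕ → ℝ} {L : ℝ} (h : Gr m f L) (a : ℕ) :
    Gr m (fun d => f (d + a)) L := by
  have h1 := (tendsto_add_atTop_iff_nat a).2 h
  have h2 := h1.mul ((ratio a).pow m)
  rw [one_pow, mul_one] at h2
  refine h2.congr' ?_
  filter_upwards [eventually_gt_atTop 0] with d hd
  have h3 : (d : ℝ) ≠ 0 := by positivity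
  have h4 : ((d + a : ℕ) : ℝ) ≠ 0 := by positivity
  rw [div_pow]
  field_simp

theorem Gr.of_shift {m : ℕ} {f : ℕ → ℝ} {L : ℝ} (a : ℕ) (h : Gr m (fun d => f (d + a)) L) :
    Gr m f L := by
  have h2 := h.mul (((ratio a).pow m).inv₀ (by simp))
  rw [one_pow, inv_one, mul_one] at h2
  refine (tendsto_add_atTop_iff_nat a).1 (h2.congr' ?_)
  filter_upwards [eventually_gt_atTop 0] with d hd
  have h3 : (d : ℝ) ≠ 0 := by positivity
  have h4 : ((d + a : ℕ) : ℝ) ≠ 0 := by positivity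
  rw [div_pow]
  field_simp

theorem gr_choose (m : ℕ) : Gr m (fun d => (d.choose m : ℝ)) (1 / m.factorial) := by
  have h1 : (fun d : ℕ => (d.choose m : ℝ) / (d : ℝ) ^ m) ~[atTop]
      (fun d : ℕ => ((d : ℝ) ^ m / m.factorial) / (d : ℝ) ^ m) :=
    (isEquivalent_choose m).div IsEquivalent.refl
  refine (IsEquivalent.tendsto_nhds_iff h1).2 (tendsto_const_nhds.congr' ?_)
  filter_upwards [eventually_gt_atTop 0] with d hd
  have h3 : (d : ℝ) ≠ 0 := by positivity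
  field_simp

theorem gr_choose_lt {m k : ℕ} (hk : k < m) : Gr m (fun d => (d.choose k : ℝ)) 0 := by
  have h0 : Tendsto (fun d : ℕ => ((d : ℝ) ^ (m - k))⁻¹) atTop (𝓝 0) :=
    tendsto_inv_atTop_zero.comp
      ((tendsto_pow_atTop (by omega)).comp tendsto_natCast_atTop_atTop)
  have h1 := (gr_choose k).mul h0
  rw [mul_zero] at h1
  refine h1.congr' ?_
  filter_upwards [eventually_gt_atTop 0] with d hd
  have h3 : (d : ℝ) ≠ 0 := by positivity
  have h4 : (d : ℝ) ^ m = (d : ℝ) ^ k * (d : ℝ) ^ (m - k) := by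
    rw [← pow_add]; congr 1; omega
  rw [h4]
  field_simp

theorem exists_gr (m : ℕ) (h : ℕ → ℤ)
    (r : ∃ d₀, ∀ d ≥ d₀, ∑ j ∈ range (m + 2), (-1) ^ j * ((m + 1).choose j : ℤ) * h (d + j) = 0) :
    ∃ ρ : ℤ, Gr m (fun d => (h d : ℝ)) (ρ / m.factorial) := by
  obtain ⟨d₀, hd⟩ := r
  have h1 : ∀ d ≥ d₀, (fwdDiff 1)^[m + 1] h d = 0 := by
    intro d hdd
    have h2 := hd d hdd
    rw [fwdDiff_iter_eq_sum_shift]
    have h3 : ∑ k ∈ range (m + 1 + 1), ((-1 : ℤ) ^ (m + 1 - k) * (m + 1).choose k) • h (d + k • 1) =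
        (-1) ^ (m + 1) * ∑ j ∈ range (m + 2), (-1) ^ j * ((m + 1).choose j : ℤ) * h (d + j) := by
      rw [Finset.mul_sum]
      refine Finset.sum_congr rfl fun k hk => ?_
      have hk' : k ≤ m + 1 := by have := Finset.mem_range.1 hk; omega
      have h4 : (-1 : ℤ) ^ (m + 1) = (-1) ^ (m + 1 - k) * (-1) ^ k := by
        rw [← pow_add]; congr 1; omega
      have h5 : (-1 : ℤ) ^ k * (-1) ^ k = 1 := by rw [← mul_pow]; simp
      rw [h4, smul_eq_mul, smul_eq_mul, mul_one]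
      linear_combination (-((-1 : ℤ) ^ (m + 1 - k) * (m + 1).choose k * h (d + k))) * h5
    rw [h3, h2, mul_zero]
  have h2 : ∀ k, ∀ d ≥ d₀, (fwdDiff 1)^[m + 1 + k] h d = 0 := by
    intro k
    induction k with
    | zero => exact h1
    | succ k ih =>
      intro d hdd
      rw [← add_assoc, Function.iterate_succ_apply', fwdDiff, ih d hdd, ih (d + 1) (by omega),
        sub_zero]
  have h3 : ∀ n ≥ m, h (n + d₀) =
      ∑ k ∈ range (m + 1), (n.choose k : ℤ) * (fwdDiff 1)^[k] h d₀ := by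
    intro n hn
    have h4 := shift_eq_sum_fwdDiff_iter 1 h n d₀
    rw [smul_eq_mul, mul_one, add_comm] at h4
    rw [h4]
    symm
    refine Finset.sum_subset_zero_on_sdiff (Finset.range_subset_range.2 (by omega)) ?_ ?_
    · intro k hk
      have hk' : m + 1 ≤ k := by
        have := (Finset.mem_sdiff.1 hk).2
        rw [Finset.mem_range] at this
        omega
      obtain ⟨j, rfl⟩ := Nat.exists_eq_add_of_le hk'
      rw [h2 j d₀ le_rfl, smul_zero]
    · intro k _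
      simp
  refine ⟨(fwdDiff 1)^[m] h d₀, Gr.of_shift d₀ ?_⟩
  have h5 : Tendsto (fun n : ℕ => ∑ k ∈ range (m + 1),
      (n.choose k : ℝ) / (n : ℝ) ^ m * (((fwdDiff 1)^[k] h d₀ : ℤ) : ℝ)) atTop
      (𝓝 (∑ k ∈ range (m + 1),
        (if k = m then (1 / m.factorial : ℝ) else 0) * (((fwdDiff 1)^[k] h d₀ : ℤ) : ℝ))) := by
    refine tendsto_finsetSum _ fun k hk => Tendsto.mul_const _ ?_
    split_ifs with hkm
    · subst hkm; exact gr_choose k
    · exact gr_choose_lt (by have := Finset.mem_range.1 hk; omega)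
  have h6 : (∑ k ∈ range (m + 1),
        (if k = m then (1 / m.factorial : ℝ) else 0) * (((fwdDiff 1)^[k] h d₀ : ℤ) : ℝ)) =
      (((fwdDiff 1)^[m] h d₀ : ℤ) : ℝ) / m.factorial := by
    rw [Finset.sum_eq_single m]
    · simp [div_eq_mul_inv, mul_comm]
    · intro k _ hk; simp [hk]
    · intro hm; simp at hm
  rw [h6] at h5
  refine h5.congr' ?_
  filter_upwards [eventually_ge_atTop m] with n hn
  rw [h3 n hn]
  push_cast
  rw [Finset.sum_div]
  refine Finset.sum_congr rfl fun k _ => ?_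
  ring

theorem pos_of_gr {m : ℕ} {h : ℕ → ℤ} {ρ : ℤ} (hg : Gr m (fun d => (h d : ℝ)) (ρ / m.factorial))
    (g : ∃ a c : ℕ, ∀ k, ((k + m).choose m : ℤ) ≤ c * h (a + 2 * k)) : 1 ≤ ρ := by
  obtain ⟨a, c, hac⟩ := g
  have h1 := (gr_choose m).shift m
  have h2 : Tendsto (fun k : ℕ => 2 * k) atTop atTop :=
    tendsto_atTop_mono (fun k => by show k ≤ 2 * k; omega) tendsto_id
  have h3 := ((Tendsto.comp (hg.shift a) h2).mul_const ((2 : ℝ) ^ m)).const_mul (c : ℝ)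
  have h4 : (1 / m.factorial : ℝ) ≤ c * (ρ / m.factorial * 2 ^ m) := by
    refine le_of_tendsto_of_tendsto h1 h3 ?_
    filter_upwards [eventually_gt_atTop 0] with k hk
    have h5 : (0 : ℝ) < k := by positivity
    have h6 : (((k + m).choose m : ℕ) : ℝ) ≤ c * (h (2 * k + a) : ℝ) := by
      have := hac k
      rw [add_comm a] at this
      exact_mod_cast this
    simp only [Function.comp_apply]
    push_cast
    rw [mul_pow]
    have h7 : (c : ℝ) * ((h (2 * k + a) : ℝ) / (2 ^ m * (k : ℝ) ^ m) * 2 ^ m) =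
        c * (h (2 * k + a) : ℝ) / (k : ℝ) ^ m := by field_simp
    rw [h7]
    exact div_le_div_of_nonneg_right h6 (by positivity)
  by_contra hρ
  have h8 : (ρ : ℝ) ≤ 0 := by exact_mod_cast (show ρ ≤ 0 by omega)
  have h9 : (0 : ℝ) < 1 / m.factorial := by positivity
  have h10 : (c : ℝ) * (ρ / m.factorial * 2 ^ m) ≤ 0 :=
    mul_nonpos_of_nonneg_of_nonpos (by positivity)
      (mul_nonpos_of_nonpos_of_nonneg (div_nonpos_of_nonpos_of_nonneg h8 (by positivity))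
        (by positivity))
  linarith

end Asym

/-- T2 -/
theorem no_two_parts (m : ℕ) (h₁ h₂ : ℕ → ℤ)
    (r₁ : ∃ d₀, ∀ d ≥ d₀, ∑ j ∈ range (m + 2), (-1) ^ j * ((m + 1).choose j : ℤ) * h₁ (d + j) = 0)
    (r₂ : ∃ d₀, ∀ d ≥ d₀, ∑ j ∈ range (m + 2), (-1) ^ j * ((m + 1).choose j : ℤ) * h₂ (d + j) = 0)
    (hle : ∀ d, h₁ d + h₂ d ≤ ((d + m).choose m : ℤ))
    (g₁ : ∃ a c : ℕ, ∀ k, ((k + m).choose m : ℤ) ≤ c * h₁ (a + 2 * k))
    (g₂ : ∃ a c : ℕ, ∀ k, ((k + m).choose m : ℤ) ≤ c * h₂ (a + 2 * k)) : False := by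
  obtain ⟨ρ₁, t₁⟩ := Asym.exists_gr m h₁ r₁
  obtain ⟨ρ₂, t₂⟩ := Asym.exists_gr m h₂ r₂
  have p₁ := Asym.pos_of_gr t₁ g₁
  have p₂ := Asym.pos_of_gr t₂ g₂
  have h1 := (Asym.gr_choose m).shift m
  have h2 : (ρ₁ / m.factorial + ρ₂ / m.factorial : ℝ) ≤ 1 / m.factorial := by
    refine le_of_tendsto_of_tendsto' (Filter.Tendsto.add t₁ t₂) h1 fun d => ?_
    rw [← add_div]
    refine div_le_div_of_nonneg_right ?_ (by positivity)
    beta_reduce
    exact_mod_cast hle d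
  have h3 : (0 : ℝ) < m.factorial := by positivity
  rw [← add_div, div_le_div_iff_of_pos_right h3] at h2
  have h4 : ρ₁ + ρ₂ ≤ 1 := by exact_mod_cast h2
  omega

end Vale.Agent.P200
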