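import Vale.Agent.P200.Span

open MvPolynomial Module TensorProduct Finset

namespace Vale.Agent.P200

theorem supported_finite {D ι : Type*} [DivisionRing D] {s : Set ι} (hs : s.Finite) :
    Module.Finite D (Finsupp.supported D D s) := by
  have := hs.to_subtype
  exact Module.Finite.equiv (Finsupp.supportedEquivFinsupp (R := D) (M := D) s).symm

theorem supported_finrank {D ι : Type*} [DivisionRing D] (s : Set ι) :
    finrank D (Finsupp.supported D D s) = s.ncard := by
  rw [(Finsupp.supportedEquivFinsupp (R := D) (M := D) s).finrank_eq,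
    finrank_eq_nat_card_basis (Finsupp.basisSingleOne (R := D) (ι := s)), Nat.card_coe_set_eq]

/-- T1 -/
theorem finrank_eq_ncard_lead {D ι : Type*} [DivisionRing D] [LinearOrder ι]
    (T : Finset ι) (U : Submodule D (ι →₀ D)) (hU : ∀ u ∈ U, u.support ⊆ T) :
    finrank D U = {a | ∃ u ∈ U, u a ≠ 0 ∧ ∀ b, a < b → u b = 0}.ncard := by
  classical
  induction T using Finset.induction_on_max generalizing U with
  | empty =>
    have h0 : U = ⊥ := by
      rw [eq_bot_iff]
      intro u hu
      have := hU u hu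
      simpa using this
    subst h0
    simp
  | insert t T ht ih =>
    have hfin : FiniteDimensional D U := by
      have h1 : U ≤ Finsupp.supported D D (↑(insert t T) : Set ι) := fun u hu =>
        (Finsupp.mem_supported D u).2 (by exact_mod_cast hU u hu)
      have := supported_finite (D := D) (insert t T).finite_toSet
      exact Submodule.finiteDimensional_of_le h1
    by_cases hex : ∃ u ∈ U, u t ≠ 0
    · obtain ⟨u₀, hu₀, hu₀t⟩ := hex
      set U' : Submodule D (ι →₀ D) := U ⊓ LinearMap.ker (Finsupp.lapply t) with hU'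
      have hU'T : ∀ u ∈ U', u.support ⊆ T := by
        intro u hu a ha
        rcases Finset.mem_insert.1 (hU u hu.1 ha) with rfl | h
        · exact absurd hu.2 (Finsupp.mem_support_iff.1 ha)
        · exact h
      have hset : {a | ∃ u ∈ U, u a ≠ 0 ∧ ∀ b, a < b → u b = 0}
          = insert t {a | ∃ u ∈ U', u a ≠ 0 ∧ ∀ b, a < b → u b = 0} := by
        ext a
        simp only [Set.mem_ofPred_eq, Set.mem_insert_iff]
        constructor
        · rintro ⟨u, hu, ha, hb⟩
          rcases Finset.mem_insert.1 (hU u hu (Finsupp.mem_support_iff.2 ha)) with h | h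
          · exact Or.inl h
          · exact Or.inr ⟨u, ⟨hu, hb t (ht a h)⟩, ha, hb⟩
        · rintro (rfl | ⟨u, hu, ha, hb⟩)
          · refine ⟨u₀, hu₀, hu₀t, fun b hb => ?_⟩
            by_contra hne
            rcases Finset.mem_insert.1 (hU u₀ hu₀ (Finsupp.mem_support_iff.2 hne)) with h | h
            · exact absurd h hb.ne'
            · exact absurd (ht b h) hb.not_gt
          · exact ⟨u, hu.1, ha, hb⟩
      have hsub : {a | ∃ u ∈ U', u a ≠ 0 ∧ ∀ b, a < b → u b = 0} ⊆ (T : Set ι) := by
        rintro a ⟨u, hu, ha, -⟩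
        exact hU'T u hu (Finsupp.mem_support_iff.2 ha)
      have hnot : t ∉ {a | ∃ u ∈ U', u a ≠ 0 ∧ ∀ b, a < b → u b = 0} := fun h =>
        lt_irrefl t (ht t (hsub h))
      rw [hset, Set.ncard_insert_of_notMem hnot (T.finite_toSet.subset hsub), ← ih U' hU'T]
      let f : U →ₗ[D] D := (Finsupp.lapply t).domRestrict U
      have hr : LinearMap.range f = ⊤ := by
        rw [eq_top_iff]
        intro c _
        refine ⟨(c * (u₀ t)⁻¹) • ⟨u₀, hu₀⟩, ?_⟩
        rw [map_smul]
        change (c * (u₀ t)⁻¹) * u₀ t = c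
        rw [mul_assoc, inv_mul_cancel₀ hu₀t, mul_one]
      have hk : finrank D (LinearMap.ker f) = finrank D U' := by
        have e : (LinearMap.ker f).map U.subtype = U' := by
          ext u
          constructor
          · rintro ⟨v, hv, rfl⟩
            exact ⟨v.2, hv⟩
          · rintro ⟨h1, h2⟩
            exact ⟨⟨u, h1⟩, h2, rfl⟩
        rw [← Submodule.finrank_map_subtype_eq U (LinearMap.ker f), e]
      have := LinearMap.finrank_range_add_finrank_ker (K := D) (V := U) (V₂ := D) f
      rw [hr, hk, finrank_top, finrank_self] at this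
      omega
    · push Not at hex
      refine ih U fun u hu a ha => ?_
      rcases Finset.mem_insert.1 (hU u hu ha) with rfl | h
      · exact absurd (hex u hu) (Finsupp.mem_support_iff.1 ha)
      · exact h

namespace Groebner

variable {K D : Type*} [Field K] [DivisionRing D] [Algebra K D] {n : ℕ}

theorem finrank_bc {M : Type*} [AddCommGroup M] [Module K M] (P : Submodule K M) :
    finrank D (P.baseChange D) = finrank K P := by
  rw [← (Submodule.toBaseChange.toLinearEquiv D P).finrank_eq, Module.finrank_baseChange]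

theorem finite_bc {M : Type*} [AddCommGroup M] [Module K M] (P : Submodule K M)
    [Module.Finite K P] : Module.Finite D (P.baseChange D) :=
  Module.Finite.equiv (Submodule.toBaseChange.toLinearEquiv D P)

theorem finrank_inf_comap {V W : Type*} [AddCommGroup V] [Module D V] [AddCommGroup W]
    [Module D W] (Φ : V →ₗ[D] W) (F : Submodule D V) [Module.Finite D F] (P : Submodule D W)
    (hP : P ≤ F.map Φ) (hrk : finrank D (F.map Φ) = finrank D F) :
    finrank D ↥(F ⊓ P.comap Φ) = finrank D P := by
  have hker : LinearMap.ker (Φ.domRestrict F) = ⊥ := by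
    have := (Φ.domRestrict F).finrank_range_add_finrank_ker
    rw [LinearMap.range_domRestrict, hrk] at this
    exact Submodule.finrank_eq_zero.1 (by omega)
  have hinj : Function.Injective (Φ.domRestrict (F ⊓ P.comap Φ)) := by
    refine LinearMap.ker_eq_bot.1 (eq_bot_iff.2 fun x hx => ?_)
    have : (⟨x.1, x.2.1⟩ : F) ∈ LinearMap.ker (Φ.domRestrict F) := hx
    rw [hker] at this
    exact Subtype.ext (congrArg Subtype.val this :)
  have e : (F ⊓ P.comap Φ).map Φ = P := by
    refine le_antisymm ?_ ?_
    · rintro _ ⟨x, hx, rfl⟩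
      exact hx.2
    · intro y hy
      obtain ⟨x, hx, rfl⟩ := hP hy
      exact ⟨x, ⟨hx, hy⟩, rfl⟩
  rw [← LinearMap.finrank_range_of_inj hinj, LinearMap.range_domRestrict, e]

theorem mul_mem_bc {S : Type*} [CommRing S] [Algebra K S] {P Q W : Submodule K S}
    (h : ∀ p ∈ P, ∀ q ∈ Q, p * q ∈ W) {x y : D ⊗[K] S} (hx : x ∈ P.baseChange D)
    (hy : y ∈ Q.baseChange D) : x * y ∈ W.baseChange D := by
  obtain ⟨x, rfl⟩ := hx
  obtain ⟨y, rfl⟩ := hy
  induction x using TensorProduct.induction_on with
  | zero => simp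
  | add a b ha hb => rw [map_add, add_mul]; exact add_mem ha hb
  | tmul c p =>
    induction y using TensorProduct.induction_on with
    | zero => simp
    | add a b ha hb => rw [map_add, mul_add]; exact add_mem ha hb
    | tmul e q =>
      rw [LinearMap.baseChange_tmul, LinearMap.baseChange_tmul,
        Algebra.TensorProduct.tmul_mul_tmul]
      exact Submodule.tmul_mem_baseChange_of_mem _ (h _ p.2 _ q.2)

theorem central {S : Type*} [CommRing S] [Algebra K S] (s : S) (x : D ⊗[K] S) :
    x * ((1 : D) ⊗ₜ[K] s) = ((1 : D) ⊗ₜ[K] s) * x := by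
  induction x using TensorProduct.induction_on with
  | zero => simp
  | add a b ha hb => rw [add_mul, mul_add, ha, hb]
  | tmul c p =>
    rw [Algebra.TensorProduct.tmul_mul_tmul, Algebra.TensorProduct.tmul_mul_tmul, mul_one,
      one_mul, mul_comm p]

theorem exists_pred {α : Fin n →₀ ℕ} {d : ℕ} (h : α.degree = d + 1) :
    ∃ β i, β.degree = d ∧ α = β + Finsupp.single i 1 := by
  have hne : α ≠ 0 := by
    rintro rfl
    simp at h
  obtain ⟨i, hi⟩ := Finsupp.ne_iff.1 hne
  have hle : Finsupp.single i 1 ≤ α := by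
    rw [Finsupp.single_le_iff]
    exact Nat.one_le_iff_ne_zero.2 hi
  refine ⟨α - Finsupp.single i 1, i, ?_, (tsub_add_cancel_of_le hle).symm⟩
  have := congrArg Finsupp.degree (tsub_add_cancel_of_le hle)
  rw [map_add, Finsupp.degree_single, h] at this
  omega

theorem mono_succ (β : Fin n →₀ ℕ) (i : Fin n) :
    (monomial (β + Finsupp.single i 1) (1 : K) : MvPolynomial (Fin n) K)
      = monomial β 1 * X i := by
  rw [X, monomial_mul, mul_one]

theorem hom_eq (d : ℕ) : homogeneousSubmodule (Fin n) K d
    = restrictSupport K {β : Fin n →₀ ℕ | β.degree = d} := by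
  ext p
  rw [mem_homogeneousSubmodule, mem_restrictSupport_iff]
  constructor
  · intro hp β hβ
    by_contra hne
    exact (mem_support_iff.1 hβ) (IsHomogeneous.coeff_eq_zero hp hne)
  · intro hp β hβ
    have := hp (mem_support_iff.2 hβ)
    have e : Finsupp.degree β = d := this
    rw [Finsupp.degree_eq_weight_one] at e
    exact e

theorem finrank_restrict (s : Set (Fin n →₀ ℕ)) :
    finrank K (restrictSupport K s) = s.ncard := by
  rw [finrank_eq_nat_card_basis (basisRestrictSupport K s), Nat.card_coe_set_eq]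

theorem finite_hom (d : ℕ) : Module.Finite K (homogeneousSubmodule (Fin n) K d) := by
  rw [hom_eq]
  have := (Finsupp.finite_of_degree_eq (σ := Fin n) d).to_subtype
  exact Module.Finite.of_basis (basisRestrictSupport K _)

theorem dimIn_span (A : Set (Fin n →₀ ℕ)) (hA : ∀ α ∈ A, ∀ β, α ≤ β → β ∈ A) (d : ℕ) :
    dimIn (Ideal.span ((fun α => monomial α (1 : K)) '' A)) d
      = {α ∈ A | α.degree = d}.ncard := by
  rw [dimIn, ← finrank_restrict (K := K)]
  suffices e : (Ideal.span ((fun α => monomial α (1 : K)) '' A)).restrictScalars K ⊓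
      homogeneousSubmodule (Fin n) K d = restrictSupport K {α ∈ A | α.degree = d} by rw [e]
  ext p
  rw [Submodule.mem_inf, hom_eq, mem_restrictSupport_iff, mem_restrictSupport_iff,
    Submodule.restrictScalars_mem, mem_ideal_span_monomial_image]
  constructor
  · rintro ⟨h1, h2⟩ β hβ
    obtain ⟨α, hα, hle⟩ := h1 β hβ
    exact ⟨hA α hα β hle, h2 hβ⟩
  · intro h
    exact ⟨fun β hβ => ⟨β, (h hβ).1, le_rfl⟩, fun β hβ => (h hβ).2⟩

section

variable (Z : Fin n → D ⊗[K] MvPolynomial (Fin n) K)
    (hZ : ∀ i, Z i ∈ (homogeneousSubmodule (Fin n) K 1).baseChange D)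
    (ψ : MvPolynomial (Fin n) K →ₐ[K] D ⊗[K] MvPolynomial (Fin n) K) (hψ : ∀ i, ψ (X i) = Z i)
    (hspan : (homogeneousSubmodule (Fin n) K 1).baseChange D ≤ Submodule.span D (Set.range Z))

include hZ hψ in
theorem psi_mem (d : ℕ) (β : Fin n →₀ ℕ) (h : β.degree = d) :
    ψ (monomial β 1) ∈ (homogeneousSubmodule (Fin n) K d).baseChange D := by
  induction d generalizing β with
  | zero =>
    have : β = 0 := (Finsupp.degree_eq_zero_iff β).1 h
    subst this
    rw [monomial_zero', C_1, map_one, Algebra.TensorProduct.one_def]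
    exact Submodule.tmul_mem_baseChange_of_mem _ (isHomogeneous_one _ _)
  | succ d ih =>
    obtain ⟨γ, i, hγ, rfl⟩ := exists_pred h
    rw [mono_succ, map_mul, hψ]
    exact mul_mem_bc (fun p hp q hq => IsHomogeneous.mul hp hq) (ih γ hγ) (hZ i)

include hψ hspan in
theorem le_span (d : ℕ) : (homogeneousSubmodule (Fin n) K d).baseChange D ≤
    Submodule.span D ((fun β => ψ (monomial β 1)) '' {β : Fin n →₀ ℕ | β.degree = d}) := by
  induction d with
  | zero =>
    refine Span.le_of_mono 0 _ fun α hα => ?_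
    have : α = 0 := (Finsupp.degree_eq_zero_iff α).1 hα
    subst this
    refine Submodule.subset_span ⟨0, hα, ?_⟩
    beta_reduce
    rw [monomial_zero', C_1, map_one, Algebra.TensorProduct.one_def]
  | succ d ih =>
    refine Span.le_of_mono (d + 1) _ fun α hα => ?_
    obtain ⟨γ, k, hγ, rfl⟩ := exists_pred hα
    have e : (1 : D) ⊗ₜ[K] (monomial γ (1 : K) * X k : MvPolynomial (Fin n) K)
        = ((1 : D) ⊗ₜ[K] monomial γ (1 : K)) * ((1 : D) ⊗ₜ[K] X k) := by
      rw [Algebra.TensorProduct.tmul_mul_tmul, mul_one]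
    rw [mono_succ, e]
    have h1 : (1 : D) ⊗ₜ[K] (monomial γ (1 : K) : MvPolynomial (Fin n) K) ∈
        (homogeneousSubmodule (Fin n) K d).baseChange D :=
      Submodule.tmul_mem_baseChange_of_mem _ (isHomogeneous_monomial _ hγ)
    have h2 := ih h1
    generalize (1 : D) ⊗ₜ[K] (monomial γ (1 : K) : MvPolynomial (Fin n) K) = x at h2
    induction h2 using Submodule.span_induction with
    | zero => simp
    | add a b _ _ ha hb => rw [add_mul]; exact add_mem ha hb
    | smul c a _ ha => rw [smul_mul_assoc]; exact Submodule.smul_mem _ _ ha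
    | mem x hx =>
      obtain ⟨β, hβ, rfl⟩ := hx
      beta_reduce
      rw [central]
      have h3 := hspan (Submodule.tmul_mem_baseChange_of_mem (1 : D) (isHomogeneous_X K k))
      generalize (1 : D) ⊗ₜ[K] (X k : MvPolynomial (Fin n) K) = y at h3
      induction h3 using Submodule.span_induction with
      | zero => simp
      | add a b _ _ ha hb => rw [add_mul]; exact add_mem ha hb
      | smul c a _ ha => rw [smul_mul_assoc]; exact Submodule.smul_mem _ _ ha
      | mem y hy =>
        obtain ⟨i, rfl⟩ := hy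
        refine Submodule.subset_span ⟨β + Finsupp.single i 1, ?_, ?_⟩
        · change (β + Finsupp.single i 1).degree = d + 1
          rw [map_add, Finsupp.degree_single, show β.degree = d from hβ]
        · beta_reduce
          rw [mono_succ, mul_comm, map_mul, hψ]

include hZ hψ hspan in
theorem map_supported (d : ℕ) :
    (Finsupp.supported D D {β : Fin n →₀ ℕ | β.degree = d}).map
      (Finsupp.linearCombination D (fun β => ψ (monomial β 1)))
      = (homogeneousSubmodule (Fin n) K d).baseChange D := by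
  rw [← Finsupp.span_image_eq_map_linearCombination]
  refine le_antisymm (Submodule.span_le.2 ?_) (le_span Z ψ hψ hspan d)
  rintro _ ⟨β, hβ, rfl⟩
  exact psi_mem Z hZ ψ hψ d β hβ

include hZ hψ hspan in
theorem finrank_U (d : ℕ) (P : Submodule D (D ⊗[K] MvPolynomial (Fin n) K))
    (hP : P ≤ (homogeneousSubmodule (Fin n) K d).baseChange D) :
    finrank D ↥(Finsupp.supported D D {β : Fin n →₀ ℕ | β.degree = d} ⊓
      P.comap (Finsupp.linearCombination D (fun β => ψ (monomial β 1)))) = finrank D P := by
  have hmap := map_supported Z hZ ψ hψ hspan d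
  have : Module.Finite D (Finsupp.supported D D {β : Fin n →₀ ℕ | β.degree = d}) :=
    supported_finite (Finsupp.finite_of_degree_eq d)
  refine finrank_inf_comap _ _ _ (hmap ▸ hP) ?_
  rw [hmap, finrank_bc, hom_eq, finrank_restrict, supported_finrank]

include hψ in
theorem phi_shift (v : (Fin n →₀ ℕ) →₀ D) (i : Fin n) :
    Finsupp.linearCombination D (fun β => ψ (monomial β 1))
        (v.mapDomain (· + Finsupp.single i 1))
      = Finsupp.linearCombination D (fun β => ψ (monomial β 1)) v * Z i := by
  induction v using Finsupp.induction_linear with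
  | zero => simp
  | add a b ha hb => rw [Finsupp.mapDomain_add, map_add, map_add, ha, hb, add_mul]
  | single β c =>
    rw [Finsupp.mapDomain_single, Finsupp.linearCombination_single,
      Finsupp.linearCombination_single, mono_succ, map_mul, hψ, smul_mul_assoc]

end

theorem upper_of_succ (A : Set (Fin n →₀ ℕ)) (h : ∀ α ∈ A, ∀ i, α + Finsupp.single i 1 ∈ A) :
    ∀ α ∈ A, ∀ β, α ≤ β → β ∈ A := by
  have key : ∀ d, ∀ γ : Fin n →₀ ℕ, γ.degree = d → ∀ α ∈ A, α + γ ∈ A := by
    intro d
    induction d with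
    | zero =>
      intro γ hγ α hα
      rw [(Finsupp.degree_eq_zero_iff γ).1 hγ, add_zero]; exact hα
    | succ d ih =>
      intro γ hγ α hα
      obtain ⟨δ, i, hδ, rfl⟩ := exists_pred hγ
      rw [← add_assoc]
      exact h _ (ih δ hδ α hα) i
  intro α hα β hle
  obtain ⟨γ, rfl⟩ := le_iff_exists_add.1 hle
  exact key _ γ rfl α hα

end Groebner

/-- T6 -/
theorem exists_monomial_ideal {K D : Type*} [Field K] [DivisionRing D] [Algebra K D] {n : ℕ}
    (Z : Fin n → D ⊗[K] MvPolynomial (Fin n) K)
    (hZ : ∀ i, Z i ∈ (homogeneousSubmodule (Fin n) K 1).baseChange D)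
    (ψ : MvPolynomial (Fin n) K →ₐ[K] D ⊗[K] MvPolynomial (Fin n) K) (hψ : ∀ i, ψ (X i) = Z i)
    (hspan : (homogeneousSubmodule (Fin n) K 1).baseChange D ≤ Submodule.span D (Set.range Z))
    (I : Ideal (MvPolynomial (Fin n) K)) (mo : MonomialOrder (Fin n)) :
    ∃ A : Set (Fin n →₀ ℕ),
      (∀ d, dimIn I d = dimIn (Ideal.span ((fun α => monomial α (1 : K)) '' A)) d) ∧
      ∀ (d : ℕ) (v : (Fin n →₀ ℕ) →₀ D) (α : Fin n →₀ ℕ),
        (∀ β ∈ v.support, β.degree = d) →
        Finsupp.linearCombination D (fun β => ψ (monomial β 1)) v ∈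
          (I.restrictScalars K ⊓ homogeneousSubmodule (Fin n) K d).baseChange D →
        v α ≠ 0 → (∀ β, mo.toSyn α < mo.toSyn β → v β = 0) → α ∈ A := by
  classical
  let Φ := Finsupp.linearCombination D (fun β : Fin n →₀ ℕ => ψ (monomial β 1))
  let U : ℕ → Submodule D ((Fin n →₀ ℕ) →₀ D) := fun d =>
    Finsupp.supported D D {β : Fin n →₀ ℕ | β.degree = d} ⊓
      ((I.restrictScalars K ⊓ homogeneousSubmodule (Fin n) K d).baseChange D).comap Φ
  let A : Set (Fin n →₀ ℕ) :=
    {α | ∃ v ∈ U α.degree, v α ≠ 0 ∧ ∀ β, mo.toSyn α < mo.toSyn β → v β = 0}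
  have hsucc : ∀ α ∈ A, ∀ i, α + Finsupp.single i 1 ∈ A := by
    rintro α ⟨v, ⟨hv1, hv2⟩, hα, hβ⟩ i
    have hinj : Function.Injective (fun β : Fin n →₀ ℕ => β + Finsupp.single i 1) :=
      add_left_injective _
    refine ⟨v.mapDomain (· + Finsupp.single i 1), ⟨?_, ?_⟩, ?_, ?_⟩
    · refine (Finsupp.mem_supported D _).2 fun γ hγ => ?_
      obtain ⟨δ, hδ, rfl⟩ := Finset.mem_image.1 (Finsupp.mapDomain_support hγ)
      have := (Finsupp.mem_supported D _).1 hv1 hδ
      change (δ + Finsupp.single i 1).degree = (α + Finsupp.single i 1).degree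
      rw [map_add, map_add, show δ.degree = α.degree from this]
    · rw [SetLike.mem_coe, Submodule.mem_comap, Groebner.phi_shift Z ψ hψ, map_add, Finsupp.degree_single]
      refine Groebner.mul_mem_bc (fun p hp q hq => ?_) (Submodule.mem_comap.1 hv2) (hZ i)
      exact ⟨I.mul_mem_right q hp.1, IsHomogeneous.mul hp.2 hq⟩
    · rw [Finsupp.mapDomain_apply hinj]; exact hα
    · intro β hlt
      by_cases hr : β ∈ Set.range (fun β : Fin n →₀ ℕ => β + Finsupp.single i 1)
      · obtain ⟨δ, rfl⟩ := hr
        rw [Finsupp.mapDomain_apply hinj]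
        refine hβ δ ?_
        beta_reduce at hlt
        rw [map_add, map_add] at hlt
        exact lt_of_add_lt_add_right hlt
      · exact Finsupp.mapDomain_of_notMem_range _ _ hr
  refine ⟨A, fun d => ?_, fun d v α h1 h2 h3 h4 => ?_⟩
  · rw [Groebner.dimIn_span A (Groebner.upper_of_succ A hsucc), dimIn,
      ← Groebner.finrank_bc (D := D),
      ← Groebner.finrank_U Z hZ ψ hψ hspan d _ (Submodule.baseChange_mono D inf_le_right)]
    have hT : ∀ u ∈ U d, u.support ⊆ (Finsupp.finite_of_degree_eq (σ := Fin n) d).toFinset := by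
      intro u hu β hβ
      rw [Set.Finite.mem_toFinset]
      exact (Finsupp.mem_supported D _).1 hu.1 hβ
    have := @finrank_eq_ncard_lead D _ _ (LinearOrder.lift' mo.toSyn mo.toSyn.injective) _ _ hT
    refine this.trans ?_
    congr 1
    ext α
    constructor
    · rintro ⟨u, hu, ha, hb⟩
      have hd : α.degree = d := (Finsupp.mem_supported D _).1 hu.1 (Finsupp.mem_support_iff.2 ha)
      subst hd
      exact ⟨⟨u, hu, ha, hb⟩, rfl⟩
    · rintro ⟨⟨u, hu, ha, hb⟩, rfl⟩
      exact ⟨u, hu, ha, hb⟩
  · have hd : α.degree = d := h1 α (Finsupp.mem_support_iff.2 h3)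
    subst hd
    exact ⟨v, ⟨(Finsupp.mem_supported D _).2 fun β hβ => h1 β hβ, h2⟩, h3, h4⟩

end Vale.Agent.P200
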