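import Vale.Agent.P200.Step

open MvPolynomial Module TensorProduct Finset

namespace Vale.Agent.P200

universe u

theorem linearIndependent_cons_row {L L' : Type*} [Field L] [Field L'] [Algebra L L'] {r c : ℕ}
    (hr : r < c) (v : Fin r → Fin c → L) (hv : LinearIndependent L v) (x : Fin c → L')
    (hx : LinearIndependent L x) :
    LinearIndependent L' (Fin.cons x (fun i => algebraMap L L' ∘ v i) : Fin (r + 1) → Fin c → L') := by
  rw [linearIndependent_finCons]
  refine ⟨linearIndependent_algebraMap_comp_iff.2 hv, fun hmem => ?_⟩
  have hlt : Submodule.span L (Set.range v) < ⊤ := by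
    refine Submodule.lt_top_of_finrank_lt_finrank ?_
    rw [finrank_span_eq_card hv]
    simpa using hr
  obtain ⟨g, hg0, hg⟩ := Submodule.exists_le_ker_of_lt_top _ hlt
  let a : Fin c → L := fun l => g (Pi.single l 1)
  have hga : ∀ y : Fin c → L, g y = ∑ l, y l * a l := by
    intro y
    conv_lhs => rw [← Finset.univ_sum_single y]
    rw [map_sum]
    refine Finset.sum_congr rfl fun l _ => ?_
    rw [← smul_eq_mul, ← map_smul, ← Pi.single_smul', smul_eq_mul, mul_one]
  have h1 : ∑ l, a l • x l = 0 := by
    clear hx
    induction hmem using Submodule.span_induction with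
    | mem y hy =>
      obtain ⟨i, rfl⟩ := hy
      have := hg (Submodule.subset_span ⟨i, rfl⟩)
      rw [LinearMap.mem_ker, hga] at this
      have h2 := congrArg (algebraMap L L') this
      rw [map_sum, map_zero] at h2
      rw [← h2]
      refine Finset.sum_congr rfl fun l _ => ?_
      rw [Algebra.smul_def, map_mul, mul_comm]
      rfl
    | zero => simp
    | add y z _ _ hy hz => simp only [Pi.add_apply, smul_add, Finset.sum_add_distrib, hy, hz, add_zero]
    | smul b y _ hy =>
      simp only [Pi.smul_apply, smul_comm _ b, ← Finset.smul_sum, hy, smul_zero]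
  have h2 := Fintype.linearIndependent_iff.1 hx a h1
  apply hg0
  ext l
  simpa [a] using h2 l

theorem exists_division {k : Type u} [Field k] {n : ℕ} {w : Fin n → MvPolynomial (Fin n) k}
    (hdeg : ∀ i, (w i).IsHomogeneous 2) (h : Reg w) (B : Fin n → Fin n → Fin n → k)
    (hB : ∀ l, w l = ∑ a, ∑ b, C (B l a b) * X a * X b) (c : ℕ) (hc : c ≤ n) (r : ℕ) (hr : r ≤ c) :
    ∃ (L : Type u) (_ : Field L) (_ : Algebra k L) (D : Type u) (_ : DivisionRing D)
      (_ : Algebra L D) (_ : FiniteDimensional L D)
      (e : Fin r → Fin n → D) (τ : Fin r → Fin n → L),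
      (∀ i j, i ≠ j → ∀ a b, Commute (e i a) (e j b)) ∧
      (∀ i a b, e i a * e i b + e i b * e i a =
        algebraMap L D (∑ l, τ i l * algebraMap k L (B l a b + B l b a))) ∧
      (∀ i a, e i a * e i a = algebraMap L D (∑ l, τ i l * algebraMap k L (B l a a))) ∧
      LinearIndependent L (fun i : Fin r => fun l : Fin c => τ i (Fin.castLE hc l)) := by
  induction r with
  | zero =>
    exact ⟨k, inferInstance, inferInstance, k, inferInstance, inferInstance, inferInstance,
      Fin.elim0, Fin.elim0, fun i => i.elim0, fun i => i.elim0, fun i => i.elim0,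
      linearIndependent_empty_type⟩
  | succ r ih =>
    obtain ⟨L, _, _, D, _, _, _, e, τ, h1, h2, h3, h4⟩ := ih (by omega)
    obtain ⟨m, rfl⟩ : ∃ m, n = m + 1 := ⟨n - 1, by omega⟩
    obtain ⟨L', _, _, D', _, _, _, _, _, j, e', τ', g0, g1, g2, g3, g4⟩ :=
      exists_step (L := L) (D := D) hdeg h B hB
    refine ⟨L', inferInstance, inferInstance, D', inferInstance, inferInstance, inferInstance,
      Fin.cons e' (fun i a => j (e i a)), Fin.cons τ' (fun i l => algebraMap L L' (τ i l)),
      ?_, ?_, ?_, ?_⟩
    · intro i i' hii' a b
      induction i using Fin.cases with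
      | zero =>
        induction i' using Fin.cases with
        | zero => exact absurd rfl hii'
        | succ i' => exact g1 a _
      | succ i =>
        induction i' using Fin.cases with
        | zero => exact (g1 b _).symm
        | succ i' => exact (h1 i i' (fun h => hii' (by rw [h])) a b).map j
    · intro i a b
      induction i using Fin.cases with
      | zero => exact g2 a b
      | succ i =>
        simp only [Fin.cons_succ]
        rw [← map_mul, ← map_mul, ← map_add, h2, g0, map_sum]
        simp only [map_mul, ← IsScalarTower.algebraMap_apply]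
    · intro i a
      induction i using Fin.cases with
      | zero => exact g3 a
      | succ i =>
        simp only [Fin.cons_succ]
        rw [← map_mul, h3, g0, map_sum]
        simp only [map_mul, ← IsScalarTower.algebraMap_apply]
    · have := linearIndependent_cons_row (L' := L') (by omega : r < c) _ h4
        (fun l => τ' (Fin.castLE hc l)) (g4.comp _ (Fin.castLE_injective hc))
      convert this using 1
      funext i
      induction i using Fin.cases with
      | zero => rfl
      | succ i => rfl

end Vale.Agent.P200
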