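import Vale.Agent.P200.Prep
import Vale.Agent.P200.Tower
import Vale.Agent.P200.Groebner

open MvPolynomial Module TensorProduct Finset

namespace Vale.Agent.P200

universe u

theorem exists_mu (K L D : Type*) [Field K] [Field L] [Algebra K L] [DivisionRing D] [Algebra K D]
    [Algebra L D] [IsScalarTower K L D] (n : ℕ) :
    ∃ μ : MvPolynomial (Fin n) L →ₐ[L] D ⊗[K] MvPolynomial (Fin n) K,
      (∀ p, μ (map (algebraMap K L) p) = 1 ⊗ₜ p) ∧ (∀ p y, Commute (μ p) y) := by
  let μ : MvPolynomial (Fin n) L →ₐ[L] D ⊗[K] MvPolynomial (Fin n) K :=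
    (Algebra.TensorProduct.map (Algebra.ofId L D) (AlgHom.id K _)).comp
      (algebraTensorAlgEquiv K L).symm.toAlgHom
  have h1 : ∀ p, μ (map (algebraMap K L) p) = 1 ⊗ₜ p := by
    intro p
    simp [μ]
  refine ⟨μ, h1, fun p y => ?_⟩
  induction p using MvPolynomial.induction_on with
  | C a => rw [← algebraMap_eq, AlgHom.commutes]; exact Algebra.commutes _ _
  | add p q hp hq => rw [map_add]; exact hp.add_left hq
  | mul_X p a hp =>
    rw [map_mul]
    refine hp.mul_left ?_
    rw [← map_X (algebraMap K L), h1]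
    exact (Groebner.central _ _).symm

theorem sq_sum_tmul {K L D : Type*} [Field K] [Field L] [Algebra K L] [DivisionRing D]
    [Algebra K D] [Algebra L D] [IsScalarTower K L D] {n : ℕ}
    (μ : MvPolynomial (Fin n) L →ₐ[L] D ⊗[K] MvPolynomial (Fin n) K)
    (hμ : ∀ a, μ (X a) = 1 ⊗ₜ X a) (e : Fin n → D) (M : Fin n → Fin n → L)
    (h1 : ∀ a b, e a * e b + e b * e a = algebraMap L D (M a b + M b a))
    (h2 : ∀ a, e a * e a = algebraMap L D (M a a)) :
    (∑ a, e a ⊗ₜ[K] (X a : MvPolynomial (Fin n) K)) * (∑ a, e a ⊗ₜ[K] X a) =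
      μ (∑ a, ∑ b, M a b • (X a * X b)) := by
  rw [Finset.sum_mul_sum, ← sub_eq_zero]
  simp only [map_sum, ← Finset.sum_sub_distrib]
  have h3 : ∀ a b, e a ⊗ₜ[K] (X a : MvPolynomial (Fin n) K) * e b ⊗ₜ[K] X b -
      μ (M a b • (X a * X b)) =
      (e a * e b - algebraMap L D (M a b)) ⊗ₜ[K] (X a * X b : MvPolynomial (Fin n) K) := by
    intro a b
    rw [map_smul, map_mul, hμ, hμ, Algebra.TensorProduct.tmul_mul_tmul,
      Algebra.TensorProduct.tmul_mul_tmul, mul_one, smul_tmul', sub_tmul,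
      Algebra.algebraMap_eq_smul_one]
  simp only [h3]
  refine sum_sum_eq_zero_of_alt _ (fun a b => ?_) (fun a => ?_)
  · rw [mul_comm (X b), ← add_tmul, sub_add_sub_comm, h1, map_add, sub_self, zero_tmul]
  · rw [h2, sub_self, zero_tmul]

theorem sum_split {M : Type*} [AddCommMonoid M] {n c : ℕ} (hc : c ≤ n) (g : Fin n → M) :
    ∑ l, g l = ∑ l : Fin c, g (Fin.castLE hc l) + ∑ l ∈ univ.filter (fun l : Fin n => c ≤ l), g l := by
  rw [← Finset.sum_filter_add_sum_filter_not univ (fun l : Fin n => c ≤ l), add_comm]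
  congr 1
  symm
  refine Finset.sum_bij (fun l _ => Fin.castLE hc l) ?_ ?_ ?_ ?_
  · intro l _
    simp
  · intro a _ b _ h
    exact Fin.castLE_injective hc h
  · intro b hb
    exact ⟨⟨b, by simpa using hb⟩, Finset.mem_univ _, rfl⟩
  · intro a _
    rfl

theorem egh_quadrics (K : Type u) [Field K] (n c : ℕ) (hc : c ≤ n)
    (f : Fin c → MvPolynomial (Fin n) K) (hdeg : ∀ i, (f i).IsHomogeneous 2) (hreg : Reg f)
    (I : Ideal (MvPolynomial (Fin n) K)) (hf : ∀ i, f i ∈ I) :
    ∃ A : Set (Fin n →₀ ℕ),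
      (∀ i : Fin c, X (Fin.castLE hc i) ^ 2 ∈ Ideal.span ((fun α => monomial α (1 : K)) '' A)) ∧
      ∀ d, dimIn I d = dimIn (Ideal.span ((fun α => monomial α (1 : K)) '' A)) d := by
  classical
  let k := FractionRing (Polynomial K)
  have : Infinite k := Infinite.of_injective _ (IsFractionRing.injective (Polynomial K) k)
  obtain ⟨w, l, hw, hw2, hwf, hl, hwl⟩ := (hreg.map (k := k)).extend
    (fun i => (hdeg i).map _) n hc le_rfl
  choose B hB using fun i => exists_coeff_two (hw2 i)
  obtain ⟨L, _, _, D, _, _, _, e, τ, h1, h2, h3, h4⟩ := exists_division hw2 hw B hB c hc c le_rfl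
  let : Algebra K L := ((algebraMap k L).comp (algebraMap K k)).toAlgebra
  have : IsScalarTower K k L := IsScalarTower.of_algebraMap_eq fun _ => rfl
  let : Algebra K D := Algebra.compHom D (algebraMap K L)
  have : IsScalarTower K L D := IsScalarTower.of_algebraMap_eq fun _ => rfl
  obtain ⟨μ, hμ, hμc⟩ := exists_mu K L D n
  have hμX : ∀ a, μ (X a) = 1 ⊗ₜ X a := fun a => by rw [← map_X (algebraMap K L), hμ]
  let ν : MvPolynomial (Fin n) k →+* D ⊗[K] MvPolynomial (Fin n) K :=
    μ.toRingHom.comp (map (algebraMap k L))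
  have hν : ∀ p, ν p = μ (map (algebraMap k L) p) := fun _ => rfl
  have hνK : ∀ p, ν (map (algebraMap K k) p) = 1 ⊗ₜ p := by
    intro p
    rw [hν, MvPolynomial.map_map, ← IsScalarTower.algebraMap_eq, hμ]
  let Y : Fin c → D ⊗[K] MvPolynomial (Fin n) K := fun i => ∑ a, e i a ⊗ₜ[K] X a
  let Z : Fin n → D ⊗[K] MvPolynomial (Fin n) K := fun i =>
    if h : (i : ℕ) < c then Y ⟨i, h⟩ else ν (l i)
  have hZ1 : ∀ i : Fin c, Z (Fin.castLE hc i) = Y i := fun i => dif_pos i.2
  have hZ2 : ∀ i : Fin n, c ≤ i → Z i = ν (l i) := fun i hi => dif_neg (not_lt.2 hi)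
  have hX : ∀ (a : Fin n) (d : D), d ⊗ₜ[K] (X a : MvPolynomial (Fin n) K) ∈
      (homogeneousSubmodule (Fin n) K 1).baseChange D := fun a d =>
    Submodule.tmul_mem_baseChange_of_mem _ (isHomogeneous_X K a)
  have hZ : ∀ i, Z i ∈ (homogeneousSubmodule (Fin n) K 1).baseChange D := by
    intro i
    by_cases h : (i : ℕ) < c
    · simp only [Z, dif_pos h]
      exact Submodule.sum_mem _ fun a _ => hX a _
    · obtain ⟨b, hb⟩ := exists_coeff_one ((hl i).map (algebraMap k L))
      rw [hZ2 i (not_lt.1 h), hν, hb, map_sum]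
      refine Submodule.sum_mem _ fun a _ => ?_
      rw [map_smul, hμX, smul_tmul']
      exact hX a _
  have hYc : ∀ i j, Commute (Y i) (Y j) := by
    intro i j
    by_cases hij : i = j
    · rw [hij]
    · refine Commute.sum_left _ _ _ fun a _ => Commute.sum_right _ _ _ fun b _ => ?_
      rw [Commute, SemiconjBy, Algebra.TensorProduct.tmul_mul_tmul,
        Algebra.TensorProduct.tmul_mul_tmul, (h1 i j hij a b).eq, mul_comm (X a)]
  have hcomm : ∀ i j, Commute (Z i) (Z j) := by
    intro i j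
    by_cases hi : (i : ℕ) < c
    · by_cases hj : (j : ℕ) < c
      · simp only [Z, dif_pos hi, dif_pos hj]
        exact hYc _ _
      · rw [hZ2 j (not_lt.1 hj)]
        exact (hμc _ _).symm
    · rw [hZ2 i (not_lt.1 hi)]
      exact hμc _ _
  have hY2 : ∀ i, Y i * Y i = ∑ j, τ i j • ν (w j) := by
    intro i
    rw [sq_sum_tmul μ hμX (e i) (fun a b => ∑ j, τ i j * algebraMap k L (B j a b))
      (fun a b => by rw [h2, ← Finset.sum_add_distrib]; simp only [map_add, mul_add]) (h3 i)]
    simp only [hν, ← map_smul, ← map_sum]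
    congr 1
    simp only [hB, map_sum, map_mul, map_C, map_X, Finset.smul_sum, Finset.sum_smul]
    conv_rhs => rw [Finset.sum_comm]
    refine Finset.sum_congr rfl fun a _ => ?_
    conv_rhs => rw [Finset.sum_comm]
    refine Finset.sum_congr rfl fun b _ => Finset.sum_congr rfl fun j _ => ?_
    rw [mul_smul, mul_assoc, ← smul_eq_C_mul]
  have hrel : ∀ i, ∑ j : Fin c, τ i (Fin.castLE hc j) • (1 : D) ⊗ₜ[K] f j =
      Z (Fin.castLE hc i) * Z (Fin.castLE hc i) -
        ∑ j ∈ univ.filter (fun j : Fin n => c ≤ j), τ i j • (Z j * Z j) := by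
    intro i
    rw [hZ1, hY2, sum_split hc, eq_sub_iff_add_eq]
    congr 1
    · simp only [hwf, hνK]
    · refine Finset.sum_congr rfl fun j hj => ?_
      have hj' : c ≤ j := by simpa using hj
      rw [hwl j hj', hZ2 j hj', map_mul]
  have hw_mem : ∀ j, ν (w j) ∈ Ideal.span (Set.range Z) := by
    have hZZ : ∀ j, Z j * Z j ∈ Ideal.span (Set.range Z) := fun j =>
      Ideal.mul_mem_left _ _ (Ideal.subset_span ⟨j, rfl⟩)
    intro j
    by_cases h : (j : ℕ) < c
    · obtain ⟨j, rfl⟩ : ∃ j' : Fin c, j = Fin.castLE hc j' := ⟨⟨j, h⟩, rfl⟩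
      have hspan := h4.span_eq_top_of_card_eq_finrank' (by simp)
      obtain ⟨b, hb⟩ := (Submodule.mem_span_range_iff_exists_fun _).1
        (hspan ▸ Submodule.mem_top (x := Pi.single j (1 : L)))
      have : (1 : D) ⊗ₜ[K] f j =
          ∑ i, b i • ∑ j' : Fin c, τ i (Fin.castLE hc j') • (1 : D) ⊗ₜ[K] f j' := by
        simp only [Finset.smul_sum, smul_smul]
        rw [Finset.sum_comm]
        simp only [← Finset.sum_smul]
        have h5 : ∀ j', ∑ i, b i * τ i (Fin.castLE hc j') = (Pi.single j (1 : L) : Fin c → L) j' := by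
          intro j'
          rw [← hb]
          simp
        simp only [h5, Pi.single_apply, ite_smul, one_smul, zero_smul, Finset.sum_ite_eq',
          Finset.mem_univ, if_true]
      rw [hwf, hνK, this]
      refine Submodule.sum_mem _ fun i _ => Submodule.smul_of_tower_mem _ _ ?_
      rw [hrel]
      exact Submodule.sub_mem _ (hZZ _)
        (Submodule.sum_mem _ fun j _ => Submodule.smul_of_tower_mem _ _ (hZZ _))
    · rw [hwl j (not_lt.1 h), map_mul, ← hZ2 j (not_lt.1 h)]
      exact hZZ j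
  have hspan := span_of_eventually Z hZ hcomm (n + 1) (by
    intro α hα
    have := monomial_mem_of_lt hw2 hw (monomial α 1) (isHomogeneous_monomial _ rfl) (by omega)
    obtain ⟨g, hg⟩ := Ideal.mem_span_range_iff_exists_fun.1 this
    rw [← hνK, map_monomial, map_one, ← hg, map_sum]
    refine Submodule.sum_mem _ fun j _ => ?_
    rw [map_mul]
    exact Ideal.mul_mem_left _ _ (hw_mem j))
  obtain ⟨ψ, hψ⟩ := exists_aeval (K := K) Z hcomm
  obtain ⟨A, hA, hA'⟩ := exists_monomial_ideal Z hZ ψ hψ hspan I MonomialOrder.lex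
  refine ⟨A, fun i => ?_, hA⟩
  rw [X_pow_eq_monomial]
  refine Ideal.subset_span ⟨_, ?_, rfl⟩
  have hψ2 : ∀ j, ψ (monomial (Finsupp.single j 2) 1) = Z j * Z j := by
    intro j
    rw [← X_pow_eq_monomial, pow_two, map_mul, hψ]
  refine hA' 2 (Finsupp.single (Finsupp.single (Fin.castLE hc i) 2) 1 -
    ∑ j ∈ univ.filter (fun j : Fin n => c ≤ j),
      Finsupp.single (Finsupp.single j 2) (algebraMap L D (τ i j))) _ ?_ ?_ ?_ ?_
  · intro β hβ
    by_contra hne
    have h5 : ∀ j : Fin n, Finsupp.single j 2 ≠ β := by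
      rintro j rfl
      exact hne (Finsupp.degree_single _ _)
    simp [h5] at hβ
  · rw [map_sub, map_sum]
    simp only [Finsupp.linearCombination_single, hψ2, one_smul, algebraMap_smul]
    rw [← hrel]
    refine Submodule.sum_mem _ fun j _ => ?_
    rw [smul_tmul']
    exact Submodule.tmul_mem_baseChange_of_mem _ ⟨hf j, hdeg j⟩
  · have h5 : ∀ j : Fin n, c ≤ j → Finsupp.single j 2 ≠ Finsupp.single (Fin.castLE hc i) 2 := by
      intro j hj h
      have := Finsupp.single_left_injective (by norm_num) h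
      subst this
      exact absurd i.2 (not_lt.2 hj)
    rw [Finsupp.sub_apply, Finsupp.finsetSum_apply, Finset.sum_eq_zero, Finsupp.single_eq_same,
      sub_zero]
    · exact one_ne_zero
    · intro j hj
      exact Finsupp.single_eq_of_ne' (h5 j (by simpa using hj))
  · intro β hβ
    rw [Finsupp.sub_apply, Finsupp.finsetSum_apply, Finset.sum_eq_zero, sub_zero,
      Finsupp.single_eq_of_ne']
    · rintro rfl
      exact lt_irrefl _ hβ
    · intro j hj
      refine Finsupp.single_eq_of_ne' ?_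
      rintro rfl
      have hj' : c ≤ j := by simpa using hj
      have hij : Fin.castLE hc i < j := Nat.lt_of_lt_of_le i.2 hj'
      refine lt_asymm hβ (MonomialOrder.lex_lt_iff.2 (Finsupp.Lex.lt_iff.2
        ⟨Fin.castLE hc i, fun a ha => ?_, ?_⟩))
      · simp [ha.ne', (ha.trans hij).ne']
      · simp [hij.ne']

end Vale.Agent.P200
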