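import Vale.Agent.P200.Defs

open MvPolynomial Module TensorProduct Finset

namespace Vale.Agent.P200

namespace Span

theorem exists_pw {A : Type*} [Monoid A] {n : ℕ} (Z : Fin n → A)
    (hcomm : ∀ i j, Commute (Z i) (Z j)) :
    ∃ P : (Fin n → ℕ) → A, P 0 = 1 ∧ ∀ β i, P (β + Pi.single i 1) = P β * Z i := by
  let Φ : (Fin n → Multiplicative ℕ) →* A :=
    MonoidHom.noncommPiCoprod (fun i => powersHom A (Z i)) (by
      intro i j _ x y
      exact (hcomm i j).pow_pow _ _)
  refine ⟨fun β => Φ fun i => Multiplicative.ofAdd (β i), ?_, fun β i => ?_⟩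
  · exact map_one Φ
  · have h1 : (fun j => Multiplicative.ofAdd ((β + Pi.single i 1 : Fin n → ℕ) j)) =
        (fun j => Multiplicative.ofAdd (β j)) * Pi.mulSingle i (Multiplicative.ofAdd 1) := by
      funext j
      by_cases h : j = i
      · subst h; simp
      · simp [h]
    beta_reduce
    rw [h1, map_mul]
    congr 1
    refine (MonoidHom.noncommPiCoprod_mulSingle (fun i => powersHom A (Z i)) i _).trans ?_
    simp

variable {K D : Type*} [Field K] [DivisionRing D] [Algebra K D] {n : ℕ}

attribute [local instance] MvPolynomial.gradedAlgebra in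
theorem hc_mul (d : ℕ) (p q : MvPolynomial (Fin n) K) (hq : q ∈ homogeneousSubmodule (Fin n) K 1) :
    homogeneousComponent (d + 1) (p * q) = homogeneousComponent d p * q := by
  rw [← decomposition.decompose'_apply, ← decomposition.decompose'_apply]
  exact DirectSum.coe_decompose_mul_add_of_right_mem (homogeneousSubmodule (Fin n) K) hq

theorem pr_mul (d : ℕ) (a z : D ⊗[K] MvPolynomial (Fin n) K)
    (hz : z ∈ (homogeneousSubmodule (Fin n) K 1).baseChange D) :
    (homogeneousComponent (d + 1)).baseChange D (a * z) =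
      (homogeneousComponent d).baseChange D a * z := by
  obtain ⟨z, rfl⟩ := hz
  induction z using TensorProduct.induction_on with
  | zero => simp
  | add x y hx hy => simp only [map_add, mul_add, hx, hy]
  | tmul e q =>
    induction a using TensorProduct.induction_on with
    | zero => simp
    | add x y hx hy => simp only [map_add, add_mul, hx, hy]
    | tmul c p =>
      simp only [LinearMap.baseChange_tmul, Submodule.subtype_apply,
        Algebra.TensorProduct.tmul_mul_tmul, hc_mul d p q q.2]

theorem pr_mem (d : ℕ) (a : D ⊗[K] MvPolynomial (Fin n) K) :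
    (homogeneousComponent d).baseChange D a ∈ (homogeneousSubmodule (Fin n) K d).baseChange D := by
  induction a using TensorProduct.induction_on with
  | zero => simp
  | add x y hx hy => rw [map_add]; exact add_mem hx hy
  | tmul c p =>
    rw [LinearMap.baseChange_tmul]
    exact Submodule.tmul_mem_baseChange_of_mem _ (homogeneousComponent_mem d p)

theorem mul_smul_mem (d : ℕ) (e : D) (a : D ⊗[K] MvPolynomial (Fin n) K)
    (ha : a ∈ (homogeneousSubmodule (Fin n) K d).baseChange D) :
    a * (e ⊗ₜ[K] 1) ∈ (homogeneousSubmodule (Fin n) K d).baseChange D := by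
  obtain ⟨a, rfl⟩ := ha
  induction a using TensorProduct.induction_on with
  | zero => simp
  | add x y hx hy => rw [map_add, add_mul]; exact add_mem hx hy
  | tmul c p =>
    rw [LinearMap.baseChange_tmul, Algebra.TensorProduct.tmul_mul_tmul, mul_one]
    exact Submodule.tmul_mem_baseChange_of_mem _ p.2

theorem smul_eq (e : D) (z : D ⊗[K] MvPolynomial (Fin n) K) : e • z = (e ⊗ₜ[K] 1) * z := by
  induction z using TensorProduct.induction_on with
  | zero => simp
  | add x y hx hy => rw [smul_add, mul_add, hx, hy]
  | tmul c p => rw [Algebra.TensorProduct.tmul_mul_tmul, one_mul, smul_tmul', smul_eq_mul]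

theorem le_of_mono (d : ℕ) (N : Submodule D (D ⊗[K] MvPolynomial (Fin n) K))
    (h : ∀ α : Fin n →₀ ℕ, α.degree = d → (1 : D) ⊗ₜ[K] (monomial α (1 : K)) ∈ N) :
    (homogeneousSubmodule (Fin n) K d).baseChange D ≤ N := by
  rintro _ ⟨a, rfl⟩
  induction a using TensorProduct.induction_on with
  | zero => simp
  | add x y hx hy => rw [map_add]; exact add_mem hx hy
  | tmul c p =>
    obtain ⟨p, hp⟩ := p
    rw [LinearMap.baseChange_tmul, Submodule.subtype_apply]
    change c ⊗ₜ[K] p ∈ N
    rw [p.as_sum, tmul_sum]
    refine Submodule.sum_mem _ fun α hα => ?_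
    have h1 : α.degree = d := by
      by_contra hne
      exact (mem_support_iff.1 hα) (IsHomogeneous.coeff_eq_zero hp hne)
    have h2 : c ⊗ₜ[K] (monomial α (coeff α p)) =
        (coeff α p • c) • ((1 : D) ⊗ₜ[K] (monomial α (1 : K))) := by
      rw [smul_tmul', smul_eq_mul, mul_one, smul_tmul, smul_monomial, smul_eq_mul, mul_one]
    rw [h2]
    exact N.smul_mem _ (h α h1)

theorem indep : LinearIndependent D
    fun α : Fin n →₀ ℕ => (1 : D) ⊗ₜ[K] (monomial α (1 : K) : MvPolynomial (Fin n) K) := by
  have := (Algebra.TensorProduct.basis D (basisMonomials (Fin n) K)).linearIndependent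
  convert this using 1
  funext α
  simp

end Span

/-- T5 -/
theorem span_of_eventually {K D : Type*} [Field K] [DivisionRing D] [Algebra K D] {n : ℕ}
    (Z : Fin n → D ⊗[K] MvPolynomial (Fin n) K)
    (hZ : ∀ i, Z i ∈ (homogeneousSubmodule (Fin n) K 1).baseChange D)
    (hcomm : ∀ i j, Commute (Z i) (Z j)) (d₀ : ℕ)
    (hev : ∀ α : Fin n →₀ ℕ, d₀ ≤ α.degree →
      (1 : D) ⊗ₜ[K] (monomial α (1 : K)) ∈ Ideal.span (Set.range Z)) :
    (homogeneousSubmodule (Fin n) K 1).baseChange D ≤ Submodule.span D (Set.range Z) := by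
  classical
  by_cases hli : LinearIndependent D Z
  · have h1 : (homogeneousSubmodule (Fin n) K 1).baseChange D ≤
        Submodule.span D (Set.range fun i : Fin n =>
          (1 : D) ⊗ₜ[K] (X i : MvPolynomial (Fin n) K)) := by
      rw [homogeneousSubmodule_one_eq_span_X, Submodule.baseChange_span, ← Set.range_comp]
      exact le_rfl
    have h2 : Submodule.span D (Set.range Z) ≤ Submodule.span D (Set.range fun i : Fin n =>
          (1 : D) ⊗ₜ[K] (X i : MvPolynomial (Fin n) K)) :=
      (Submodule.span_le.2 (by rintro _ ⟨i, rfl⟩; exact hZ i)).trans h1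
    have : FiniteDimensional D (Submodule.span D (Set.range fun i : Fin n =>
          (1 : D) ⊗ₜ[K] (X i : MvPolynomial (Fin n) K))) :=
      FiniteDimensional.span_of_finite D (Set.finite_range _)
    have h3 := Submodule.eq_of_le_of_finrank_le h2 (by
      rw [finrank_span_eq_card hli]
      exact finrank_range_le_card _)
    rw [h3]
    exact h1
  exfalso
  rw [linearIndependent_iff_notMem_span] at hli
  push Not at hli
  obtain ⟨i0, hi0⟩ := hli
  obtain ⟨P, hP0, hP⟩ := Span.exists_pw Z hcomm
  let F : ℕ → Finset ((Fin n →₀ ℕ) × (Fin n → ℕ)) := fun k =>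
    (finsuppAntidiag univ d₀) ×ˢ Fintype.piFinset fun i => if i = i0 then {0} else range (k + 1)
  let f : (Fin n →₀ ℕ) × (Fin n → ℕ) → D ⊗[K] MvPolynomial (Fin n) K :=
    fun t => ((1 : D) ⊗ₜ[K] (monomial t.1 (1 : K))) * P t.2
  let N : ℕ → Submodule D (D ⊗[K] MvPolynomial (Fin n) K) :=
    fun k => Submodule.span D (((F k).image f : Finset _) : Set _)
  have hmono : ∀ j k, j ≤ k → N j ≤ N k := by
    intro j k hjk
    refine Submodule.span_mono (Finset.coe_subset.2 (Finset.image_subset_image ?_))
    refine Finset.product_subset_product_right (Fintype.piFinset_subset _ _ fun i => ?_)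
    split_ifs
    · exact subset_rfl
    · exact Finset.range_subset_range.2 (by omega)
  have hstep : ∀ k i, i ≠ i0 → ∀ a ∈ N k, a * Z i ∈ N (k + 1) := by
    intro k i hi
    have : N k ≤ (N (k + 1)).comap (LinearMap.mulRight D (Z i)) := by
      refine Submodule.span_le.2 ?_
      intro x hx
      obtain ⟨t, ht, rfl⟩ := Finset.mem_image.1 (Finset.mem_coe.1 hx)
      refine Submodule.subset_span (Finset.mem_coe.2 (Finset.mem_image.2
        ⟨(t.1, t.2 + Pi.single i 1), ?_, ?_⟩))
      · obtain ⟨ht1, ht2⟩ := Finset.mem_product.1 ht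
        refine Finset.mem_product.2 ⟨ht1, Fintype.mem_piFinset.2 fun j => ?_⟩
        have h3 := Fintype.mem_piFinset.1 ht2 j
        by_cases hj : j = i0
        · subst hj
          simpa [Pi.single_eq_of_ne hi.symm] using h3
        · simp only [hj, if_false, Finset.mem_range] at h3 ⊢
          by_cases hji : j = i
          · subst hji; simp; omega
          · simp [Pi.single_eq_of_ne hji]; omega
      · simp only [f, hP, LinearMap.mulRight_apply, mul_assoc]
    exact fun a ha => this ha
  have hle : ∀ k, (homogeneousSubmodule (Fin n) K (d₀ + k)).baseChange D ≤ N k := by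
    intro k
    induction k with
    | zero =>
      refine Span.le_of_mono _ _ fun α hα => Submodule.subset_span (Finset.mem_coe.2
        (Finset.mem_image.2 ⟨(α, 0), ?_, by simp [f, hP0]⟩))
      refine Finset.mem_product.2 ⟨?_, Fintype.mem_piFinset.2 fun j => by split_ifs <;> simp⟩
      rw [Finset.mem_finsuppAntidiag]
      refine ⟨?_, Finset.subset_univ _⟩
      rw [← Finsupp.degree_eq_sum]
      exact hα
    | succ k ih =>
      refine Span.le_of_mono _ _ fun α hα => ?_
      obtain ⟨c, hc⟩ := (Submodule.mem_span_range_iff_exists_fun _).1 (hev α (by omega))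
      have h1 : (homogeneousComponent (d₀ + k + 1)).baseChange D
          ((1 : D) ⊗ₜ[K] (monomial α (1 : K))) = (1 : D) ⊗ₜ[K] (monomial α (1 : K)) := by
        rw [LinearMap.baseChange_tmul,
          homogeneousComponent_eq_self (isHomogeneous_monomial 1 (by omega))]
      rw [← h1, ← hc, map_sum]
      refine Submodule.sum_mem _ fun i _ => ?_
      rw [smul_eq_mul, Span.pr_mul _ _ _ (hZ i)]
      by_cases hi : i = i0
      · subst hi
        have h2 : ∀ z ∈ Submodule.span D (Z '' (Set.univ \ {i})),
            ∀ a ∈ (homogeneousSubmodule (Fin n) K (d₀ + k)).baseChange D, a * z ∈ N (k + 1) := by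
          intro z hz
          induction hz using Submodule.span_induction with
          | mem x hx =>
            obtain ⟨j, hj, rfl⟩ := hx
            exact fun a ha => hstep k j hj.2 a (ih ha)
          | zero => intro a _; simp
          | add x y _ _ hx hy => intro a ha; rw [mul_add]; exact add_mem (hx a ha) (hy a ha)
          | smul e x _ hx =>
            intro a ha
            rw [Span.smul_eq, ← mul_assoc]
            exact hx _ (Span.mul_smul_mem _ e a ha)
        exact h2 _ hi0 _ (Span.pr_mem _ _)
      · exact hstep k i hi _ (ih (Span.pr_mem _ _))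
  let c := (finsuppAntidiag (univ : Finset (Fin n)) d₀).card
  let t := c * n ^ (n - 1)
  let g : (Fin n → Fin (t + 1)) → (Fin n →₀ ℕ) :=
    fun γ => Finsupp.single i0 d₀ + Finsupp.equivFunOnFinite.symm fun i => (γ i : ℕ)
  have hg : Function.Injective g := by
    intro γ γ' h
    have h1 := Finsupp.equivFunOnFinite.symm.injective (add_left_cancel h)
    funext i
    exact Fin.ext (congrFun h1 i)
  have hind := (Span.indep (K := K) (D := D) (n := n)).comp g hg
  have hcard := linearIndependent_le_span_aux' _ hind
    (((F (n * t)).image f : Finset _) : Set _) (by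
      rintro _ ⟨γ, rfl⟩
      have h1 : (g γ).degree = d₀ + ∑ i, (γ i : ℕ) := by
        simp [g, Finsupp.degree_eq_sum, Finset.sum_add_distrib, Finsupp.single_apply]
      have h2 : ∑ i, (γ i : ℕ) ≤ n * t := by
        calc ∑ i, (γ i : ℕ) ≤ ∑ _i : Fin n, t :=
              Finset.sum_le_sum fun i _ => Nat.lt_succ_iff.1 (γ i).2
          _ = n * t := by simp
      exact hmono _ _ h2 (hle _ (Submodule.tmul_mem_baseChange_of_mem _
        (isHomogeneous_monomial 1 h1))))
  have h3 : (F (n * t)).card = c * (n * t + 1) ^ (n - 1) := by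
    simp only [F, Finset.card_product, Fintype.card_piFinset]
    congr 1
    rw [← Finset.mul_prod_erase _ _ (Finset.mem_univ i0)]
    simp only [if_true, Finset.card_singleton, one_mul]
    rw [Finset.prod_congr rfl (g := fun _ => n * t + 1)]
    · simp
    · intro i hi
      simp [Finset.ne_of_mem_erase hi]
  have h4 : (t + 1) ^ n ≤ c * (n * t + 1) ^ (n - 1) := by
    rw [← h3]
    refine le_trans ?_ (Finset.card_image_le (f := f))
    simpa using hcard
  have hn : 1 ≤ n := by have := i0.2; omega
  have h5 : (n * t + 1) ^ (n - 1) ≤ n ^ (n - 1) * (t + 1) ^ (n - 1) := by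
    rw [← mul_pow]
    exact Nat.pow_le_pow_left (by rw [mul_add]; omega) _
  have h6 : (t + 1) ^ n = (t + 1) * (t + 1) ^ (n - 1) := by
    rw [← pow_succ']; congr 1; omega
  have h7 : (t + 1) * (t + 1) ^ (n - 1) ≤ t * (t + 1) ^ (n - 1) := by
    rw [← h6]
    refine h4.trans ?_
    calc c * (n * t + 1) ^ (n - 1) ≤ c * (n ^ (n - 1) * (t + 1) ^ (n - 1)) :=
          Nat.mul_le_mul_left _ h5
      _ = t * (t + 1) ^ (n - 1) := by rw [← mul_assoc]
  have h8 := Nat.le_of_mul_le_mul_right h7 (by positivity)
  omega

end Vale.Agent.P200
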