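import Vale.Agent.P200.Domain

open MvPolynomial Module TensorProduct Finset

namespace Vale.Agent.P200

/-- Ordered product of the generators indexed by `s`. -/
def oprod {ι R : Type*} [LinearOrder ι] [Monoid R] (e : ι → R) (s : Finset ι) : R :=
  ((s.sort (· ≤ ·)).map e).prod

theorem oprod_empty {ι R : Type*} [LinearOrder ι] [Monoid R] (e : ι → R) : oprod e ∅ = 1 := by
  simp [oprod]

theorem oprod_insert {ι R : Type*} [LinearOrder ι] [Monoid R] (e : ι → R) {a : ι} {s : Finset ι}
    (h : ∀ b ∈ s, a < b) : oprod e (insert a s) = e a * oprod e s := by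
  have h2 : a ∉ s := fun ha => lt_irrefl _ (h a ha)
  rw [oprod, Finset.sort_insert _ (fun b hb => (h b hb).le) h2]
  simp [oprod]

theorem mul_oprod_mem {ι Λ R : Type*} [LinearOrder ι] [CommRing Λ] [Ring R] [Algebra Λ R]
    (e : ι → R) (M : ι → ι → Λ)
    (h1 : ∀ a b, e a * e b + e b * e a = algebraMap Λ R (M a b + M b a))
    (h2 : ∀ a, e a * e a = algebraMap Λ R (M a a)) (s : Finset ι) :
    ∀ a, e a * oprod e s ∈ Submodule.span Λ (oprod e '' {t | t ⊆ insert a s}) := by
  induction s using Finset.induction_on_min with
  | empty =>
    intro a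
    rw [← oprod_insert e (by simp)]
    exact Submodule.subset_span ⟨_, Finset.Subset.refl _, rfl⟩
  | insert b s hb ih =>
    intro a
    rcases lt_trichotomy a b with hab | rfl | hab
    · rw [← oprod_insert e]
      · exact Submodule.subset_span ⟨_, Finset.Subset.refl _, rfl⟩
      · intro x hx
        rcases Finset.mem_insert.1 hx with rfl | hx
        · exact hab
        · exact hab.trans (hb x hx)
    · rw [oprod_insert e hb, ← mul_assoc, h2, ← Algebra.smul_def]
      refine Submodule.smul_mem _ _ (Submodule.subset_span ⟨s, ?_, rfl⟩)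
      intro x hx
      simp [hx]
    · rw [oprod_insert e hb, ← mul_assoc, eq_sub_of_add_eq (h1 a b), sub_mul, ← Algebra.smul_def,
        mul_assoc]
      refine Submodule.sub_mem _
        (Submodule.smul_mem _ _ (Submodule.subset_span ⟨s, ?_, rfl⟩)) ?_
      · intro x hx
        simp [hx]
      · have := ih a
        generalize e a * oprod e s = u at this
        induction this using Submodule.span_induction with
        | mem u hu =>
          obtain ⟨t, ht, rfl⟩ := hu
          rw [← oprod_insert e]
          · refine Submodule.subset_span ⟨_, ?_, rfl⟩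
            intro x hx
            rcases Finset.mem_insert.1 hx with rfl | hx
            · simp
            · rcases Finset.mem_insert.1 (ht hx) with rfl | hx
              · simp
              · simp [hx]
          · intro x hx
            rcases Finset.mem_insert.1 (ht hx) with rfl | hx
            · exact hab
            · exact hb x hx
        | zero => simp
        | add x y _ _ hx hy => rw [mul_add]; exact Submodule.add_mem _ hx hy
        | smul c x _ hx => rw [mul_smul_comm]; exact Submodule.smul_mem _ _ hx

theorem span_oprod {Λ V ι : Type*} [CommRing Λ] [AddCommGroup V] [Module Λ V] [LinearOrder ι]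
    (Q : QuadraticForm Λ V) (v : ι → V) (hv : Submodule.span Λ (Set.range v) = ⊤)
    (M : ι → ι → Λ)
    (h1 : ∀ a b, CliffordAlgebra.ι Q (v a) * CliffordAlgebra.ι Q (v b) +
      CliffordAlgebra.ι Q (v b) * CliffordAlgebra.ι Q (v a) = algebraMap Λ _ (M a b + M b a))
    (h2 : ∀ a, CliffordAlgebra.ι Q (v a) * CliffordAlgebra.ι Q (v a) = algebraMap Λ _ (M a a)) :
    Submodule.span Λ (Set.range (oprod fun a => CliffordAlgebra.ι Q (v a))) = ⊤ := by
  set W := Submodule.span Λ (Set.range (oprod fun a => CliffordAlgebra.ι Q (v a))) with hW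
  have hmul : ∀ x : V, ∀ u ∈ W, CliffordAlgebra.ι Q x * u ∈ W := by
    intro x u hu
    have hx : x ∈ Submodule.span Λ (Set.range v) := hv ▸ Submodule.mem_top
    induction hx using Submodule.span_induction with
    | mem x hx =>
      obtain ⟨a, rfl⟩ := hx
      induction hu using Submodule.span_induction with
      | mem u hu =>
        obtain ⟨s, rfl⟩ := hu
        exact Submodule.span_mono (Set.image_subset_range _ _)
          (mul_oprod_mem (fun a => CliffordAlgebra.ι Q (v a)) M h1 h2 s a)
      | zero => simp
      | add x y _ _ hx hy => rw [mul_add]; exact Submodule.add_mem _ hx hy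
      | smul c x _ hx => rw [mul_smul_comm]; exact Submodule.smul_mem _ _ hx
    | zero => simp
    | add x y _ _ hx hy => rw [map_add, add_mul]; exact Submodule.add_mem _ hx hy
    | smul c x _ hx => rw [map_smul, smul_mul_assoc]; exact Submodule.smul_mem _ _ hx
  rw [eq_top_iff]
  rintro u -
  induction u using CliffordAlgebra.left_induction with
  | algebraMap r =>
    rw [Algebra.algebraMap_eq_smul_one]
    exact Submodule.smul_mem _ _ (Submodule.subset_span ⟨∅, oprod_empty _⟩)
  | add x y hx hy => exact Submodule.add_mem _ hx hy
  | ι_mul x m hx => exact hmul m x hx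

section Span

variable {L R ι : Type*} [Field L] [Ring R] [Algebra L R] (φ : R →ₐ[L] Polynomial R)
  (g : ι → R) (deg : ι → ℕ) (hg : ∀ i, g i ∈ hom φ (deg i))
  (hspan : Submodule.span L (Set.range g) = ⊤)

include hg hspan

theorem prj_mem_span (u : R) (d : ℕ) : prj φ d u ∈ Submodule.span L (g '' {i | deg i = d}) := by
  have hu : u ∈ Submodule.span L (Set.range g) := hspan ▸ Submodule.mem_top
  induction hu using Submodule.span_induction with
  | mem u hu =>
    obtain ⟨i, rfl⟩ := hu
    by_cases h : deg i = d
    · subst h
      rw [prj_of_hom φ (hg i)]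
      exact Submodule.subset_span ⟨i, rfl, rfl⟩
    · rw [prj_of_hom_ne φ (hg i) h]
      exact Submodule.zero_mem _
  | zero => simp
  | add x y _ _ hx hy => rw [map_add]; exact Submodule.add_mem _ hx hy
  | smul c x _ hx => rw [map_smul]; exact Submodule.smul_mem _ _ hx

theorem hom_eq_span (d : ℕ) : hom φ d = Submodule.span L (g '' {i | deg i = d}) := by
  apply le_antisymm
  · intro u hu
    rw [← prj_of_hom φ hu]
    exact prj_mem_span φ g deg hg hspan u d
  · rw [Submodule.span_le]
    rintro _ ⟨i, rfl, rfl⟩
    exact hg i

theorem idem_of_span (u : R) (d : ℕ) : prj φ d u ∈ hom φ d := by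
  rw [hom_eq_span φ g deg hg hspan]
  exact prj_mem_span φ g deg hg hspan u d

theorem inj_of_span (u : R) (h : φ u = 0) : u = 0 := by
  have : Polynomial.eval 1 (φ u) = u := by
    clear h
    have hu : u ∈ Submodule.span L (Set.range g) := hspan ▸ Submodule.mem_top
    induction hu using Submodule.span_induction with
    | mem u hu =>
      obtain ⟨i, rfl⟩ := hu
      rw [(mem_hom φ).1 (hg i), Polynomial.eval_monomial, one_pow, mul_one]
    | zero => simp
    | add x y _ _ hx hy => rw [map_add, Polynomial.eval_add, hx, hy]
    | smul c x _ hx => rw [map_smul, Polynomial.eval_smul, hx]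
  rw [← this, h, Polynomial.eval_zero]

theorem bound_of_span (d : ℕ) (T : Finset ι) (hT : ∀ i, deg i = d ↔ i ∈ T) :
    FiniteDimensional L (hom φ d) ∧ finrank L (hom φ d) ≤ T.card := by
  classical
  have : g '' {i | deg i = d} = (T.image g : Set R) := by
    rw [Finset.coe_image]
    congr 1
    ext i
    exact hT i
  rw [hom_eq_span φ g deg hg hspan, this]
  exact ⟨FiniteDimensional.span_finset _ _,
    (finrank_span_finset_le_card _).trans Finset.card_image_le⟩

end Span

end Vale.Agent.P200
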