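import Vale.Agent.P200.Cliff

open MvPolynomial Module TensorProduct Finset

namespace Vale.Agent.P200

/-- Polynomials over `R`, viewed as an algebra over `MvPolynomial σ L` by sending
each variable `t` to `t * X ^ 2`. -/
def Tw (σ L R : Type*) [CommRing L] [Ring R] [Algebra (MvPolynomial σ L) R] := Polynomial R

namespace Tw

variable (σ L R : Type*) [CommRing L] [Ring R] [Algebra (MvPolynomial σ L) R]

noncomputable instance : Ring (Tw σ L R) := inferInstanceAs (Ring (Polynomial R))

/-- The structure map. -/
noncomputable def θ : MvPolynomial σ L →+* Polynomial R :=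
  (Polynomial.mapRingHom (algebraMap (MvPolynomial σ L) R)).comp
    (MvPolynomial.aeval (R := L)
      (fun l : σ => Polynomial.monomial 2 (X l : MvPolynomial σ L))).toRingHom

theorem θ_comm (c : MvPolynomial σ L) (x : Polynomial R) : θ σ L R c * x = x * θ σ L R c := by
  let := Polynomial.algebra (MvPolynomial σ L) R
  exact Algebra.commutes (A := Polynomial R) (MvPolynomial.aeval (R := L)
      (fun l : σ => Polynomial.monomial 2 (X l : MvPolynomial σ L)) c) x

noncomputable instance : Algebra (MvPolynomial σ L) (Tw σ L R) :=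
  (θ σ L R).toAlgebra' (θ_comm σ L R)

theorem θ_X (l : σ) : θ σ L R (X l) =
    Polynomial.monomial 2 (algebraMap (MvPolynomial σ L) R (X l)) := by
  simp [θ]

theorem θ_C (c : L) : θ σ L R (C c) = Polynomial.C (algebraMap (MvPolynomial σ L) R (C c)) := by
  simp [θ]

end Tw

section Cl

variable {k : Type*} [Field k] (L : Type*) [Field L] [Algebra k L] {n : ℕ}
  (B : Fin n → Fin n → Fin n → k)

/-- The matrix of the generic quadratic form. -/
noncomputable def gmat : Matrix (Fin n) (Fin n) (MvPolynomial (Fin n) L) :=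
  fun a b => ∑ l, B l a b • X l

/-- The generic quadratic form. -/
noncomputable def gform : QuadraticForm (MvPolynomial (Fin n) L) (Fin n → MvPolynomial (Fin n) L) :=
  (Matrix.toBilin' (gmat L B)).toQuadraticMap

/-- Generators of the Clifford algebra. -/
noncomputable def gen (a : Fin n) : CliffordAlgebra (gform L B) :=
  CliffordAlgebra.ι (gform L B) (Pi.single a 1)

theorem gen_sq (a : Fin n) : gen L B a * gen L B a = algebraMap _ _ (gmat L B a a) := by
  rw [gen, CliffordAlgebra.ι_sq_scalar]
  congr 1
  simp [gform, Matrix.toBilin'_single]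

theorem gen_rel (a b : Fin n) : gen L B a * gen L B b + gen L B b * gen L B a =
    algebraMap _ _ (gmat L B a b + gmat L B b a) := by
  rw [gen, gen, CliffordAlgebra.ι_mul_ι_add_swap]
  congr 1
  simp [gform, Matrix.toBilin'_single, LinearMap.BilinMap.polar_toQuadraticMap]

theorem free_cl : Module.Free (MvPolynomial (Fin n) L) (CliffordAlgebra (gform L B)) ∧
    Module.Finite (MvPolynomial (Fin n) L) (CliffordAlgebra (gform L B)) ∧
    Nontrivial (CliffordAlgebra (gform L B)) := by
  have h : (Matrix.toBilin' (gmat L B)).toQuadraticMap = gform L B - 0 := by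
    rw [sub_zero]; rfl
  let E := CliffordAlgebra.changeFormEquiv h
  let b := (Pi.basisFun (MvPolynomial (Fin n) L) (Fin n)).ExteriorAlgebra
  have b' := b.map E
  exact ⟨Module.Free.of_basis b', Module.Finite.of_basis b', ⟨0, b' ∅, (b'.ne_zero _).symm⟩⟩

theorem span_gen : Submodule.span (MvPolynomial (Fin n) L) (Set.range (oprod (gen L B))) = ⊤ :=
  span_oprod (gform L B) (fun a => Pi.single a 1)
    (by
      rw [← (Pi.basisFun (MvPolynomial (Fin n) L) (Fin n)).span_eq]
      congr 2
      funext a
      rw [Pi.basisFun_apply])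
    (gmat L B) (gen_rel L B) (gen_sq L B)

theorem exists_lift {R : Type*} [Ring R] [Algebra (MvPolynomial (Fin n) L) R] (E : Fin n → R)
    (h1 : ∀ a b, E a * E b + E b * E a = algebraMap _ _ (gmat L B a b + gmat L B b a))
    (h2 : ∀ a, E a * E a = algebraMap _ _ (gmat L B a a)) :
    ∃ F : CliffordAlgebra (gform L B) →ₐ[MvPolynomial (Fin n) L] R, ∀ a, F (gen L B a) = E a := by
  refine ⟨CliffordAlgebra.lift _ ⟨Fintype.linearCombination _ E, fun v => ?_⟩, fun a => ?_⟩
  · rw [Fintype.linearCombination_apply, Finset.sum_mul_sum, ← sub_eq_zero]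
    have : gform L B v = ∑ a, ∑ b, v a * gmat L B a b * v b := by
      simp [gform, Matrix.toBilin'_apply]
    rw [this, map_sum, ← Finset.sum_sub_distrib]
    simp only [map_sum, ← Finset.sum_sub_distrib]
    have h3 : ∀ a b, v a • E a * v b • E b - algebraMap _ R (v a * gmat L B a b * v b) =
        (v a * v b) • (E a * E b - algebraMap _ R (gmat L B a b)) := by
      intro a b
      rw [smul_mul_smul_comm, smul_sub, mul_right_comm, map_mul, ← Algebra.smul_def]
    simp only [h3]
    refine sum_sum_eq_zero_of_alt _ (fun a b => ?_) (fun a => ?_)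
    · rw [mul_comm (v b), ← smul_add, sub_add_sub_comm, h1, map_add, sub_self, smul_zero]
    · rw [h2, sub_self, smul_zero]
  · simp [gen]

theorem algebraMap_gmat {R : Type*} [Ring R] [Algebra k R] [Algebra (MvPolynomial (Fin n) L) R]
    [IsScalarTower k (MvPolynomial (Fin n) L) R] (a b : Fin n) :
    algebraMap (MvPolynomial (Fin n) L) R (gmat L B a b) =
      ∑ l, B l a b • algebraMap (MvPolynomial (Fin n) L) R (X l) := by
  simp only [gmat, map_sum]
  refine Finset.sum_congr rfl fun l _ => ?_
  rw [Algebra.algebraMap_eq_smul_one, Algebra.algebraMap_eq_smul_one, smul_assoc]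

variable (D : Type*) [Ring D] [Algebra L D]

theorem exists_grading : ∃ φ : CliffordAlgebra (gform L B) ⊗[L] D →ₐ[L]
      Polynomial (CliffordAlgebra (gform L B) ⊗[L] D),
    (∀ a, gen L B a ⊗ₜ[L] (1 : D) ∈ hom φ 1) ∧
    (∀ l, algebraMap (MvPolynomial (Fin n) L) _ (X l) ∈ hom φ 2) ∧
    (∀ d : D, (1 : CliffordAlgebra (gform L B)) ⊗ₜ[L] d ∈ hom φ 0) := by
  set R := CliffordAlgebra (gform L B) ⊗[L] D with hR
  have hg : ∀ a b, Tw.θ (Fin n) L R (gmat L B a b) =
      Polynomial.monomial 2 (algebraMap (MvPolynomial (Fin n) L) R (gmat L B a b)) := by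
    intro a b
    simp only [gmat, map_sum]
    refine Finset.sum_congr rfl fun l _ => ?_
    rw [← algebraMap_smul L, MvPolynomial.smul_eq_C_mul, map_mul, map_mul, Tw.θ_X, Tw.θ_C,
      Polynomial.C_mul_monomial]
  let E : Fin n → Polynomial R := fun a => Polynomial.monomial 1 (gen L B a ⊗ₜ[L] (1 : D))
  have hE1 : ∀ a b, E a * E b + E b * E a = Tw.θ (Fin n) L R (gmat L B a b + gmat L B b a) := by
    intro a b
    simp only [E]
    rw [Polynomial.monomial_mul_monomial, Polynomial.monomial_mul_monomial, ← map_add, map_add,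
      map_add, hg, hg, ← map_add, ← map_add, ← map_add, Algebra.TensorProduct.tmul_mul_tmul,
      Algebra.TensorProduct.tmul_mul_tmul, mul_one, ← add_tmul, gen_rel]
    rfl
  have hE2 : ∀ a, E a * E a = Tw.θ (Fin n) L R (gmat L B a a) := by
    intro a
    simp only [E]
    rw [Polynomial.monomial_mul_monomial, hg, Algebra.TensorProduct.tmul_mul_tmul, gen_sq,
      mul_one]
    rfl
  obtain ⟨F, hF⟩ := exists_lift L B (R := Tw (Fin n) L R) E hE1 hE2
  let F' : CliffordAlgebra (gform L B) →ₐ[L] Polynomial R :=
    { toRingHom := (F.toRingHom : CliffordAlgebra (gform L B) →+* Tw (Fin n) L R)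
      commutes' := fun c => by
        rw [IsScalarTower.algebraMap_apply L (MvPolynomial (Fin n) L)]
        refine (F.commutes _).trans ?_
        exact Tw.θ_C _ _ _ c }
  have hF' : ∀ a, F' (gen L B a) = Polynomial.monomial 1 (gen L B a ⊗ₜ[L] (1 : D)) := hF
  have hF2 : ∀ p, F' (algebraMap (MvPolynomial (Fin n) L) _ p) = Tw.θ (Fin n) L R p :=
    fun p => F.commutes p
  let G : D →ₐ[L] Polynomial R := Polynomial.CAlgHom.comp Algebra.TensorProduct.includeRight
  have hG : ∀ d, G d = Polynomial.C (1 ⊗ₜ[L] d) := fun _ => rfl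
  have hFG : ∀ x d, Commute (F' x) (G d) := by
    intro x d
    induction x using CliffordAlgebra.induction with
    | algebraMap r => rw [hF2]; exact Tw.θ_comm _ _ _ _ _
    | ι v =>
      have : CliffordAlgebra.ι (gform L B) v =
          ∑ a, algebraMap (MvPolynomial (Fin n) L) _ (v a) * gen L B a := by
        conv_lhs => rw [← Finset.univ_sum_single v]
        rw [map_sum]
        refine Finset.sum_congr rfl fun a _ => ?_
        rw [← Algebra.smul_def, gen, ← map_smul, ← Pi.single_smul', smul_eq_mul, mul_one]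
      rw [this, map_sum]
      refine Commute.sum_left _ _ _ fun a _ => ?_
      rw [map_mul, hF2, hF']
      refine Commute.mul_left (Tw.θ_comm _ _ _ _ _) ?_
      rw [hG, Commute, SemiconjBy, Polynomial.monomial_mul_C, Polynomial.C_mul_monomial,
        Algebra.TensorProduct.tmul_mul_tmul, Algebra.TensorProduct.tmul_mul_tmul]
      simp
    | mul a b ha hb => rw [map_mul]; exact ha.mul_left hb
    | add a b ha hb => rw [map_add]; exact ha.add_left hb
  refine ⟨Algebra.TensorProduct.lift F' G hFG, fun a => ?_, fun l => ?_, fun d => ?_⟩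
  · rw [mem_hom, Algebra.TensorProduct.lift_tmul, hF', map_one, mul_one]
  · rw [mem_hom, Algebra.TensorProduct.algebraMap_apply, Algebra.TensorProduct.lift_tmul, hF2,
      map_one, mul_one, Tw.θ_X]
    rfl
  · rw [mem_hom, Algebra.TensorProduct.lift_tmul, hG, map_one, one_mul]
    rfl

end Cl

end Vale.Agent.P200
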