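import Mathlib

namespace Vale.Agent.P200

/-- `f` is a regular sequence: multiplication by `f i` is injective on the quotient by the
ideal generated by the earlier members. -/
def Reg {R : Type*} [CommRing R] {c : ℕ} (f : Fin c → R) : Prop :=
  ∀ (i : Fin c) (g : R), f i * g ∈ Ideal.span (f '' Set.Iio i) → g ∈ Ideal.span (f '' Set.Iio i)

/-- `dim_K I_d`: dimension of the space of degree-`d` forms lying in `I`. -/
noncomputable def dimIn {K : Type*} [Field K] {n : ℕ} (I : Ideal (MvPolynomial (Fin n) K))
    (d : ℕ) : ℕ :=
  Module.finrank K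
    ↥(I.restrictScalars K ⊓ MvPolynomial.homogeneousSubmodule (Fin n) K d)

end Vale.Agent.P200
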