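import Vale.Agent.P200.Htpy

open MvPolynomial Module TensorProduct Finset

namespace Vale.Agent.P200

theorem finite_tensor {k Λ N A : Type*} [Field k] [CommRing Λ] [Algebra k Λ]
    [AddCommGroup N] [Module k N] [Module Λ N] [IsScalarTower k Λ N]
    [AddCommGroup A] [Module k A] [Module.Finite Λ N] [Module.Finite k A] :
    Module.Finite Λ (N ⊗[k] A) :=
  Module.Finite.equiv (AlgebraTensorModule.cancelBaseChange k Λ Λ N A)

theorem finrank_range_map {k L N A : Type*} [Field k] [Field L] [Algebra k L]
    [AddCommGroup N] [Module k N] [Module L N] [IsScalarTower k L N]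
    [AddCommGroup A] [Module k A] (P : N →ₗ[L] N) (Q : A →ₗ[k] A) :
    finrank L (LinearMap.range (AlgebraTensorModule.map P Q)) =
      finrank L (LinearMap.range P) * finrank k (LinearMap.range Q) := by
  have h1 : AlgebraTensorModule.map P Q =
      (AlgebraTensorModule.map (LinearMap.range P).subtype (LinearMap.range Q).subtype) ∘ₗ
        (AlgebraTensorModule.map P.rangeRestrict Q.rangeRestrict) := by
    ext u s; simp
  have hsurj : Function.Surjective (AlgebraTensorModule.map P.rangeRestrict Q.rangeRestrict) := by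
    have := TensorProduct.map_surjective (g := P.rangeRestrict.restrictScalars k)
      (g' := Q.rangeRestrict) P.surjective_rangeRestrict Q.surjective_rangeRestrict
    exact this
  have hinj : Function.Injective
      (AlgebraTensorModule.map (LinearMap.range P).subtype (LinearMap.range Q).subtype) := by
    have := TensorProduct.map_injective_of_flat_flat
      ((LinearMap.range P).subtype.restrictScalars k) (LinearMap.range Q).subtype
      (LinearMap.range P).injective_subtype (LinearMap.range Q).injective_subtype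
    exact this
  rw [h1, LinearMap.range_comp, LinearMap.range_eq_top.2 hsurj, Submodule.map_top,
    LinearMap.finrank_range_of_inj hinj, Module.finrank_tensorProduct]

theorem finite_range_map {k L N A : Type*} [Field k] [Field L] [Algebra k L]
    [AddCommGroup N] [Module k N] [Module L N] [IsScalarTower k L N]
    [AddCommGroup A] [Module k A] (P : N →ₗ[L] N) (Q : A →ₗ[k] A)
    [FiniteDimensional L (LinearMap.range P)] [FiniteDimensional k (LinearMap.range Q)] :
    FiniteDimensional L (LinearMap.range (AlgebraTensorModule.map P Q)) := by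
  have h1 : AlgebraTensorModule.map P Q =
      (AlgebraTensorModule.map (LinearMap.range P).subtype (LinearMap.range Q).subtype) ∘ₗ
        (AlgebraTensorModule.map P.rangeRestrict Q.rangeRestrict) := by
    ext u s; simp
  have : LinearMap.range (AlgebraTensorModule.map P Q) ≤ LinearMap.range
      (AlgebraTensorModule.map (LinearMap.range P).subtype (LinearMap.range Q).subtype) := by
    rw [h1]; exact LinearMap.range_comp_le_range _ _
  have hf : Module.Finite L (LinearMap.range P ⊗[k] LinearMap.range Q) := finite_tensor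
  exact Submodule.finiteDimensional_of_le this

/-- Alternating sum of dimensions in a finite exact complex of subspaces. -/
theorem alt_sum_eq_zero {L T : Type*} [Field L] [AddCommGroup T] [Module L T] (Y : T →ₗ[L] T)
    (C : ℕ → Submodule L T) [∀ j, FiniteDimensional L (C j)]
    (h0 : ∀ z ∈ C 0, Y z = 0 → z = 0)
    (h1 : ∀ j, (C j).map Y = C (j + 1) ⊓ LinearMap.ker Y) (J : ℕ) (hJ : C J = ⊥) :
    ∑ j ∈ range J, (-1 : ℤ) ^ j * (finrank L (C j) : ℤ) = 0 := by
  have key : ∀ j, (finrank L (C j) : ℤ) =
      finrank L ↥(C j ⊓ LinearMap.ker Y) + finrank L ↥(C (j + 1) ⊓ LinearMap.ker Y) := by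
    intro j
    have := LinearMap.finrank_range_add_finrank_ker (Y.domRestrict (C j))
    rw [LinearMap.range_domRestrict, h1, LinearMap.ker_domRestrict] at this
    have h2 : finrank L ↥(Submodule.comap (C j).subtype (LinearMap.ker Y)) =
        finrank L ↥(C j ⊓ LinearMap.ker Y) := by
      rw [← Submodule.finrank_map_subtype_eq, Submodule.map_comap_subtype]
    rw [h2] at this
    push_cast [← this]
    ring
  have gen : ∀ J, ∑ j ∈ range J, (-1 : ℤ) ^ j * (finrank L (C j) : ℤ) =
      finrank L ↥(C 0 ⊓ LinearMap.ker Y) - (-1) ^ J * finrank L ↥(C J ⊓ LinearMap.ker Y) := by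
    intro J
    induction J with
    | zero => simp
    | succ J ih => rw [Finset.sum_range_succ, ih, key J]; ring
  rw [gen, hJ]
  have : C 0 ⊓ LinearMap.ker Y = ⊥ := by
    rw [eq_bot_iff]
    intro z hz
    exact h0 z hz.1 hz.2
  rw [this]
  simp

theorem euler_rec {k L : Type*} [Field k] [Field L] [Algebra k L] {n : ℕ}
    {N : Type*} [AddCommGroup N] [Module k N] [Module L N] [Module (MvPolynomial (Fin n) L) N]
    [IsScalarTower k L N] [IsScalarTower L (MvPolynomial (Fin n) L) N]
    [IsScalarTower k (MvPolynomial (Fin n) L) N] [Module.Finite (MvPolynomial (Fin n) L) N]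
    (E : Fin n → N →ₗ[MvPolynomial (Fin n) L] N) (P : ℕ → N →ₗ[L] N)
    [∀ i, FiniteDimensional L (LinearMap.range (P i))]
    (hP0 : ∀ u, ∃ i₀, ∀ i ≥ i₀, P i u = 0)
    (hP1 : ∀ i a u, P (i + 1) (E a u) = E a (P i u))
    (hP2 : ∀ i u, P i (P i u) = P i u)
    {A : Type*} [CommRing A] [Algebra k A] [FiniteDimensional k A] (x : Fin n → A)
    (Q : ℕ → A →ₗ[k] A) (hQ0 : ∀ a s, Q 0 (x a * s) = 0)
    (hQ1 : ∀ j a s, Q (j + 1) (x a * s) = x a * Q j s) (hQ2 : ∀ j s, Q j (Q j s) = Q j s)
    (hYY : ∀ z, opY (fun a => (E a).restrictScalars k) x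
      (opY (fun a => (E a).restrictScalars k) x z) = 0)
    (hH : ∀ z, opY (fun a => (E a).restrictScalars k) x z = 0 → ∀ l : Fin n,
      (X l : MvPolynomial (Fin n) L) • z ∈
        LinearMap.range (opY (fun a => (E a).restrictScalars k) x))
    (J : ℕ) (hJ : Q J = 0) :
    ∃ d₀, ∀ d ≥ d₀, ∑ j ∈ range J, (-1 : ℤ) ^ j * (finrank k (LinearMap.range (Q j)) : ℤ) *
      (finrank L (LinearMap.range (P (d + j))) : ℤ) = 0 := by
  let Y : N ⊗[k] A →ₗ[MvPolynomial (Fin n) L] N ⊗[k] A :=
    ∑ a, AlgebraTensorModule.map (E a) (LinearMap.mulLeft k (x a))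
  have hYt : ∀ u s, Y (u ⊗ₜ s) = ∑ a, E a u ⊗ₜ (x a * s) := by
    intro u s; simp [Y, LinearMap.sum_apply]
  have hY : ∀ z, opY (fun a => (E a).restrictScalars k) x z = Y z := by
    intro z
    induction z with
    | zero => simp
    | add z z' hz hz' => simp only [map_add, hz, hz']
    | tmul u s => rw [opY_tmul, hYt]; rfl
  simp only [hY, LinearMap.mem_range] at hYY hH
  let R : ℕ → ℕ → N ⊗[k] A →ₗ[L] N ⊗[k] A := fun i j => AlgebraTensorModule.map (P i) (Q j)
  have hR1 : ∀ i j z, R (i + 1) (j + 1) (Y z) = Y (R i j z) := by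
    intro i j z
    induction z with
    | zero => simp
    | add z z' hz hz' => simp only [map_add, hz, hz']
    | tmul u s => simp [R, hYt, hP1, hQ1]
  have hR0 : ∀ i z, R i 0 (Y z) = 0 := by
    intro i z
    induction z with
    | zero => simp
    | add z z' hz hz' => simp only [map_add, hz, hz', add_zero]
    | tmul u s => simp [R, hYt, hQ0]
  have hR2 : ∀ i j z, R i j (R i j z) = R i j z := by
    intro i j z
    induction z with
    | zero => simp
    | add z z' hz hz' => simp only [map_add, hz, hz']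
    | tmul u s => simp [R, hP2, hQ2]
  have hR3 : ∀ z, ∃ i₀, ∀ i ≥ i₀, ∀ j, R i j z = 0 := by
    intro z
    induction z with
    | zero => exact ⟨0, by simp⟩
    | add z z' hz hz' =>
      obtain ⟨a, ha⟩ := hz
      obtain ⟨b, hb⟩ := hz'
      refine ⟨max a b, fun i hi j => ?_⟩
      rw [map_add, ha i (le_of_max_le_left hi), hb i (le_of_max_le_right hi), add_zero]
    | tmul u s =>
      obtain ⟨a, ha⟩ := hP0 u
      exact ⟨a, fun i hi j => by simp [R, ha i hi]⟩
  have hsm : ∀ (p : MvPolynomial (Fin n) L) (z : N ⊗[k] A), Y z = 0 →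
      ∃ y, p • z = (constantCoeff p) • z + Y y := by
    intro p
    induction p using MvPolynomial.induction_on with
    | C c =>
      intro z _
      refine ⟨0, ?_⟩
      rw [map_zero, add_zero, constantCoeff_C, ← algebraMap_eq, algebraMap_smul]
    | add p q hp hq =>
      intro z hz
      obtain ⟨y, hy⟩ := hp z hz
      obtain ⟨y', hy'⟩ := hq z hz
      refine ⟨y + y', ?_⟩
      rw [add_smul, hy, hy', map_add, map_add, add_smul]; abel
    | mul_X p l _ =>
      intro z hz
      obtain ⟨y, hy⟩ := hH (p • z) (by rw [map_smul, hz, smul_zero]) l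
      refine ⟨y, ?_⟩
      rw [hy, mul_comm, mul_smul]; simp
  have hfin : Module.Finite (MvPolynomial (Fin n) L) (N ⊗[k] A) := finite_tensor
  obtain ⟨S, hS⟩ : (LinearMap.ker Y).FG := IsNoetherian.noetherian _
  choose i₀ hi₀ using hR3
  have hker : ∀ z, Y z = 0 → ∀ i ≥ S.sup i₀, ∀ j, ∃ y, R i j z = R i j (Y y) := by
    intro z hz i hi j
    have hz' : z ∈ Submodule.span (MvPolynomial (Fin n) L) (S : Set (N ⊗[k] A)) := by
      rw [hS]; exact hz
    obtain ⟨c, -, hc⟩ := Submodule.mem_span_finset.1 hz'
    have : ∀ s ∈ S, ∃ y, R i j (c s • s) = R i j (Y y) := by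
      intro s hs
      have hs' : Y s = 0 := by
        have : s ∈ LinearMap.ker Y := by rw [← hS]; exact Submodule.subset_span hs
        exact this
      obtain ⟨y, hy⟩ := hsm (c s) s hs'
      refine ⟨y, ?_⟩
      rw [hy, map_add, map_smul, hi₀ s i (le_trans (Finset.le_sup hs) hi), smul_zero, zero_add]
    choose! y hy using this
    refine ⟨∑ s ∈ S, y s, ?_⟩
    rw [← hc, map_sum, map_sum, map_sum]
    exact Finset.sum_congr rfl hy
  refine ⟨S.sup i₀, fun d hd => ?_⟩
  have : ∀ j, FiniteDimensional L (LinearMap.range (R (d + j) j)) := fun j =>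
    finite_range_map _ _
  have := alt_sum_eq_zero (Y.restrictScalars L) (fun j => LinearMap.range (R (d + j) j)) ?_ ?_ J ?_
  · rw [← this]
    refine Finset.sum_congr rfl fun j _ => ?_
    simp only [R]
    rw [finrank_range_map]
    push_cast
    ring
  · rintro z ⟨z', rfl⟩ hz
    obtain ⟨y, hy⟩ := hker _ hz (d + 0) (by omega) 0
    rw [hR2] at hy
    rw [hy, hR0]
  · intro j
    apply le_antisymm
    · rintro _ ⟨_, ⟨z, rfl⟩, rfl⟩
      refine ⟨⟨Y z, ?_⟩, ?_⟩
      · exact hR1 _ _ _
      · exact hYY _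
    · rintro _ ⟨⟨z, rfl⟩, hz⟩
      obtain ⟨y, hy⟩ := hker _ hz (d + (j + 1)) (by omega) (j + 1)
      rw [hR2] at hy
      refine ⟨R (d + j) j y, ⟨y, rfl⟩, ?_⟩
      rw [hy]
      exact (hR1 _ _ _).symm
  · rw [LinearMap.range_eq_bot]
    simp only [R, hJ]
    ext u s; simp

end Vale.Agent.P200
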