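import Vale.Agent.P200.Quot
import Vale.Agent.P200.Euler
import Vale.Agent.P200.Asym

open MvPolynomial Module TensorProduct Finset

namespace Vale.Agent.P200

theorem finrank_dvd_of_stable {L D R : Type*} [Field L] [DivisionRing D] [Algebra L D]
    [Ring R] [Algebra L R] (ι : D →ₐ[L] R) (U : Submodule L R)
    (hU : ∀ d, ∀ u ∈ U, ι d * u ∈ U) : finrank L D ∣ finrank L U := by
  letI : Module D R := Module.compHom R ι.toRingHom
  have hsm : ∀ (d : D) (u : R), d • u = ι d * u := fun _ _ => rfl
  have : IsScalarTower L D R := ⟨fun c d u => by rw [hsm, hsm, map_smul, smul_mul_assoc]⟩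
  let U' : Submodule D R :=
    { carrier := U
      add_mem' := fun ha hb => U.add_mem ha hb
      zero_mem' := U.zero_mem
      smul_mem' := fun d u hu => hU d u hu }
  have h1 := Module.finrank_mul_finrank L D U'
  have h2 : finrank L U' = finrank L U := rfl
  rw [← h2, ← h1]
  exact Dvd.intro _ rfl

section Graded

variable {L R : Type*} [Field L] [Ring R] [Algebra L R] (φ : R →ₐ[L] Polynomial R)

/-- The degree `d` projection attached to a coaction `φ`. -/
noncomputable def prj (d : ℕ) : R →ₗ[L] R :=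
  ((Polynomial.lcoeff R d).restrictScalars L) ∘ₗ φ.toLinearMap

theorem prj_apply (d : ℕ) (u : R) : prj φ d u = (φ u).coeff d := rfl

/-- Homogeneous elements of degree `d`. -/
def hom (d : ℕ) : Submodule L R where
  carrier := {u | φ u = Polynomial.monomial d u}
  add_mem' := by
    intro a b ha hb
    simp only [Set.mem_setOf_eq] at *
    rw [map_add, ha, hb, map_add]
  zero_mem' := by simp
  smul_mem' := by
    intro c a ha
    simp only [Set.mem_setOf_eq] at *
    rw [map_smul, ha, Polynomial.smul_monomial]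

theorem mem_hom {d : ℕ} {u : R} : u ∈ hom φ d ↔ φ u = Polynomial.monomial d u := Iff.rfl

theorem hom_mul {i j : ℕ} {u v : R} (hu : u ∈ hom φ i) (hv : v ∈ hom φ j) :
    u * v ∈ hom φ (i + j) := by
  rw [mem_hom] at *
  rw [map_mul, hu, hv, Polynomial.monomial_mul_monomial]

theorem prj_of_hom {d : ℕ} {u : R} (hu : u ∈ hom φ d) : prj φ d u = u := by
  rw [prj_apply, (mem_hom φ).1 hu, Polynomial.coeff_monomial_same]

theorem prj_of_hom_ne {d i : ℕ} {u : R} (hu : u ∈ hom φ d) (h : d ≠ i) : prj φ i u = 0 := by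
  rw [prj_apply, (mem_hom φ).1 hu, Polynomial.coeff_monomial_of_ne _ h.symm]

theorem prj_mul_left {d : ℕ} {u : R} (hu : u ∈ hom φ d) (i : ℕ) (v : R) :
    prj φ (i + d) (u * v) = u * prj φ i v := by
  rw [prj_apply, prj_apply, map_mul, (mem_hom φ).1 hu, Polynomial.coeff_monomial_mul]

theorem prj_mul_right {d : ℕ} {u : R} (hu : u ∈ hom φ d) (i : ℕ) (v : R) :
    prj φ (i + d) (v * u) = prj φ i v * u := by
  rw [prj_apply, prj_apply, map_mul, (mem_hom φ).1 hu, Polynomial.coeff_mul_monomial]

theorem prj_mul_right_lt {d : ℕ} {u : R} (hu : u ∈ hom φ d) {i : ℕ} (hi : i < d) (v : R) :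
    prj φ i (v * u) = 0 := by
  rw [prj_apply, map_mul, (mem_hom φ).1 hu, ← Polynomial.C_mul_X_pow_eq_monomial, ← mul_assoc,
    Polynomial.coeff_mul_X_pow', if_neg (by omega)]

theorem hom_one : (1 : R) ∈ hom φ 0 := by
  rw [mem_hom, map_one]; rfl

theorem range_prj (hidem : ∀ u i, prj φ i u ∈ hom φ i) (d : ℕ) :
    LinearMap.range (prj φ d) = hom φ d := by
  apply le_antisymm
  · rintro _ ⟨u, rfl⟩; exact hidem u d
  · intro u hu; exact ⟨u, prj_of_hom φ hu⟩

end Graded

section Main

variable {k L : Type*} [Field k] [Field L] [Algebra k L] {m : ℕ}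
  {R : Type*} [Ring R] [Algebra k R] [Algebra L R] [Algebra (MvPolynomial (Fin (m + 1)) L) R]
  [IsScalarTower k L R] [IsScalarTower L (MvPolynomial (Fin (m + 1)) L) R]
  [IsScalarTower k (MvPolynomial (Fin (m + 1)) L) R]

theorem rec_of_graded {w : Fin (m + 1) → MvPolynomial (Fin (m + 1)) k}
    (hdeg : ∀ i, (w i).IsHomogeneous 2) (hreg : Reg w)
    (B : Fin (m + 1) → Fin (m + 1) → Fin (m + 1) → k)
    (hB : ∀ l, w l = ∑ a, ∑ b, C (B l a b) * X a * X b)
    [Module.Finite (MvPolynomial (Fin (m + 1)) L) R] (e : Fin (m + 1) → R)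
    (h1 : ∀ a b, e a * e b + e b * e a =
      ∑ l, (B l a b + B l b a) • algebraMap (MvPolynomial (Fin (m + 1)) L) R (X l))
    (h2 : ∀ a, e a * e a = ∑ l, B l a a • algebraMap (MvPolynomial (Fin (m + 1)) L) R (X l))
    (φ : R →ₐ[L] Polynomial R) (he : ∀ a, e a ∈ hom φ 1)
    (hidem : ∀ u i, prj φ i u ∈ hom φ i) (hfin : ∀ d, FiniteDimensional L (hom φ d))
    (N : Submodule R R) (hN : ∀ u ∈ N, ∀ i, prj φ i u ∈ N) :
    ∃ d₀, ∀ d ≥ d₀, ∑ j ∈ range (m + 2), (-1 : ℤ) ^ j * ((m + 1).choose j : ℤ) *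
      (finrank L ↥(N.restrictScalars L ⊓ hom φ (d + j)) : ℤ) = 0 := by
  obtain ⟨Q, hQ0, hQ1, hQ2, hQr, hQz, hQf⟩ := exists_qcomp hdeg hreg
  have hfinN : Module.Finite (MvPolynomial (Fin (m + 1)) L) N :=
    Module.Finite.of_injective (N.subtype.restrictScalars (MvPolynomial (Fin (m + 1)) L))
      N.injective_subtype
  let E : Fin (m + 1) → N →ₗ[MvPolynomial (Fin (m + 1)) L] N := fun a =>
    { toFun := fun u => e a • u
      map_add' := fun u v => smul_add _ _ _
      map_smul' := fun c u => by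
        ext
        simp }
  have hE : ∀ a u, ((E a u : N) : R) = e a * u := fun _ _ => rfl
  let P : ℕ → N →ₗ[L] N := fun i =>
    { toFun := fun u => ⟨prj φ i u, hN u u.2 i⟩
      map_add' := fun u v => by ext; simp
      map_smul' := fun c u => by ext; simp }
  have hP : ∀ i u, ((P i u : N) : R) = prj φ i u := fun _ _ => rfl
  have hmap : ∀ i, (LinearMap.range (P i)).map (N.subtype.restrictScalars L) =
      N.restrictScalars L ⊓ hom φ i := by
    intro i
    apply le_antisymm
    · rintro _ ⟨_, ⟨u, rfl⟩, rfl⟩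
      exact ⟨(P i u).2, hidem _ _⟩
    · rintro u ⟨hu, hu'⟩
      refine ⟨⟨u, hu⟩, ⟨⟨u, hu⟩, ?_⟩, rfl⟩
      ext
      exact prj_of_hom φ hu'
  have hrank : ∀ i, finrank L (LinearMap.range (P i)) =
      finrank L ↥(N.restrictScalars L ⊓ hom φ i) := by
    intro i
    rw [← hmap]
    exact (Submodule.equivMapOfInjective (N.subtype.restrictScalars L) N.injective_subtype
      _).finrank_eq
  have hfinP : ∀ i, FiniteDimensional L (LinearMap.range (P i)) := by
    intro i
    have : FiniteDimensional L ↥(N.restrictScalars L ⊓ hom φ i) :=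
      Submodule.finiteDimensional_of_le inf_le_right
    rw [← hmap] at this
    exact Module.Finite.equiv
      (Submodule.equivMapOfInjective (N.subtype.restrictScalars L) N.injective_subtype _).symm
  let t : Fin (m + 1) → N →ₗ[k] N := fun l =>
    { toFun := fun u => (X l : MvPolynomial (Fin (m + 1)) L) • u
      map_add' := fun u v => smul_add _ _ _
      map_smul' := fun c u => by
        ext
        simp [smul_comm c] }
  have ht : ∀ l u, ((t l u : N) : R) =
      algebraMap (MvPolynomial (Fin (m + 1)) L) R (X l) * u := fun l u => by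
    rw [← Algebra.smul_def]; rfl
  have hE1 : ∀ a b u, (E a).restrictScalars k ((E b).restrictScalars k u) +
      (E b).restrictScalars k ((E a).restrictScalars k u) = ∑ l, (B l a b + B l b a) • t l u := by
    intro a b u
    ext
    simp only [LinearMap.restrictScalars_apply, Submodule.coe_add, hE, AddSubmonoidClass.coe_finset_sum,
      Submodule.coe_smul_of_tower, ht]
    rw [← mul_assoc, ← mul_assoc, ← add_mul, h1, Finset.sum_mul]
    simp only [smul_mul_assoc]
  have hE2 : ∀ a u, (E a).restrictScalars k ((E a).restrictScalars k u) =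
      ∑ l, B l a a • t l u := by
    intro a u
    ext
    simp only [LinearMap.restrictScalars_apply, hE, AddSubmonoidClass.coe_finset_sum,
      Submodule.coe_smul_of_tower, ht]
    rw [← mul_assoc, h2, Finset.sum_mul]
    simp only [smul_mul_assoc]
  have hB' : ∀ l, w l = ∑ a, ∑ b, algebraMap k _ (B l a b) * X a * X b := hB
  have := euler_rec E P ?_ ?_ ?_ (fun a => Ideal.Quotient.mk (Ideal.span (Set.range w)) (X a)) Q
    hQ0 hQ1 hQ2 ?_ ?_ (m + 2) hQz
  · simpa only [hQr, hrank] using this
  · intro u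
    refine ⟨(φ u).natDegree + 1, fun i hi => ?_⟩
    ext
    rw [hP, prj_apply, Polynomial.coeff_eq_zero_of_natDegree_lt (by omega)]; rfl
  · intro i a u
    ext
    rw [hP, hE, hE, hP, prj_mul_left φ (he a)]
  · intro i u
    ext
    rw [hP, hP, prj_of_hom φ (hidem _ _)]
  · intro z
    rw [opY_sq _ t _ (fun _ => 0) B ?_ hE1 hE2]
    · simp
    · intro l
      have : Ideal.Quotient.mk (Ideal.span (Set.range w)) (w l) = 0 :=
        Ideal.Quotient.eq_zero_iff_mem.2 (Ideal.subset_span ⟨l, rfl⟩)
      rw [← this, hB' l]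
      simp only [map_sum, map_mul]
      rfl
  · intro z hz l
    have := htpy _ t X w B hB' (fun s hs i => hreg.syz s hs i) hE1 hE2 z hz l
    have h3 : LinearMap.rTensor _ (t l) z = (X l : MvPolynomial (Fin (m + 1)) L) • z := by
      clear this hz
      induction z with
      | zero => simp
      | add z z' hz hz' => simp only [map_add, hz, hz', smul_add]
      | tmul u s => rw [LinearMap.rTensor_tmul, smul_tmul']; rfl
    rwa [h3] at this

theorem growth_of_graded [NoZeroSMulDivisors (MvPolynomial (Fin (m + 1)) L) R]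
    (φ : R →ₐ[L] Polynomial R)
    (hτ : ∀ l, algebraMap (MvPolynomial (Fin (m + 1)) L) R (X l) ∈ hom φ 2)
    (hfin : ∀ d, FiniteDimensional L (hom φ d))
    (N : Submodule R R) {v : R} (hv : v ∈ N) (hv0 : v ≠ 0) {c : ℕ} (hc : v ∈ hom φ c) (j : ℕ) :
    (j + m).choose m ≤ finrank L ↥(N.restrictScalars L ⊓ hom φ (c + 2 * j)) := by
  have hh : ∀ (j : ℕ) (p : MvPolynomial (Fin (m + 1)) L),
      p ∈ homogeneousSubmodule (Fin (m + 1)) L j →
        algebraMap (MvPolynomial (Fin (m + 1)) L) R p ∈ hom φ (2 * j) := by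
    intro j p hp
    rw [← homogeneousSubmodule_one_pow] at hp
    induction hp using Submodule.pow_induction_on_left' with
    | algebraMap r =>
      rw [← IsScalarTower.algebraMap_apply, Algebra.algebraMap_eq_smul_one]
      exact Submodule.smul_mem _ _ (hom_one φ)
    | add x y i _ _ hx hy => rw [map_add]; exact Submodule.add_mem _ hx hy
    | mem_mul x hx i y _ hy =>
      rw [map_mul, show 2 * (i + 1) = 2 + 2 * i by ring]
      refine hom_mul φ ?_ hy
      rw [homogeneousSubmodule_one_eq_span_X] at hx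
      induction hx using Submodule.span_induction with
      | mem x hx => obtain ⟨l, rfl⟩ := hx; exact hτ l
      | zero => simp
      | add x y _ _ hx hy => rw [map_add]; exact Submodule.add_mem _ hx hy
      | smul c x _ hx =>
        rw [Algebra.smul_def, map_mul, ← IsScalarTower.algebraMap_apply, ← Algebra.smul_def]
        exact Submodule.smul_mem _ _ hx
  let g : homogeneousSubmodule (Fin (m + 1)) L j →ₗ[L]
      ↥(N.restrictScalars L ⊓ hom φ (c + 2 * j)) :=
    { toFun := fun p => ⟨(p : MvPolynomial (Fin (m + 1)) L) • v, by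
        rw [Algebra.smul_def]
        refine ⟨N.smul_mem _ hv, ?_⟩
        rw [add_comm]
        exact hom_mul φ (hh j p p.2) hc⟩
      map_add' := fun p q => by ext; simp [add_smul]
      map_smul' := fun c p => by ext; simp }
  have hg : Function.Injective g := by
    rw [← LinearMap.ker_eq_bot, eq_bot_iff]
    intro p hp
    have : (p : MvPolynomial (Fin (m + 1)) L) • v = 0 := congrArg Subtype.val hp
    rcases eq_zero_or_eq_zero_of_smul_eq_zero this with h | h
    · exact Subtype.ext h
    · exact absurd h hv0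
  have : FiniteDimensional L ↥(N.restrictScalars L ⊓ hom φ (c + 2 * j)) :=
    Submodule.finiteDimensional_of_le inf_le_right
  rw [← finrank_homogeneous L m j]
  exact LinearMap.finrank_le_finrank_of_injective hg

theorem noZeroDivisors_of_graded {w : Fin (m + 1) → MvPolynomial (Fin (m + 1)) k}
    (hdeg : ∀ i, (w i).IsHomogeneous 2) (hreg : Reg w)
    (B : Fin (m + 1) → Fin (m + 1) → Fin (m + 1) → k)
    (hB : ∀ l, w l = ∑ a, ∑ b, C (B l a b) * X a * X b)
    [Module.Finite (MvPolynomial (Fin (m + 1)) L) R]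
    [NoZeroSMulDivisors (MvPolynomial (Fin (m + 1)) L) R] (e : Fin (m + 1) → R)
    (h1 : ∀ a b, e a * e b + e b * e a =
      ∑ l, (B l a b + B l b a) • algebraMap (MvPolynomial (Fin (m + 1)) L) R (X l))
    (h2 : ∀ a, e a * e a = ∑ l, B l a a • algebraMap (MvPolynomial (Fin (m + 1)) L) R (X l))
    (φ : R →ₐ[L] Polynomial R) (he : ∀ a, e a ∈ hom φ 1)
    (hτ : ∀ l, algebraMap (MvPolynomial (Fin (m + 1)) L) R (X l) ∈ hom φ 2)
    (hidem : ∀ u i, prj φ i u ∈ hom φ i) (hinj : ∀ u, φ u = 0 → u = 0)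
    {D : Type*} [DivisionRing D] [Algebra L D] [FiniteDimensional L D] (ι : D →ₐ[L] R)
    (hι : ∀ d, ι d ∈ hom φ 0) (hfin : ∀ d, FiniteDimensional L (hom φ d))
    (hbound : ∀ d, finrank L (hom φ d) ≤ finrank L D * (d + m).choose m) :
    NoZeroDivisors R := by
  have hδ : 0 < finrank L D := Module.finrank_pos
  have hdvd : ∀ (N : Submodule R R) (d : ℕ),
      finrank L D ∣ finrank L ↥(N.restrictScalars L ⊓ hom φ d) := by
    intro N d
    refine finrank_dvd_of_stable ι _ ?_
    rintro c u ⟨hu, hu'⟩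
    refine ⟨N.smul_mem _ hu, ?_⟩
    have := hom_mul φ (hι c) hu'
    rwa [zero_add] at this
  choose h hh using hdvd
  have hrec : ∀ (N : Submodule R R), (∀ u ∈ N, ∀ i, prj φ i u ∈ N) → ∀ a : ℕ,
      ∃ d₀, ∀ d ≥ d₀, ∑ j ∈ range (m + 2), (-1 : ℤ) ^ j * ((m + 1).choose j : ℤ) *
        (h N (d + j + a) : ℤ) = 0 := by
    intro N hN a
    obtain ⟨d₀, hd⟩ := rec_of_graded hdeg hreg B hB e h1 h2 φ he hidem hfin N hN
    refine ⟨d₀, fun d hd' => ?_⟩
    have := hd (d + a) (by omega)
    simp only [hh] at this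
    have h3 : (finrank L D : ℤ) * ∑ j ∈ range (m + 2), (-1 : ℤ) ^ j * ((m + 1).choose j : ℤ) *
        (h N (d + j + a) : ℤ) = 0 := by
      rw [← this, Finset.mul_sum]
      refine Finset.sum_congr rfl fun j _ => ?_
      rw [show d + j + a = d + a + j by ring]
      push_cast
      ring
    rcases mul_eq_zero.1 h3 with h4 | h4
    · exact absurd h4 (by exact_mod_cast hδ.ne')
    · exact h4
  have homog : ∀ {a b : ℕ} {r u : R}, r ∈ hom φ a → u ∈ hom φ b → r ≠ 0 → u ≠ 0 → u * r ≠ 0 := by
    intro a b r u hr hu hr0 hu0 hur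
    let N₁ : Submodule R R := LinearMap.range (LinearMap.toSpanSingleton R R r)
    let N₂ : Submodule R R := LinearMap.ker (LinearMap.toSpanSingleton R R r)
    have hN₁ : ∀ u ∈ N₁, ∀ i, prj φ i u ∈ N₁ := by
      rintro _ ⟨v, rfl⟩ i
      simp only [LinearMap.toSpanSingleton_apply, smul_eq_mul]
      by_cases hi : i < a
      · rw [prj_mul_right_lt φ hr hi]; exact N₁.zero_mem
      · obtain ⟨i, rfl⟩ : ∃ i', i = i' + a := ⟨i - a, by omega⟩
        rw [prj_mul_right φ hr]
        exact ⟨_, rfl⟩
    have hN₂ : ∀ u ∈ N₂, ∀ i, prj φ i u ∈ N₂ := by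
      intro v hv i
      simp only [N₂, LinearMap.mem_ker, LinearMap.toSpanSingleton_apply, smul_eq_mul] at hv ⊢
      rw [← prj_mul_right φ hr, hv, map_zero]
    refine no_two_parts m (fun d => h N₁ (d + a)) (fun d => h N₂ d) (hrec N₁ hN₁ a)
      (hrec N₂ hN₂ 0) ?_ ⟨0, finrank L D, fun j => ?_⟩ ⟨b, finrank L D, fun j => ?_⟩
    · intro d
      have := hfin d
      let ρ : R →ₗ[L] R := (LinearMap.toSpanSingleton R R r).restrictScalars L
      have h3 := LinearMap.finrank_range_add_finrank_ker (ρ.domRestrict (hom φ d))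
      rw [LinearMap.range_domRestrict, LinearMap.ker_domRestrict] at h3
      have h4 : finrank L ↥(Submodule.comap (hom φ d).subtype (LinearMap.ker ρ)) =
          finrank L ↥(N₂.restrictScalars L ⊓ hom φ d) := by
        rw [← Submodule.finrank_map_subtype_eq, Submodule.map_comap_subtype, inf_comm]
        rfl
      have h5 : Submodule.map ρ (hom φ d) = N₁.restrictScalars L ⊓ hom φ (d + a) := by
        apply le_antisymm
        · rintro _ ⟨v, hv, rfl⟩
          exact ⟨⟨v, rfl⟩, hom_mul φ hv hr⟩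
        · rintro _ ⟨⟨v, rfl⟩, hv⟩
          refine ⟨prj φ d v, hidem _ _, ?_⟩
          have := prj_of_hom φ hv
          simp only [LinearMap.toSpanSingleton_apply, smul_eq_mul] at this ⊢
          rw [← this, prj_mul_right φ hr]
          rfl
      rw [h4, h5, hh, hh] at h3
      have h6 := hbound d
      rw [← h3, ← mul_add] at h6
      exact_mod_cast Nat.le_of_mul_le_mul_left h6 hδ
    · have := growth_of_graded φ hτ hfin N₁ (v := r) ⟨1, by simp⟩ hr0 hr j
      rw [hh] at this
      rw [show 0 + 2 * j + a = a + 2 * j by ring]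
      exact_mod_cast this
    · have := growth_of_graded φ hτ hfin N₂ (v := u) hur hu0 hu j
      rw [hh] at this
      exact_mod_cast this
  refine ⟨fun {x y} hxy => ?_⟩
  by_contra hne
  push Not at hne
  have hx : φ x ≠ 0 := fun h => hne.1 (hinj _ h)
  have hy : φ y ≠ 0 := fun h => hne.2 (hinj _ h)
  have h3 := homog (hidem y (φ y).natDegree) (hidem x (φ x).natDegree)
    (Polynomial.leadingCoeff_ne_zero.2 hy) (Polynomial.leadingCoeff_ne_zero.2 hx)
  have h4 := Polynomial.leadingCoeff_mul' (p := φ x) (q := φ y) h3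
  rw [← map_mul, hxy, map_zero, Polynomial.leadingCoeff_zero] at h4
  exact h3 h4.symm

end Main

end Vale.Agent.P200
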