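import Vale.Agent.P200.Defs

open MvPolynomial Module TensorProduct Finset

namespace Vale.Agent.P200

universe u

open RingTheory.Sequence in
theorem ofList_take_ofFn {R : Type*} [CommRing R] {c : ℕ} (f : Fin c → R) (i : Fin c) :
    Ideal.ofList ((List.ofFn f).take i) = Ideal.span (f '' Set.Iio i) := by
  unfold Ideal.ofList
  congr 1
  ext x
  simp only [Set.mem_setOf_eq, List.mem_take_iff_getElem, List.length_ofFn, List.getElem_ofFn,
    Set.mem_image, Set.mem_Iio]
  constructor
  · rintro ⟨j, hj, rfl⟩
    exact ⟨⟨j, by omega⟩, by simp only [Fin.lt_def]; omega, rfl⟩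
  · rintro ⟨j, hj, rfl⟩
    exact ⟨j, by have := j.2; rw [Fin.lt_def] at hj; omega, rfl⟩

open RingTheory.Sequence in
theorem reg_iff {R : Type*} [CommRing R] {c : ℕ} (f : Fin c → R) :
    Reg f ↔ IsWeaklyRegular R (List.ofFn f) := by
  rw [isWeaklyRegular_iff]
  constructor
  · intro h i hi
    have hi' : i < c := by simpa using hi
    rw [isSMulRegular_quotient_iff_mem_of_smul_mem]
    have e := ofList_take_ofFn f ⟨i, hi'⟩
    simp only at e
    simp only [e, List.getElem_ofFn, smul_eq_mul, Ideal.mul_top]
    exact h ⟨i, hi'⟩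
  · intro h i
    have := h i (by simp)
    rw [isSMulRegular_quotient_iff_mem_of_smul_mem] at this
    simp only [ofList_take_ofFn, List.getElem_ofFn, smul_eq_mul, Ideal.mul_top] at this
    exact this

attribute [local instance] algebraMvPolynomial in
/-- T4a -/
theorem Reg.map {K k : Type*} [Field K] [Field k] [Algebra K k] {n c : ℕ}
    {f : Fin c → MvPolynomial (Fin n) K} (h : Reg f) :
    Reg (fun i => MvPolynomial.map (algebraMap K k) (f i)) := by
  have hp : Algebra.IsPushout K (MvPolynomial (Fin n) K) k (MvPolynomial (Fin n) k) :=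
    Algebra.IsPushout.symm inferInstance
  have : Module.Flat (MvPolynomial (Fin n) K) (MvPolynomial (Fin n) k) :=
    Module.Flat.isBaseChange (R := K) (S := MvPolynomial (Fin n) K) (M := k) _ hp.out
  rw [reg_iff] at h ⊢
  have h2 := h.of_flat (S := MvPolynomial (Fin n) k)
  rw [List.map_ofFn] at h2
  exact h2

theorem reg_X (k : Type*) [CommRing k] (n : ℕ) :
    Reg (fun i : Fin n => (X i : MvPolynomial (Fin n) k)) := by
  intro i g hg
  rw [mem_ideal_span_X_image] at hg ⊢
  intro m hm
  obtain ⟨j, hj, h⟩ := hg (Finsupp.single i 1 + m) (by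
    rw [MvPolynomial.mem_support_iff, coeff_X_mul]; exact MvPolynomial.mem_support_iff.1 hm)
  refine ⟨j, hj, ?_⟩
  have : i ≠ j := (ne_of_lt hj).symm
  simpa [Finsupp.single_apply, this] using h

open RingTheory.Sequence CategoryTheory Abelian Limits Pointwise in
theorem hom_subsingleton_of_ext {R : Type u} [CommRing R] (N : ModuleCat.{u} R) (rs : List R) :
    ∀ M : ModuleCat.{u} R, IsWeaklyRegular M rs →
      (∀ i < rs.length + 1, Subsingleton (Ext N M i)) →
      Subsingleton (N →ₗ[R] (M ⧸ (Ideal.ofList rs • ⊤ : Submodule R M))) := by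
  induction rs with
  | nil =>
    intro M _ h
    have : Subsingleton (N ⟶ M) := Ext.addEquiv₀.subsingleton_congr.mp (h 0 (by simp))
    have : Subsingleton (N →ₗ[R] M) := ModuleCat.homAddEquiv.symm.subsingleton
    have e : (M ⧸ (Ideal.ofList ([] : List R) • ⊤ : Submodule R M)) ≃ₗ[R] M :=
      Submodule.quotEquivOfEqBot _ (by simp)
    exact (LinearEquiv.congrRight e).toEquiv.subsingleton
  | cons x rs ih =>
    intro M hM h
    rw [isWeaklyRegular_cons_iff] at hM
    have h' : ∀ i < rs.length + 1,
        Subsingleton (Ext N (ModuleCat.of R (QuotSMulTop x M)) i) := by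
      intro i hi
      have zero1 := AddCommGrpCat.isZero_of_iff_subsingleton.mpr
        (h i (by simp only [List.length_cons]; omega))
      have zero2 := AddCommGrpCat.isZero_of_iff_subsingleton.mpr
        (h (i + 1) (by simp only [List.length_cons]; omega))
      exact AddCommGrpCat.subsingleton_of_isZero <| ShortComplex.Exact.isZero_of_both_zeros
        ((Ext.covariant_sequence_exact₃' N hM.1.smulShortComplex_shortExact) i (i + 1) rfl)
        (zero1.eq_zero_of_src _) (zero2.eq_zero_of_tgt _)
    have := ih (ModuleCat.of R (QuotSMulTop x M)) hM.2 h'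
    exact (LinearEquiv.congrRight
      (Submodule.quotOfListConsSMulTopEquivQuotSMulTopInner M x rs)).toEquiv.subsingleton

theorem mem_span_X_of_constantCoeff {k : Type*} [CommRing k] {n : ℕ}
    {p : MvPolynomial (Fin n) k} (hp : constantCoeff p = 0) :
    p ∈ Ideal.span (Set.range (X : Fin n → MvPolynomial (Fin n) k)) := by
  rw [← Set.image_univ, mem_ideal_span_X_image]
  intro m hm
  by_contra hcon
  have : m = 0 := by
    ext i
    by_contra hi
    exact hcon ⟨i, Set.mem_univ _, hi⟩
  subst this
  exact MvPolynomial.mem_support_iff.1 hm hp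

open RingTheory.Sequence in
theorem Reg.exists_regular_mem {k : Type u} [Field k] {n c : ℕ} (hc : c < n)
    {f : Fin c → MvPolynomial (Fin n) k} (h : Reg f) :
    ∃ r ∈ Ideal.span (Set.range (X : Fin n → MvPolynomial (Fin n) k)),
      IsSMulRegular (MvPolynomial (Fin n) k ⧸ Ideal.span (Set.range f)) r := by
  let S := MvPolynomial (Fin n) k
  let m : Ideal S := Ideal.span (Set.range (X : Fin n → S))
  have hm : m = Ideal.span (Set.range (X : Fin n → S)) := rfl
  have hmtop : m ≠ ⊤ := by
    rw [Ideal.ne_top_iff_one, hm, ← Set.image_univ, mem_ideal_span_X_image]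
    intro h1
    obtain ⟨i, -, hi⟩ := h1 0 (by simp [S])
    simp at hi
  have hlt : m • (⊤ : Submodule S (ModuleCat.of S S)) < ⊤ := by
    change m • (⊤ : Submodule S S) < ⊤
    rw [smul_eq_mul, Ideal.mul_top]
    exact hmtop.lt_top
  have hX : IsRegular (ModuleCat.of S S) (List.ofFn (X : Fin n → S)) := by
    refine ⟨(reg_iff _).1 (reg_X k n), ?_⟩
    have : Ideal.ofList (List.ofFn (X : Fin n → S)) = m := by
      unfold Ideal.ofList
      rw [hm]
      congr 1
      ext x
      simp [List.mem_ofFn']
    rw [this]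
    exact hlt.ne'
  have hext := ModuleCat.subsingleton_ext_of_exists_isRegular m (ModuleCat.of S (S ⧸ m))
    (by rw [Module.support_eq_zeroLocus]; simp [Ideal.annihilator_quotient])
    (ModuleCat.of S S) hlt (List.ofFn (X : Fin n → S))
    (fun r hr => Ideal.subset_span (by simpa [List.mem_ofFn'] using hr)) hX
  have hsub := hom_subsingleton_of_ext (ModuleCat.of S (S ⧸ m)) (List.ofFn f) (ModuleCat.of S S)
    ((reg_iff f).1 h) (fun i hi => hext i (by simp at hi ⊢; omega))
  have e : (Ideal.ofList (List.ofFn f) • ⊤ : Submodule S S) = Ideal.span (Set.range f) := by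
    rw [smul_eq_mul, Ideal.mul_top]
    unfold Ideal.ofList
    congr 1
    ext x
    simp [List.mem_ofFn']
  have hsub' : Subsingleton ((S ⧸ m) →ₗ[S] (S ⧸ Ideal.span (Set.range f))) := by
    rw [← e]; exact hsub
  obtain ⟨r, hr, hreg⟩ := IsSMulRegular.subsingleton_linearMap_iff.1 hsub'
  rw [Ideal.annihilator_quotient] at hr
  exact ⟨r, hr, hreg⟩

/-- T4b -/
theorem Reg.exists_linear {k : Type*} [Field k] [Infinite k] {n c : ℕ} (hc : c < n)
    {f : Fin c → MvPolynomial (Fin n) k} (hpos : ∀ i, constantCoeff (f i) = 0) (h : Reg f) :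
    ∃ l : MvPolynomial (Fin n) k, l.IsHomogeneous 1 ∧
      ∀ g, l * g ∈ Ideal.span (Set.range f) → g ∈ Ideal.span (Set.range f) := by
  classical
  have _ := hpos
  obtain ⟨r, hr, hreg⟩ := h.exists_regular_mem hc
  let S := MvPolynomial (Fin n) k
  let M := S ⧸ Ideal.span (Set.range f)
  have hU := biUnion_associatedPrimes_eq_compl_regular S M
  have hfin := associatedPrimes.finite S M
  let V := homogeneousSubmodule (Fin n) k 1
  let W : Ideal S → Submodule k V := fun P => (P.restrictScalars k).comap V.subtype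
  have htop : ⊤ ∉ hfin.toFinset.image W := by
    intro ht
    obtain ⟨P, hP, hW⟩ := mem_image.1 ht
    have hP' : P ∈ associatedPrimes S M := by simpa using hP
    have hle : Ideal.span (Set.range (X : Fin n → S)) ≤ P := by
      rw [Ideal.span_le]
      rintro _ ⟨i, rfl⟩
      have : (⟨X i, isHomogeneous_X k i⟩ : V) ∈ W P := by rw [hW]; trivial
      exact this
    have : r ∈ ⋃ p ∈ associatedPrimes S M, (p : Set S) :=
      Set.mem_biUnion hP' (hle hr)
    rw [hU] at this
    exact this hreg
  obtain ⟨l, hl⟩ := (Set.ne_univ_iff_exists_notMem _).1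
    (Subspace.biUnion_ne_univ_of_top_notMem htop)
  refine ⟨l.1, l.2, ?_⟩
  have hlreg : IsSMulRegular M l.1 := by
    by_contra hcon
    have : l.1 ∈ ⋃ p ∈ associatedPrimes S M, (p : Set S) := by rw [hU]; exact hcon
    obtain ⟨P, hP, hlP⟩ := Set.mem_iUnion₂.1 this
    exact hl (Set.mem_biUnion (x := W P) (mem_image_of_mem W (by simpa using hP)) hlP)
  exact (isSMulRegular_quotient_iff_mem_of_smul_mem _ _).1 hlreg

end Vale.Agent.P200
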