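import Vale.Agent.P200.Extend

open MvPolynomial Module TensorProduct Finset
open scoped Pointwise

namespace Vale.Agent.P200

theorem Reg.snoc {R : Type*} [CommRing R] {c : ℕ} {w : Fin c → R} (h : Reg w) {x : R}
    (hx : ∀ g, x * g ∈ Ideal.span (Set.range w) → g ∈ Ideal.span (Set.range w)) :
    Reg (Fin.snoc w x : Fin (c + 1) → R) := by
  intro i
  induction i using Fin.lastCases with
  | last =>
    have : (Fin.snoc w x : Fin (c + 1) → R) '' Set.Iio (Fin.last c) = Set.range w := by
      ext y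
      constructor
      · rintro ⟨j, hj, rfl⟩
        induction j using Fin.lastCases with
        | last => exact absurd hj (lt_irrefl (Fin.last c))
        | cast j => exact ⟨j, by simp⟩
      · rintro ⟨j, rfl⟩
        exact ⟨j.castSucc, Fin.castSucc_lt_last j, by simp⟩
    rw [this, Fin.snoc_last]
    exact hx
  | cast i =>
    have : (Fin.snoc w x : Fin (c + 1) → R) '' Set.Iio i.castSucc = w '' Set.Iio i := by
      ext y
      constructor
      · rintro ⟨j, hj, rfl⟩
        induction j using Fin.lastCases with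
        | last => exact absurd hj (not_lt.2 (Fin.le_last _))
        | cast j => exact ⟨j, by simpa using hj, by simp⟩
      · rintro ⟨j, hj, rfl⟩
        exact ⟨j.castSucc, by simpa using hj, by simp⟩
    rw [this, Fin.snoc_castSucc]
    exact h i

theorem Reg.extend {k : Type*} [Field k] [Infinite k] {n c : ℕ}
    {f : Fin c → MvPolynomial (Fin n) k} (hdeg : ∀ i, (f i).IsHomogeneous 2) (h : Reg f)
    (c' : ℕ) (hc : c ≤ c') (hn : c' ≤ n) :
    ∃ w l : Fin c' → MvPolynomial (Fin n) k, Reg w ∧ (∀ i, (w i).IsHomogeneous 2) ∧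
      (∀ i, w (Fin.castLE hc i) = f i) ∧ (∀ i, (l i).IsHomogeneous 1) ∧
      ∀ i : Fin c', c ≤ i → w i = l i * l i := by
  induction c', hc using Nat.le_induction with
  | base =>
    exact ⟨f, fun _ => 0, h, hdeg, fun _ => rfl, fun _ => isHomogeneous_zero _ _ _,
      fun i hi => absurd i.2 (not_lt.2 hi)⟩
  | succ c' hc ih =>
    obtain ⟨w, l, h1, h2, h3, h4, h5⟩ := ih (by omega)
    obtain ⟨x, hx, hx'⟩ := h1.exists_linear (by omega : c' < n) (fun i => by
      rw [constantCoeff_eq]
      exact (h2 i).coeff_eq_zero (by simp))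
    refine ⟨Fin.snoc w (x * x), Fin.snoc l x, h1.snoc fun g hg => hx' _ (hx' _ ?_), ?_, ?_, ?_, ?_⟩
    · rwa [← mul_assoc]
    · intro i
      induction i using Fin.lastCases with
      | last => rw [Fin.snoc_last]; exact hx.mul hx
      | cast i => rw [Fin.snoc_castSucc]; exact h2 i
    · intro i
      rw [← h3 i, ← Fin.snoc_castSucc (α := fun _ => MvPolynomial (Fin n) k) (x * x) w]
      rfl
    · intro i
      induction i using Fin.lastCases with
      | last => rw [Fin.snoc_last]; exact hx
      | cast i => rw [Fin.snoc_castSucc]; exact h4 i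
    · intro i hi
      induction i using Fin.lastCases with
      | last => rw [Fin.snoc_last, Fin.snoc_last]
      | cast i => rw [Fin.snoc_castSucc, Fin.snoc_castSucc]; exact h5 i hi

theorem exists_coeff_one {k : Type*} [Field k] {n : ℕ} {p : MvPolynomial (Fin n) k}
    (hp : p.IsHomogeneous 1) : ∃ b : Fin n → k, p = ∑ a, b a • X a := by
  have : p ∈ homogeneousSubmodule (Fin n) k 1 := hp
  rw [homogeneousSubmodule_one_eq_span_X] at this
  obtain ⟨b, hb⟩ := (Submodule.mem_span_range_iff_exists_fun _).1 this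
  exact ⟨b, hb.symm⟩

theorem exists_coeff_two {k : Type*} [Field k] {n : ℕ} {p : MvPolynomial (Fin n) k}
    (hp : p.IsHomogeneous 2) :
    ∃ B : Fin n → Fin n → k, p = ∑ a, ∑ b, C (B a b) * X a * X b := by
  have : p ∈ homogeneousSubmodule (Fin n) k 2 := hp
  rw [← homogeneousSubmodule_one_pow, pow_two, homogeneousSubmodule_one_eq_span_X,
    Submodule.span_mul_span] at this
  have h2 : Set.range (X : Fin n → MvPolynomial (Fin n) k) *
      Set.range (X : Fin n → MvPolynomial (Fin n) k) =
      Set.range fun q : Fin n × Fin n => (X q.1 * X q.2 : MvPolynomial (Fin n) k) := by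
    ext y
    constructor
    · rintro ⟨_, ⟨a, rfl⟩, _, ⟨b, rfl⟩, rfl⟩
      exact ⟨(a, b), rfl⟩
    · rintro ⟨⟨a, b⟩, rfl⟩
      exact ⟨_, ⟨a, rfl⟩, _, ⟨b, rfl⟩, rfl⟩
  rw [h2] at this
  obtain ⟨b, hb⟩ := (Submodule.mem_span_range_iff_exists_fun _).1 this
  refine ⟨fun a a' => b (a, a'), ?_⟩
  rw [← hb, Fintype.sum_prod_type]
  simp only [smul_eq_C_mul, mul_assoc]

theorem exists_aeval {K A σ : Type*} [CommRing K] [Ring A] [Algebra K A] (Z : σ → A)
    (hZ : ∀ i j, Commute (Z i) (Z j)) : ∃ ψ : MvPolynomial σ K →ₐ[K] A, ∀ i, ψ (X i) = Z i := by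
  have := Algebra.isMulCommutative_adjoin K (s := Set.range Z) (by
    rintro _ ⟨i, rfl⟩ _ ⟨j, rfl⟩
    exact hZ i j)
  let : CommRing (Algebra.adjoin K (Set.range Z)) :=
    { (inferInstance : Ring (Algebra.adjoin K (Set.range Z))) with
      mul_comm := fun a b => this.is_comm.comm a b }
  exact ⟨(Algebra.adjoin K (Set.range Z)).val.comp
    (aeval fun i => (⟨Z i, Algebra.subset_adjoin ⟨i, rfl⟩⟩ : Algebra.adjoin K (Set.range Z))),
    fun i => by simp⟩

end Vale.Agent.P200
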