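import Vale.Agent.P200.Defs

open MvPolynomial Module TensorProduct Finset

namespace Vale.Agent.P200

universe u

/-- syzygies supported on an initial segment -/
theorem Reg.syz_aux {R : Type*} [CommRing R] {c : ℕ} {f : Fin c → R} (h : Reg f) (m : ℕ) :
    ∀ s : Fin c → R, (∀ j : Fin c, m ≤ j.val → s j = 0) → ∑ i, f i * s i = 0 →
      ∀ i, s i ∈ Ideal.span (f '' {j | j.val < m}) := by
  induction m with
  | zero =>
    intro s hs _ i
    rw [hs i (Nat.zero_le _)]
    exact Ideal.zero_mem _
  | succ m ih =>
    intro s hs h0 i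
    have hmono : Ideal.span (f '' {j : Fin c | j.val < m}) ≤
        Ideal.span (f '' {j : Fin c | j.val < m + 1}) :=
      Ideal.span_mono (Set.image_mono fun j (hj : j.val < m) => Nat.lt_succ_of_lt hj)
    by_cases hm : m < c
    · set a : Fin c := ⟨m, hm⟩ with ha
      have hIio : Set.Iio a = {j : Fin c | j.val < m} := by
        ext j; simp [ha, Fin.lt_def]
      have h1 : f a * s a ∈ Ideal.span (f '' Set.Iio a) := by
        have e : f a * s a = -∑ j ∈ univ.erase a, f j * s j := by
          rw [← Finset.add_sum_erase _ _ (mem_univ a)] at h0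
          linear_combination h0
        rw [e]
        refine neg_mem (Ideal.sum_mem _ fun j hj => ?_)
        by_cases hjm : j.val < m
        · exact Ideal.mul_mem_right _ _ (Ideal.subset_span ⟨j, by rw [hIio]; exact hjm, rfl⟩)
        · have hne : j ≠ a := (mem_erase.1 hj).1
          have : j.val ≠ m := fun e => hne (Fin.ext e)
          rw [hs j (by omega), mul_zero]
          exact Ideal.zero_mem _
      have h2 := h a _ h1
      rw [hIio] at h2
      have h3 : ∃ t : Fin c → R, (∀ j : Fin c, m ≤ j.val → t j = 0) ∧ s a = ∑ j, f j * t j := by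
        refine Submodule.span_induction (p := fun x _ =>
          ∃ t : Fin c → R, (∀ j : Fin c, m ≤ j.val → t j = 0) ∧ x = ∑ j, f j * t j)
          ?_ ?_ ?_ ?_ h2
        · rintro _ ⟨j, hj, rfl⟩
          refine ⟨Pi.single j 1, fun l hl => ?_, ?_⟩
          · have : l ≠ j := by
              rintro rfl
              exact absurd hj (by simpa using hl)
            simp [this]
          · simp [Pi.single_apply]
        · exact ⟨0, fun _ _ => rfl, by simp⟩
        · rintro x y - - ⟨t, ht, rfl⟩ ⟨t', ht', rfl⟩
          exact ⟨t + t', fun j hj => by simp [ht j hj, ht' j hj], by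
            simp [mul_add, sum_add_distrib]⟩
        · rintro r x - ⟨t, ht, rfl⟩
          exact ⟨fun j => r * t j, fun j hj => by simp [ht j hj], by
            simp only [smul_eq_mul, mul_sum]; exact sum_congr rfl fun j _ => by ring⟩
      obtain ⟨t, ht, hst⟩ := h3
      have hta : t a = 0 := ht a le_rfl
      have key := ih (fun j => if j = a then 0 else s j + f a * t j) (fun j hj => by
          by_cases hja : j = a
          · simp [hja]
          · have : j.val ≠ m := fun e => hja (Fin.ext e)
            simp [hja, hs j (by omega), ht j hj]) (by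
          have e1 : ∀ j, f j * (if j = a then 0 else s j + f a * t j) =
              f j * s j + f a * (f j * t j) - (if j = a then f a * s a else 0) := by
            intro j
            by_cases hja : j = a
            · subst hja; simp [hta]
            · simp [hja]; ring
          simp only [e1, sum_sub_distrib, sum_add_distrib, h0, ← mul_sum, ← hst]
          simp) i
      by_cases hia : i = a
      · rw [hia]; exact hmono h2
      · simp only [hia, if_false] at key
        have hfa : f a ∈ Ideal.span (f '' {j : Fin c | j.val < m + 1}) :=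
          Ideal.subset_span ⟨a, by simp [ha], rfl⟩
        have := sub_mem (hmono key) (Ideal.mul_mem_right (t i) _ hfa)
        simpa using this
    · exact hmono (ih s (fun j hj => absurd (lt_of_le_of_lt hj j.2) hm) h0 i)

/-- T3a -/
theorem Reg.syz {R : Type*} [CommRing R] {c : ℕ} {f : Fin c → R} (h : Reg f) (s : Fin c → R)
    (hs : ∑ i, f i * s i = 0) (i : Fin c) : s i ∈ Ideal.span (Set.range f) :=
  Ideal.span_mono (Set.image_subset_range _ _)
    (h.syz_aux c s (fun j hj => absurd j.2 (by omega)) hs i)

theorem finrank_homogeneous' (K : Type*) [Field K] (n d : ℕ) :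
    finrank K (homogeneousSubmodule (Fin n) K d) = (n + d - 1).choose d := by
  have e : homogeneousSubmodule (Fin n) K d =
      restrictSupport K (↑((univ : Finset (Fin n)).finsuppAntidiag d) : Set (Fin n →₀ ℕ)) := by
    rw [homogeneousSubmodule_eq_finsupp_supported]
    unfold restrictSupport
    congr 1
    ext α
    simp [Finsupp.degree_eq_sum]
  rw [e, finrank_eq_card_basis (basisRestrictSupport K _)]
  simp [card_finsuppAntidiag_nat_eq_choose]

/-- T3b -/
theorem finrank_homogeneous (K : Type*) [Field K] (m d : ℕ) :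
    finrank K (homogeneousSubmodule (Fin (m + 1)) K d) = (d + m).choose m := by
  rw [finrank_homogeneous', show m + 1 + d - 1 = d + m by omega, Nat.choose_symm_add]

instance homogeneous_finite (K : Type*) [Field K] (n d : ℕ) :
    Module.Finite K (homogeneousSubmodule (Fin n) K d) :=
  Module.Finite.iff_fg.2 (homogeneousSubmodule_fg _ _ d)

attribute [local instance] MvPolynomial.gradedAlgebra

theorem hc_mul_add {K : Type*} [Field K] {n a : ℕ} {w : MvPolynomial (Fin n) K}
    (hw : w.IsHomogeneous a) (g : MvPolynomial (Fin n) K) (d : ℕ) :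
    homogeneousComponent (a + d) (w * g) = w * homogeneousComponent d g := by
  have := DirectSum.coe_decompose_mul_add_of_left_mem (homogeneousSubmodule (Fin n) K)
    (a := w) (b := g) (i := a) (j := d) hw
  rw [← decomposition.decompose'_apply, ← decomposition.decompose'_apply]
  exact this

theorem hc_mul_lt {K : Type*} [Field K] {n a : ℕ} {w : MvPolynomial (Fin n) K}
    (hw : w.IsHomogeneous a) (g : MvPolynomial (Fin n) K) {d : ℕ} (hd : d < a) :
    homogeneousComponent d (w * g) = 0 := by
  have := DirectSum.coe_decompose_mul_of_left_mem_of_not_le (homogeneousSubmodule (Fin n) K)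
    (a := w) (b := g) (i := a) (n := d) hw (by omega)
  rw [← decomposition.decompose'_apply]
  exact this

/-- an ideal closed under homogeneous components -/
def HClosed {K : Type*} [Field K] {n : ℕ} (J : Ideal (MvPolynomial (Fin n) K)) : Prop :=
  ∀ p ∈ J, ∀ d, homogeneousComponent d p ∈ J

theorem hClosed_span {K : Type*} [Field K] {n : ℕ} (s : Set (MvPolynomial (Fin n) K))
    (hs : ∀ p ∈ s, ∃ a, p.IsHomogeneous a) : HClosed (Ideal.span s) := fun _ hp d =>
  homogeneousComponent_mem_of_mem
    (Ideal.homogeneous_span (homogeneousSubmodule (Fin n) K) s hs) hp d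

theorem dimIn_sup_lt {K : Type*} [Field K] {n a : ℕ} {J : Ideal (MvPolynomial (Fin n) K)}
    (hJ : HClosed J) {w : MvPolynomial (Fin n) K} (hw : w.IsHomogeneous a) {d : ℕ} (hd : d < a) :
    dimIn (J ⊔ Ideal.span {w}) d = dimIn J d := by
  unfold dimIn
  have : (J ⊔ Ideal.span {w}).restrictScalars K ⊓ homogeneousSubmodule (Fin n) K d =
      J.restrictScalars K ⊓ homogeneousSubmodule (Fin n) K d := by
    apply le_antisymm
    · rintro p ⟨hp, hpd⟩
      refine ⟨?_, hpd⟩
      obtain ⟨x, hx, y, hy, rfl⟩ := Submodule.mem_sup.1 hp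
      obtain ⟨g, rfl⟩ := Ideal.mem_span_singleton.1 hy
      have e := homogeneousComponent_eq_self (n := d) (p := x + w * g) hpd
      rw [map_add, hc_mul_lt hw g hd, add_zero] at e
      rw [← e]
      exact hJ x hx d
    · rintro p ⟨hp, hpd⟩
      exact ⟨Ideal.mem_sup_left hp, hpd⟩
  rw [this]

/-- one-step recurrence for the Hilbert function after adding a regular form of degree `a` -/
theorem dimIn_sup_add {K : Type*} [Field K] {n a : ℕ} {J : Ideal (MvPolynomial (Fin n) K)}
    (hJ : HClosed J) {w : MvPolynomial (Fin n) K} (hw : w.IsHomogeneous a)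
    (hreg : ∀ g, w * g ∈ J → g ∈ J) (d : ℕ) :
    dimIn (J ⊔ Ideal.span {w}) (a + d) + dimIn J d =
      dimIn J (a + d) + finrank K (homogeneousSubmodule (Fin n) K d) := by
  by_cases hw0 : w = 0
  · have hT : J = ⊤ := by
      rw [Ideal.eq_top_iff_one]
      exact hreg 1 (by simp [hw0])
    subst hT
    simp only [top_sup_eq]
    congr 1
    unfold dimIn
    rw [Submodule.restrictScalars_top, top_inf_eq]
  set μ : MvPolynomial (Fin n) K →ₗ[K] MvPolynomial (Fin n) K := LinearMap.mulLeft K w with hμ
  have hinj : Function.Injective μ := fun x y hxy => mul_left_cancel₀ hw0 hxy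
  set A := J.restrictScalars K ⊓ homogeneousSubmodule (Fin n) K (a + d) with hA
  set B := (homogeneousSubmodule (Fin n) K d).map μ with hB
  have hsup : A ⊔ B =
      (J ⊔ Ideal.span {w}).restrictScalars K ⊓ homogeneousSubmodule (Fin n) K (a + d) := by
    apply le_antisymm
    · refine sup_le (fun p hp => ⟨Ideal.mem_sup_left hp.1, hp.2⟩) ?_
      rintro _ ⟨g, hg, rfl⟩
      exact ⟨Ideal.mem_sup_right (Ideal.mul_mem_right _ _ (Ideal.mem_span_singleton_self w)),
        hw.mul hg⟩
    · rintro p ⟨hp, hpd⟩
      obtain ⟨x, hx, y, hy, rfl⟩ := Submodule.mem_sup.1 hp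
      obtain ⟨g, rfl⟩ := Ideal.mem_span_singleton.1 hy
      have e := homogeneousComponent_eq_self (n := a + d) (p := x + w * g) hpd
      rw [map_add, hc_mul_add hw g d] at e
      rw [← e]
      exact Submodule.add_mem_sup ⟨hJ x hx _, homogeneousComponent_mem _ _⟩
        ⟨_, homogeneousComponent_mem _ _, rfl⟩
  have hinf : A ⊓ B = (J.restrictScalars K ⊓ homogeneousSubmodule (Fin n) K d).map μ := by
    apply le_antisymm
    · rintro _ ⟨⟨hp, -⟩, g, hg, rfl⟩
      exact ⟨g, ⟨hreg g hp, hg⟩, rfl⟩
    · rintro _ ⟨g, ⟨hg, hgd⟩, rfl⟩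
      exact ⟨⟨J.mul_mem_left w hg, hw.mul hgd⟩, g, hgd, rfl⟩
  haveI : Module.Finite K A := Submodule.finiteDimensional_inf_right _ _
  haveI : Module.Finite K B := inferInstance
  have key := Submodule.finrank_sup_add_finrank_inf_eq A B
  rw [hsup, hinf, ← (Submodule.equivMapOfInjective μ hinj _).finrank_eq, hB,
    ← (Submodule.equivMapOfInjective μ hinj _).finrank_eq] at key
  exact key

/-- T3c -/
theorem Reg.hilbert {K : Type*} [Field K] {n : ℕ} {w : Fin n → MvPolynomial (Fin n) K}
    (hdeg : ∀ i, (w i).IsHomogeneous 2) (h : Reg w) (d : ℕ) :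
    dimIn (Ideal.span (Set.range w)) d + n.choose d =
      finrank K (homogeneousSubmodule (Fin n) K d) := by
  set J : ℕ → Ideal (MvPolynomial (Fin n) K) := fun m => Ideal.span (w '' {j | j.val < m}) with hJ
  set s : ℕ → ℤ := fun d => (finrank K (homogeneousSubmodule (Fin n) K d) : ℤ) with hs
  set H : ℕ → PowerSeries ℤ := fun m => PowerSeries.mk fun d => s d - dimIn (J m) d with hH
  have hstep : ∀ m, m < n → H (m + 1) = (1 - PowerSeries.X ^ 2) * H m := by
    intro m hm
    have hIio : Set.Iio (⟨m, hm⟩ : Fin n) = {j : Fin n | j.val < m} := by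
      ext j; simp [Fin.lt_def]
    have hJs : J (m + 1) = J m ⊔ Ideal.span {w ⟨m, hm⟩} := by
      simp only [hJ]
      rw [← Ideal.span_union, ← Set.image_singleton, ← Set.image_union]
      congr 2
      ext j
      simp only [Set.mem_setOf_eq, Set.mem_union, Set.mem_singleton_iff, Fin.ext_iff]
      omega
    have hc : HClosed (J m) := hClosed_span _ (by rintro _ ⟨j, -, rfl⟩; exact ⟨2, hdeg j⟩)
    have hreg : ∀ g, w ⟨m, hm⟩ * g ∈ J m → g ∈ J m := by
      intro g hg
      have := h ⟨m, hm⟩ g (by rw [hIio]; exact hg)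
      rwa [hIio] at this
    ext e
    rw [sub_mul, one_mul, map_sub, PowerSeries.coeff_X_pow_mul']
    simp only [hH, PowerSeries.coeff_mk, hJs]
    split_ifs with h2
    · obtain ⟨e, rfl⟩ := Nat.exists_eq_add_of_le h2
      have := dimIn_sup_add hc (hdeg ⟨m, hm⟩) hreg e
      simp only [Nat.add_sub_cancel_left, hs]
      omega
    · rw [dimIn_sup_lt hc (hdeg ⟨m, hm⟩) (by omega)]
      simp
  have hpow : ∀ m, m ≤ n → H m = (1 - PowerSeries.X ^ 2) ^ m * H 0 := by
    intro m hm
    induction m with
    | zero => simp
    | succ m ih => rw [hstep m (by omega), ih (by omega)]; ring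
  have hH0 : H 0 = PowerSeries.mk s := by
    ext e
    simp [hH, hJ, dimIn]
  have h0 : PowerSeries.mk s * (1 - PowerSeries.X) ^ n = 1 := by
    rcases n with _ | m
    · ext e
      simp only [hs, finrank_homogeneous', pow_zero, mul_one, PowerSeries.coeff_mk,
        PowerSeries.coeff_one]
      rcases e with _ | e
      · simp
      · simp
    · refine Eq.trans ?_ (PowerSeries.mk_add_choose_mul_one_sub_pow_eq_one ℤ m)
      congr 2
      ext e
      simp [hs, finrank_homogeneous, add_comm]
  have hn : H n = (1 + PowerSeries.X) ^ n := by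
    rw [hpow n le_rfl, hH0, show (1 - PowerSeries.X ^ 2 : PowerSeries ℤ) =
      (1 + PowerSeries.X) * (1 - PowerSeries.X) by ring, mul_pow, mul_assoc,
      mul_comm ((1 - PowerSeries.X) ^ n), h0, mul_one]
  have hc := congrArg (PowerSeries.coeff d) hn
  have hJn : J n = Ideal.span (Set.range w) := by
    simp [hJ]
  have hpoly : ((1 + PowerSeries.X) ^ n : PowerSeries ℤ) =
      (((1 + Polynomial.X) ^ n : Polynomial ℤ) : PowerSeries ℤ) := by
    simp
  rw [hpoly, Polynomial.coeff_coe, Polynomial.coeff_one_add_X_pow] at hc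
  simp only [hH, PowerSeries.coeff_mk, hJn, hs] at hc
  omega

end Vale.Agent.P200
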