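import Vale.Agent.P200.Defs

open MvPolynomial Module TensorProduct Finset

namespace Vale.Agent.P200

/-- A double sum of a symmetric biadditive expression against an alternating family vanishes. -/
theorem sum_sum_eq_zero_of_alt {ι G : Type*} [Fintype ι] [LinearOrder ι] [AddCommGroup G]
    (g : ι → ι → G) (h1 : ∀ a b, g a b + g b a = 0) (h2 : ∀ a, g a a = 0) :
    ∑ a, ∑ b, g a b = 0 := by
  rw [← Fintype.sum_prod_type' (f := g)]
  refine Finset.sum_involution (fun p _ => p.swap) ?_ ?_ ?_ ?_
  · intro p _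
    exact h1 p.1 p.2
  · intro p _ hp hs
    apply hp
    have : p.1 = p.2 := (congrArg Prod.fst hs).symm
    rw [← this]
    exact h2 _
  · intro p _
    exact Finset.mem_univ _
  · intro p _
    rfl

section Htpy

variable {k : Type*} [Field k] {R : Type*} [CommRing R] [Algebra k R] {n : ℕ}
variable {N : Type*} [AddCommGroup N] [Module k N]

/-- The operator `∑ E_a ⊗ x_a`. -/
noncomputable def opY (E : Fin n → N →ₗ[k] N) (x : Fin n → R) : N ⊗[k] R →ₗ[k] N ⊗[k] R :=
  ∑ a, TensorProduct.map (E a) (LinearMap.mulLeft k (x a))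

theorem opY_tmul (E : Fin n → N →ₗ[k] N) (x : Fin n → R) (u : N) (s : R) :
    opY E x (u ⊗ₜ s) = ∑ a, E a u ⊗ₜ (x a * s) := by
  simp [opY, LinearMap.sum_apply]

theorem opY_sq (E t : Fin n → N →ₗ[k] N) (x w : Fin n → R) (B : Fin n → Fin n → Fin n → k)
    (hB : ∀ l, w l = ∑ a, ∑ b, algebraMap k R (B l a b) * x a * x b)
    (h1 : ∀ a b u, E a (E b u) + E b (E a u) = ∑ l, (B l a b + B l b a) • t l u)
    (h2 : ∀ a u, E a (E a u) = ∑ l, B l a a • t l u) (z : N ⊗[k] R) :
    opY E x (opY E x z) = ∑ l, TensorProduct.map (t l) (LinearMap.mulLeft k (w l)) z := by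
  induction z with
  | zero => simp
  | add z z' hz hz' => simp only [map_add, hz, hz', Finset.sum_add_distrib]
  | tmul u s =>
    have key := sum_sum_eq_zero_of_alt
      (fun a b => (E a (E b u) - ∑ l, B l a b • t l u) ⊗ₜ[k] (x a * (x b * s))) ?_ ?_
    · simp only [sub_tmul, Finset.sum_sub_distrib, sub_eq_zero] at key
      rw [opY_tmul, map_sum]
      simp only [opY_tmul]
      rw [Finset.sum_comm, key]
      simp only [TensorProduct.map_tmul, LinearMap.mulLeft_apply, hB, Finset.sum_mul, tmul_sum,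
        sum_tmul]
      rw [Finset.sum_comm]
      conv_rhs => rw [Finset.sum_comm]
      conv_lhs => rw [Finset.sum_comm]
      refine Finset.sum_congr rfl fun a _ => ?_
      rw [Finset.sum_comm]
      refine Finset.sum_congr rfl fun l _ => Finset.sum_congr rfl fun b _ => ?_
      rw [smul_tmul, Algebra.smul_def, mul_assoc, mul_assoc]
    · intro a b
      have : x b * (x a * s) = x a * (x b * s) := by ring
      simp only [this, ← add_tmul]
      have : E a (E b u) - ∑ l, B l a b • t l u + (E b (E a u) - ∑ l, B l b a • t l u) = 0 := by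
        have := h1 a b u
        simp only [add_smul, Finset.sum_add_distrib] at this
        rw [sub_add_sub_comm, this, sub_self]
      rw [this, zero_tmul]
    · intro a
      simp only [h2, sub_self, zero_tmul]

theorem lTensor_alpha (w : Fin n → R) (y : N ⊗[k] (Fin n → R)) :
    LinearMap.lTensor N (∑ l, (LinearMap.mulLeft k (w l)) ∘ₗ
      LinearMap.proj (R := k) (φ := fun _ => R) l) y =
    ∑ l, LinearMap.lTensor N (LinearMap.mulLeft k (w l))
      (LinearMap.lTensor N (LinearMap.proj (R := k) (φ := fun _ => R) l) y) := by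
  induction y with
  | zero => simp
  | add z z' hz hz' => simp only [map_add, hz, hz', Finset.sum_add_distrib]
  | tmul u s => simp [LinearMap.sum_apply, tmul_sum]

/-- syzygies with coefficients in a vector space -/
theorem syz_tensor (w : Fin n → R)
    (hsyz : ∀ s : Fin n → R, ∑ i, w i * s i = 0 → ∀ i, s i ∈ Ideal.span (Set.range w))
    (m : Fin n → N ⊗[k] R)
    (hm : ∑ l, LinearMap.lTensor N (LinearMap.mulLeft k (w l)) (m l) = 0) (i : Fin n) :
    LinearMap.lTensor N (Ideal.Quotient.mkₐ k (Ideal.span (Set.range w))).toLinearMap (m i) = 0 := by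
  let α : (Fin n → R) →ₗ[k] R := ∑ l, (LinearMap.mulLeft k (w l)) ∘ₗ LinearMap.proj l
  have hα : ∀ s, α s = ∑ l, w l * s l := by
    intro s; simp [α, LinearMap.sum_apply]
  let y : N ⊗[k] (Fin n → R) := ∑ l, LinearMap.lTensor N (LinearMap.single k (fun _ => R) l) (m l)
  have hproj : ∀ l, LinearMap.lTensor N (LinearMap.proj (R := k) (φ := fun _ => R) l) y = m l := by
    intro l
    simp only [y, map_sum, ← LinearMap.comp_apply, ← LinearMap.lTensor_comp]
    rw [Finset.sum_eq_single l]
    · rw [LinearMap.proj_comp_single_same]; simp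
    · intro b _ hb
      rw [LinearMap.proj_comp_single_ne _ _ _ _ hb.symm]; simp
    · simp
  have hy : LinearMap.lTensor N α y = 0 := by
    rw [← hm]
    simp only [α, lTensor_alpha, hproj]
  have hex : Function.Exact (LinearMap.lTensor N (LinearMap.ker α).subtype)
      (LinearMap.lTensor N α) :=
    Module.Flat.lTensor_exact N (LinearMap.exact_subtype_ker_map α)
  obtain ⟨y', hy'⟩ := (hex y).1 hy
  rw [← hproj i, ← hy', ← LinearMap.comp_apply, ← LinearMap.comp_apply, ← LinearMap.lTensor_comp,
    ← LinearMap.lTensor_comp]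
  have : ((Ideal.Quotient.mkₐ k (Ideal.span (Set.range w))).toLinearMap ∘ₗ
      LinearMap.proj (R := k) (φ := fun _ => R) i) ∘ₗ (LinearMap.ker α).subtype = 0 := by
    ext s
    simp only [LinearMap.comp_apply, Submodule.subtype_apply, LinearMap.proj_apply,
      AlgHom.toLinearMap_apply, Ideal.Quotient.mkₐ_eq_mk, LinearMap.zero_apply,
      Ideal.Quotient.eq_zero_iff_mem]
    exact hsyz s.1 (by rw [← hα]; exact s.2) i
  rw [this]; simp

theorem ker_tensor (w : Fin n → R) (z : N ⊗[k] R)
    (hz : LinearMap.lTensor N (Ideal.Quotient.mkₐ k (Ideal.span (Set.range w))).toLinearMap z = 0) :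
    ∃ m : Fin n → N ⊗[k] R, z = ∑ l, LinearMap.lTensor N (LinearMap.mulLeft k (w l)) (m l) := by
  let α : (Fin n → R) →ₗ[k] R := ∑ l, (LinearMap.mulLeft k (w l)) ∘ₗ LinearMap.proj l
  have hα : ∀ s, α s = ∑ l, w l * s l := by
    intro s; simp [α, LinearMap.sum_apply]
  have hex0 : Function.Exact α (Ideal.Quotient.mkₐ k (Ideal.span (Set.range w))).toLinearMap := by
    intro s
    simp only [AlgHom.toLinearMap_apply, Ideal.Quotient.mkₐ_eq_mk, Ideal.Quotient.eq_zero_iff_mem,
      Set.mem_range, hα, Ideal.mem_span_range_iff_exists_fun]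
    constructor
    · rintro ⟨c, hc⟩; exact ⟨c, by simpa [mul_comm] using hc⟩
    · rintro ⟨c, hc⟩; exact ⟨c, by simpa [mul_comm] using hc⟩
  have hex := Module.Flat.lTensor_exact N hex0
  obtain ⟨y, hy⟩ := (hex z).1 hz
  refine ⟨fun l => LinearMap.lTensor N (LinearMap.proj (R := k) (φ := fun _ => R) l) y, ?_⟩
  rw [← hy]
  simp only [α, lTensor_alpha]

/-- The basic homotopy: each `t l` acts as zero on the cohomology of `Y`. -/
theorem htpy (E t : Fin n → N →ₗ[k] N) (x w : Fin n → R) (B : Fin n → Fin n → Fin n → k)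
    (hB : ∀ l, w l = ∑ a, ∑ b, algebraMap k R (B l a b) * x a * x b)
    (hsyz : ∀ s : Fin n → R, ∑ i, w i * s i = 0 → ∀ i, s i ∈ Ideal.span (Set.range w))
    (h1 : ∀ a b u, E a (E b u) + E b (E a u) = ∑ l, (B l a b + B l b a) • t l u)
    (h2 : ∀ a u, E a (E a u) = ∑ l, B l a a • t l u)
    (z : N ⊗[k] (R ⧸ Ideal.span (Set.range w)))
    (hz : opY E (fun a => Ideal.Quotient.mk _ (x a)) z = 0) (l : Fin n) :
    LinearMap.rTensor _ (t l) z ∈
      LinearMap.range (opY E (fun a => Ideal.Quotient.mk (Ideal.span (Set.range w)) (x a))) := by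
  set π := LinearMap.lTensor N (Ideal.Quotient.mkₐ k (Ideal.span (Set.range w))).toLinearMap
    with hπ
  have hsurj : Function.Surjective π :=
    LinearMap.lTensor_surjective N (Ideal.Quotient.mkₐ_surjective k _)
  have hY : ∀ y, opY E (fun a => Ideal.Quotient.mk (Ideal.span (Set.range w)) (x a)) (π y) =
      π (opY E x y) := by
    intro y
    induction y with
    | zero => simp
    | add z z' hz hz' => simp only [map_add, hz, hz']
    | tmul u s => simp [hπ, opY_tmul]
  have hYW : ∀ l y, opY E x (LinearMap.lTensor N (LinearMap.mulLeft k (w l)) y) =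
      LinearMap.lTensor N (LinearMap.mulLeft k (w l)) (opY E x y) := by
    intro l y
    induction y with
    | zero => simp
    | add z z' hz hz' => simp only [map_add, hz, hz']
    | tmul u s => simp [opY_tmul, mul_left_comm]
  obtain ⟨y, rfl⟩ := hsurj z
  rw [hY] at hz
  obtain ⟨m, hm⟩ := ker_tensor w _ hz
  have h3 := opY_sq E t x w B hB h1 h2 y
  rw [hm, map_sum] at h3
  have h4 : ∑ l, LinearMap.lTensor N (LinearMap.mulLeft k (w l))
      (LinearMap.rTensor _ (t l) y - opY E x (m l)) = 0 := by
    simp only [map_sub, Finset.sum_sub_distrib, ← hYW, h3, sub_eq_zero]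
    refine Finset.sum_congr rfl fun l _ => ?_
    rw [← LinearMap.comp_apply, LinearMap.lTensor_comp_rTensor]
  have h5 := syz_tensor w hsyz _ h4 l
  rw [← hπ, map_sub, sub_eq_zero, ← hY] at h5
  refine ⟨π (m l), ?_⟩
  rw [← h5, hπ, ← LinearMap.comp_apply, ← LinearMap.comp_apply, LinearMap.lTensor_comp_rTensor,
    LinearMap.rTensor_comp_lTensor]

end Htpy

end Vale.Agent.P200
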