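import Vale.Agent.P200.Defs

/-! Koszul homology, graded Betti numbers and the lex-plus-powers space. -/

open MvPolynomial

namespace Vale.Agent.P200.L

section General

variable {K V R : Type*} [Field K] [AddCommGroup V] [Module K V] [CommRing R] [Algebra K R] {n : ℕ}

/-- The dimension of `Z / (Z ∩ B)`. -/
noncomputable def subquotDim (Z B : Submodule K V) : ℕ :=
  Module.finrank K (↥Z ⧸ B.comap Z.subtype)

/-- The Koszul differential of operators `m₀, …, m_{n-1}` on `V`. A chain `c` has the component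
`c T` at the basis vector `e_T` of the exterior algebra, and
`∂ (x e_T) = ∑_{i ∈ T} (-1)^#{j ∈ T | j < i} (mᵢ x) e_{T ∖ i}`. -/
noncomputable def koszulD (m : Fin n → V →ₗ[K] V) :
    (Finset (Fin n) → V) →ₗ[K] (Finset (Fin n) → V) :=
  LinearMap.pi fun T => ∑ i ∈ Tᶜ,
    ((-1 : ℤ) ^ (T.filter (· < i)).card) • (m i ∘ₗ LinearMap.proj (insert i T))

/-- The chains `Λ^p ⊗ W`: components in `W` at sets of size `p`, zero elsewhere. -/
def chains (n : ℕ) (W : Submodule K V) (p : ℕ) : Submodule K (Finset (Fin n) → V) :=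
  Submodule.pi Set.univ fun T => if T.card = p then W else ⊥

/-- The dimension of the Koszul homology at `Λ^p ⊗ W`: cycles modulo boundaries. -/
noncomputable def koszulH (m : Fin n → V →ₗ[K] V) (W : Submodule K V) (p : ℕ) : ℕ :=
  subquotDim (chains n W p ⊓ LinearMap.ker (koszulD m)) (LinearMap.range (koszulD m))

/-- The dimension of the Koszul homology of `x₁, …, xₙ ∈ R` on `R / I` at `Λ^p ⊗ (image of W)`. -/
noncomputable def koszulQ (x : Fin n → R) (I : Ideal R) (W : Submodule K R) (p : ℕ) : ℕ :=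
  koszulH (fun i => LinearMap.mulLeft K (Ideal.Quotient.mk I (x i)))
    (W.map (Ideal.Quotient.mkₐ K I).toLinearMap) p

end General

variable {K : Type*} [Field K] {n c : ℕ}

/-- `β_{p, p+d}(S/I)`: the dimension of the Koszul homology of the variables at `Λ^p ⊗ (S/I)_d`,
that is of `Tor_p^S(S/I, K)` in degree `p + d`. -/
noncomputable def betti (I : Ideal (MvPolynomial (Fin n) K)) (p d : ℕ) : ℕ :=
  koszulQ X I (homogeneousSubmodule (Fin n) K d) p

/-- The ideal `P = (x₁^{a₁}, …, x_c^{a_c})`. -/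
noncomputable def powers (K : Type*) [Field K] (hc : c ≤ n) (a : Fin c → ℕ) :
    Ideal (MvPolynomial (Fin n) K) :=
  Ideal.span (Set.range fun i => (X (Fin.castLE hc i) : MvPolynomial (Fin n) K) ^ a i)

/-- The monomial `x^α` lies in `P = (x₁^{a₁}, …, x_c^{a_c})`. -/
def inP (hc : c ≤ n) (a : Fin c → ℕ) (α : Fin n →₀ ℕ) : Prop :=
  ∃ i, a i ≤ α (Fin.castLE hc i)

/-- The exponents of the monomials spanning `J`: those in `P`, and in each degree `d` the
`q_d = dim I_d - dim P_d` lexicographically greatest ones outside `P`. -/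
def lppSet (hc : c ≤ n) (a : Fin c → ℕ) (I : Ideal (MvPolynomial (Fin n) K)) :
    Set (Fin n →₀ ℕ) :=
  {α | inP hc a α ∨
    {β : Fin n →₀ ℕ | β.degree = α.degree ∧ ¬ inP hc a β ∧ toLex α ≤ toLex β}.ncard ≤
      dimIn I α.degree - dimIn (powers K hc a) α.degree}

/-- The graded subspace `J = ⊕ J_d` of the problem. -/
noncomputable def lppSpace (hc : c ≤ n) (a : Fin c → ℕ) (I : Ideal (MvPolynomial (Fin n) K)) :
    Submodule K (MvPolynomial (Fin n) K) :=
  Submodule.span K ((fun α => monomial α (1 : K)) '' lppSet hc a I)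

end Vale.Agent.P200.L
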