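import Vale.Agent.P200.Hilb

open MvPolynomial Module TensorProduct Finset

namespace Vale.Agent.P200

attribute [local instance] MvPolynomial.gradedAlgebra

section
variable {k : Type*} [Field k] {n : ℕ}

theorem hcq_mul_add {a : MvPolynomial (Fin n) k} {i : ℕ} (ha : a.IsHomogeneous i) (j : ℕ)
    (s : MvPolynomial (Fin n) k) :
    homogeneousComponent (i + j) (a * s) = a * homogeneousComponent j s := by
  have := DirectSum.coe_decompose_mul_add_of_left_mem (homogeneousSubmodule (Fin n) k)
    (i := i) (j := j) (a := a) (b := s) ha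
  rw [← decomposition.decompose'_apply, ← decomposition.decompose'_apply]
  exact this

theorem hc_mul_of_lt {a : MvPolynomial (Fin n) k} {i : ℕ} (ha : a.IsHomogeneous i) {j : ℕ}
    (hj : j < i) (s : MvPolynomial (Fin n) k) :
    homogeneousComponent j (a * s) = 0 := by
  have := DirectSum.coe_decompose_mul_of_left_mem_of_not_le (homogeneousSubmodule (Fin n) k)
    (i := i) (n := j) (a := a) (b := s) ha (by omega)
  rw [← decomposition.decompose'_apply]
  exact this

theorem hc_mem_span {c : ℕ} {w : Fin c → MvPolynomial (Fin n) k} {a : Fin c → ℕ}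
    (hdeg : ∀ i, (w i).IsHomogeneous (a i)) (j : ℕ) {s : MvPolynomial (Fin n) k}
    (hs : s ∈ Ideal.span (Set.range w)) : homogeneousComponent j s ∈ Ideal.span (Set.range w) := by
  refine homogeneousComponent_mem_of_mem ?_ hs j
  refine Ideal.homogeneous_span _ _ ?_
  rintro _ ⟨i, rfl⟩
  exact ⟨a i, hdeg i⟩

/-- The homogeneous components on the quotient by a homogeneous ideal. -/
noncomputable def qcomp (J : Ideal (MvPolynomial (Fin n) k))
    (hJ : ∀ j, ∀ s ∈ J, homogeneousComponent j s ∈ J) (j : ℕ) :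
    (MvPolynomial (Fin n) k ⧸ J) →ₗ[k] (MvPolynomial (Fin n) k ⧸ J) :=
  (Submodule.Quotient.restrictScalarsEquiv k J).toLinearMap ∘ₗ
    (Submodule.mapQ (J.restrictScalars k) (J.restrictScalars k) (homogeneousComponent j)
      (fun s hs => hJ j s hs)) ∘ₗ
    (Submodule.Quotient.restrictScalarsEquiv k J).symm.toLinearMap

theorem qcomp_mk (J : Ideal (MvPolynomial (Fin n) k))
    (hJ : ∀ j, ∀ s ∈ J, homogeneousComponent j s ∈ J) (j : ℕ) (s : MvPolynomial (Fin n) k) :
    qcomp J hJ j (Ideal.Quotient.mk J s) = Ideal.Quotient.mk J (homogeneousComponent j s) := rfl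

theorem finrank_range_qcomp (J : Ideal (MvPolynomial (Fin n) k))
    (hJ : ∀ j, ∀ s ∈ J, homogeneousComponent j s ∈ J) (j : ℕ) :
    dimIn J j + finrank k (LinearMap.range (qcomp J hJ j)) =
      finrank k (homogeneousSubmodule (Fin n) k j) := by
  have : FiniteDimensional k (homogeneousSubmodule (Fin n) k j) :=
    Module.Finite.iff_fg.2 (homogeneousSubmodule_fg _ _ _)
  have h := LinearMap.finrank_range_add_finrank_ker
    ((Ideal.Quotient.mkₐ k J).toLinearMap.domRestrict (homogeneousSubmodule (Fin n) k j))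
  rw [LinearMap.range_domRestrict, LinearMap.ker_domRestrict] at h
  have h2 : finrank k ↥(Submodule.comap (homogeneousSubmodule (Fin n) k j).subtype
      (LinearMap.ker (Ideal.Quotient.mkₐ k J).toLinearMap)) = dimIn J j := by
    have : LinearMap.ker (Ideal.Quotient.mkₐ k J).toLinearMap = J.restrictScalars k := by
      ext s
      simp [Ideal.Quotient.eq_zero_iff_mem]
    rw [← Submodule.finrank_map_subtype_eq, Submodule.map_comap_subtype, dimIn, inf_comm, this]
  have h3 : Submodule.map (Ideal.Quotient.mkₐ k J).toLinearMap (homogeneousSubmodule (Fin n) k j) =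
      LinearMap.range (qcomp J hJ j) := by
    apply le_antisymm
    · rintro _ ⟨s, hs, rfl⟩
      refine ⟨Ideal.Quotient.mk J s, ?_⟩
      rw [qcomp_mk, homogeneousComponent_eq_self hs]; rfl
    · rintro _ ⟨s, rfl⟩
      obtain ⟨s, rfl⟩ := Ideal.Quotient.mk_surjective s
      exact ⟨_, homogeneousComponent_mem j s, rfl⟩
  rw [h2, h3] at h
  omega

/-- The graded structure of the quotient by `n` quadrics forming a regular sequence. -/
theorem exists_qcomp {w : Fin n → MvPolynomial (Fin n) k}
    (hdeg : ∀ i, (w i).IsHomogeneous 2) (h : Reg w) :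
    ∃ Q : ℕ → (MvPolynomial (Fin n) k ⧸ Ideal.span (Set.range w)) →ₗ[k]
        (MvPolynomial (Fin n) k ⧸ Ideal.span (Set.range w)),
      (∀ a s, Q 0 (Ideal.Quotient.mk _ (X a) * s) = 0) ∧
      (∀ j a s, Q (j + 1) (Ideal.Quotient.mk _ (X a) * s) = Ideal.Quotient.mk _ (X a) * Q j s) ∧
      (∀ j s, Q j (Q j s) = Q j s) ∧
      (∀ j, finrank k (LinearMap.range (Q j)) = n.choose j) ∧ Q (n + 1) = 0 ∧
      FiniteDimensional k (MvPolynomial (Fin n) k ⧸ Ideal.span (Set.range w)) := by
  have hJ : ∀ j, ∀ s ∈ Ideal.span (Set.range w), homogeneousComponent j s ∈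
      Ideal.span (Set.range w) := fun j s hs => hc_mem_span (a := fun _ => 2) hdeg j hs
  have hfin : ∀ j, FiniteDimensional k (LinearMap.range (qcomp _ hJ j)) := by
    intro j
    have : FiniteDimensional k (homogeneousSubmodule (Fin n) k j) :=
      Module.Finite.iff_fg.2 (homogeneousSubmodule_fg _ _ _)
    have h3 : LinearMap.range (qcomp _ hJ j) ≤
        Submodule.map (Ideal.Quotient.mkₐ k (Ideal.span (Set.range w))).toLinearMap
          (homogeneousSubmodule (Fin n) k j) := by
      rintro _ ⟨s, rfl⟩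
      obtain ⟨s, rfl⟩ := Ideal.Quotient.mk_surjective s
      exact ⟨_, homogeneousComponent_mem j s, rfl⟩
    exact Submodule.finiteDimensional_of_le h3
  have hrank : ∀ j, finrank k (LinearMap.range (qcomp _ hJ j)) = n.choose j := by
    intro j
    have h1 := finrank_range_qcomp _ hJ j
    have h2 := h.hilbert hdeg j
    omega
  have hzero : ∀ j, n < j → qcomp _ hJ j = 0 := by
    intro j hj
    have := hrank j
    rw [Nat.choose_eq_zero_of_lt hj, Submodule.finrank_eq_zero, LinearMap.range_eq_bot] at this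
    exact this
  refine ⟨qcomp _ hJ, ?_, ?_, ?_, hrank, hzero _ (by omega), ?_⟩
  · intro a s
    obtain ⟨s, rfl⟩ := Ideal.Quotient.mk_surjective s
    rw [← map_mul, qcomp_mk, hc_mul_of_lt (isHomogeneous_X k a) (by omega), map_zero]
  · intro j a s
    obtain ⟨s, rfl⟩ := Ideal.Quotient.mk_surjective s
    rw [← map_mul, qcomp_mk, qcomp_mk, add_comm, hcq_mul_add (isHomogeneous_X k a), map_mul]
  · intro j s
    obtain ⟨s, rfl⟩ := Ideal.Quotient.mk_surjective s
    rw [qcomp_mk, qcomp_mk, homogeneousComponent_eq_self (homogeneousComponent_isHomogeneous j s)]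
  · have htop : (⊤ : Submodule k (MvPolynomial (Fin n) k ⧸ Ideal.span (Set.range w))) ≤
        ⨆ j : Fin (n + 1), LinearMap.range (qcomp _ hJ j) := by
      intro s _
      obtain ⟨s, rfl⟩ := Ideal.Quotient.mk_surjective s
      rw [← sum_homogeneousComponent s, map_sum]
      refine Submodule.sum_mem _ fun j _ => ?_
      rw [← qcomp_mk _ hJ]
      by_cases hj : n < j
      · rw [hzero j hj]; simp
      · exact Submodule.mem_iSup_of_mem ⟨j, by omega⟩ ⟨_, rfl⟩
    have := Submodule.finiteDimensional_of_le htop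
    exact Module.Finite.equiv Submodule.topEquiv

theorem monomial_mem_of_lt {w : Fin n → MvPolynomial (Fin n) k}
    (hdeg : ∀ i, (w i).IsHomogeneous 2) (h : Reg w) (s : MvPolynomial (Fin n) k) {d : ℕ}
    (hs : s.IsHomogeneous d) (hd : n < d) : s ∈ Ideal.span (Set.range w) := by
  have h2 := h.hilbert hdeg d
  rw [Nat.choose_eq_zero_of_lt hd, add_zero, dimIn] at h2
  have : FiniteDimensional k (homogeneousSubmodule (Fin n) k d) :=
    Module.Finite.iff_fg.2 (homogeneousSubmodule_fg _ _ _)
  have h3 := Submodule.eq_of_le_of_finrank_eq inf_le_right h2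
  have h4 : s ∈ homogeneousSubmodule (Fin n) k d := hs
  rw [← h3] at h4
  exact h4.1

end

end Vale.Agent.P200
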