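import Vale.Agent.P200.Defs

open MvPolynomial Module TensorProduct Finset

namespace Vale.Agent.P200

universe u

/-- T1 -/
theorem finrank_eq_ncard_lead {D ι : Type*} [DivisionRing D] [LinearOrder ι]
    (T : Finset ι) (U : Submodule D (ι →₀ D)) (hU : ∀ u ∈ U, u.support ⊆ T) :
    finrank D U = {a | ∃ u ∈ U, u a ≠ 0 ∧ ∀ b, a < b → u b = 0}.ncard := sorry

/-- T2 -/
theorem no_two_parts (m : ℕ) (h₁ h₂ : ℕ → ℤ)
    (r₁ : ∃ d₀, ∀ d ≥ d₀, ∑ j ∈ range (m + 2), (-1) ^ j * ((m + 1).choose j : ℤ) * h₁ (d + j) = 0)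
    (r₂ : ∃ d₀, ∀ d ≥ d₀, ∑ j ∈ range (m + 2), (-1) ^ j * ((m + 1).choose j : ℤ) * h₂ (d + j) = 0)
    (hle : ∀ d, h₁ d + h₂ d ≤ ((d + m).choose m : ℤ))
    (g₁ : ∃ a c : ℕ, ∀ k, ((k + m).choose m : ℤ) ≤ c * h₁ (a + 2 * k))
    (g₂ : ∃ a c : ℕ, ∀ k, ((k + m).choose m : ℤ) ≤ c * h₂ (a + 2 * k)) : False := sorry

/-- T3a -/
theorem Reg.syz {R : Type*} [CommRing R] {c : ℕ} {f : Fin c → R} (h : Reg f) (s : Fin c → R)
    (hs : ∑ i, f i * s i = 0) (i : Fin c) : s i ∈ Ideal.span (Set.range f) := sorry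

/-- T3b -/
theorem finrank_homogeneous (K : Type*) [Field K] (m d : ℕ) :
    finrank K (homogeneousSubmodule (Fin (m + 1)) K d) = (d + m).choose m := sorry

/-- T3c -/
theorem Reg.hilbert {K : Type*} [Field K] {n : ℕ} {w : Fin n → MvPolynomial (Fin n) K}
    (hdeg : ∀ i, (w i).IsHomogeneous 2) (h : Reg w) (d : ℕ) :
    dimIn (Ideal.span (Set.range w)) d + n.choose d =
      finrank K (homogeneousSubmodule (Fin n) K d) := sorry

/-- T4a -/
theorem Reg.map {K k : Type*} [Field K] [Field k] [Algebra K k] {n c : ℕ}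
    {f : Fin c → MvPolynomial (Fin n) K} (h : Reg f) :
    Reg (fun i => MvPolynomial.map (algebraMap K k) (f i)) := sorry

/-- T4b -/
theorem Reg.exists_linear {k : Type*} [Field k] [Infinite k] {n c : ℕ} (hc : c < n)
    {f : Fin c → MvPolynomial (Fin n) k} (hpos : ∀ i, constantCoeff (f i) = 0) (h : Reg f) :
    ∃ l : MvPolynomial (Fin n) k, l.IsHomogeneous 1 ∧
      ∀ g, l * g ∈ Ideal.span (Set.range f) → g ∈ Ideal.span (Set.range f) := sorry

/-- T5 -/
theorem span_of_eventually {K D : Type*} [Field K] [DivisionRing D] [Algebra K D] {n : ℕ}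
    (Z : Fin n → D ⊗[K] MvPolynomial (Fin n) K)
    (hZ : ∀ i, Z i ∈ (homogeneousSubmodule (Fin n) K 1).baseChange D)
    (hcomm : ∀ i j, Commute (Z i) (Z j)) (d₀ : ℕ)
    (hev : ∀ α : Fin n →₀ ℕ, d₀ ≤ α.degree →
      (1 : D) ⊗ₜ[K] (monomial α (1 : K)) ∈ Ideal.span (Set.range Z)) :
    (homogeneousSubmodule (Fin n) K 1).baseChange D ≤ Submodule.span D (Set.range Z) := sorry

/-- T6 -/
theorem exists_monomial_ideal {K D : Type*} [Field K] [DivisionRing D] [Algebra K D] {n : ℕ}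
    (Z : Fin n → D ⊗[K] MvPolynomial (Fin n) K)
    (hZ : ∀ i, Z i ∈ (homogeneousSubmodule (Fin n) K 1).baseChange D)
    (ψ : MvPolynomial (Fin n) K →ₐ[K] D ⊗[K] MvPolynomial (Fin n) K) (hψ : ∀ i, ψ (X i) = Z i)
    (hspan : (homogeneousSubmodule (Fin n) K 1).baseChange D ≤ Submodule.span D (Set.range Z))
    (I : Ideal (MvPolynomial (Fin n) K)) (mo : MonomialOrder (Fin n)) :
    ∃ A : Set (Fin n →₀ ℕ),
      (∀ d, dimIn I d = dimIn (Ideal.span ((fun α => monomial α (1 : K)) '' A)) d) ∧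
      ∀ (d : ℕ) (v : (Fin n →₀ ℕ) →₀ D) (α : Fin n →₀ ℕ),
        (∀ β ∈ v.support, β.degree = d) →
        Finsupp.linearCombination D (fun β => ψ (monomial β 1)) v ∈
          (I.restrictScalars K ⊓ homogeneousSubmodule (Fin n) K d).baseChange D →
        v α ≠ 0 → (∀ β, mo.toSyn α < mo.toSyn β → v β = 0) → α ∈ A := sorry

/-- T7: existence of the division ring -/
theorem exists_division {k : Type u} [Field k] {n : ℕ} {w : Fin n → MvPolynomial (Fin n) k}
    (hdeg : ∀ i, (w i).IsHomogeneous 2) (h : Reg w) (B : Fin n → Fin n → Fin n → k)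
    (hB : ∀ l, w l = ∑ a, ∑ b, C (B l a b) * X a * X b) (c : ℕ) (hc : c ≤ n) (r : ℕ) (hr : r ≤ c) :
    ∃ (L : Type u) (_ : Field L) (_ : Algebra k L) (D : Type u) (_ : DivisionRing D)
      (_ : Algebra L D) (_ : FiniteDimensional L D)
      (e : Fin r → Fin n → D) (τ : Fin r → Fin n → L),
      (∀ i j, i ≠ j → ∀ a b, Commute (e i a) (e j b)) ∧
      (∀ i a b, e i a * e i b + e i b * e i a =
        algebraMap L D (∑ l, τ i l * algebraMap k L (B l a b + B l b a))) ∧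
      (∀ i a, e i a * e i a = algebraMap L D (∑ l, τ i l * algebraMap k L (B l a a))) ∧
      LinearIndependent L (fun i : Fin r => fun l : Fin c => τ i (Fin.castLE hc l)) := sorry

theorem egh_quadrics (K : Type u) [Field K] (n c : ℕ) (hc : c ≤ n)
    (f : Fin c → MvPolynomial (Fin n) K) (hdeg : ∀ i, (f i).IsHomogeneous 2) (hreg : Reg f)
    (I : Ideal (MvPolynomial (Fin n) K)) (hf : ∀ i, f i ∈ I) :
    ∃ A : Set (Fin n →₀ ℕ),
      (∀ i : Fin c, X (Fin.castLE hc i) ^ 2 ∈ Ideal.span ((fun α => monomial α (1 : K)) '' A)) ∧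
      ∀ d, dimIn I d = dimIn (Ideal.span ((fun α => monomial α (1 : K)) '' A)) d := sorry

end Vale.Agent.P200
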