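import Vale.Agent.P200.Cliff2

open MvPolynomial Module TensorProduct Finset

namespace Vale.Agent.P200

universe u

theorem hom_oprod {L R ι : Type*} [Field L] [Ring R] [Algebra L R] [LinearOrder ι]
    (φ : R →ₐ[L] Polynomial R) (e : ι → R) (he : ∀ a, e a ∈ hom φ 1) (s : Finset ι) :
    oprod e s ∈ hom φ s.card := by
  induction s using Finset.induction_on_min with
  | empty => rw [oprod_empty]; exact hom_one φ
  | insert b s hb ih =>
    rw [oprod_insert e hb, Finset.card_insert_of_notMem (fun h => lt_irrefl _ (hb b h)), add_comm]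
    exact hom_mul φ (he b) ih

theorem map_oprod {A R ι F : Type*} [Monoid A] [Monoid R] [LinearOrder ι] [FunLike F A R]
    [MonoidHomClass F A R] (f : F) (e : ι → A) (s : Finset ι) :
    f (oprod e s) = oprod (fun a => f (e a)) s := by
  rw [oprod, oprod, map_list_prod, List.map_map]
  rfl

theorem hom_monomial {L R σ : Type*} [Field L] [Ring R] [Algebra L R]
    [Algebra (MvPolynomial σ L) R] (φ : R →ₐ[L] Polynomial R)
    (hτ : ∀ l, algebraMap (MvPolynomial σ L) R (X l) ∈ hom φ 2) (β : σ →₀ ℕ) :
    algebraMap (MvPolynomial σ L) R (monomial β 1) ∈ hom φ (2 * β.degree) := by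
  induction β using Finsupp.induction_linear with
  | zero => simpa using hom_one φ
  | add f g hf hg =>
    rw [map_add, mul_add, ← one_mul (1 : L), ← monomial_mul, map_mul]
    exact hom_mul φ hf hg
  | single a j =>
    rw [← X_pow_eq_monomial, map_pow, Finsupp.degree_single]
    induction j with
    | zero => simpa using hom_one φ
    | succ j ih => rw [pow_succ, mul_add, mul_one]; exact hom_mul φ ih (hτ a)

theorem noZeroDivisors_cl {k L D : Type*} [Field k] [Field L] [Algebra k L] [DivisionRing D]
    [Algebra L D] [FiniteDimensional L D] {m : ℕ} {w : Fin (m + 1) → MvPolynomial (Fin (m + 1)) k}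
    (hdeg : ∀ i, (w i).IsHomogeneous 2) (hreg : Reg w)
    (B : Fin (m + 1) → Fin (m + 1) → Fin (m + 1) → k)
    (hB : ∀ l, w l = ∑ a, ∑ b, C (B l a b) * X a * X b) :
    NoZeroDivisors (CliffordAlgebra (gform L B) ⊗[L] D) := by
  classical
  obtain ⟨hfree, hfinite, -⟩ := free_cl L B
  obtain ⟨φ, he, hτ, hι⟩ := exists_grading L B D
  have hfinR : Module.Finite (MvPolynomial (Fin (m + 1)) L) (CliffordAlgebra (gform L B) ⊗[L] D) :=
    finite_tensor
  have hnzs : NoZeroSMulDivisors (MvPolynomial (Fin (m + 1)) L)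
      (CliffordAlgebra (gform L B) ⊗[L] D) := ⟨fun h => smul_eq_zero.1 h⟩
  set R := CliffordAlgebra (gform L B) ⊗[L] D with hR
  let bD := Module.finBasis L D
  let half : (Fin (m + 1) →₀ ℕ) → (Fin (m + 1) →₀ ℕ) := fun γ => γ.mapRange (· / 2) (by simp)
  let odd : (Fin (m + 1) →₀ ℕ) → Finset (Fin (m + 1)) := fun γ => univ.filter fun a => γ a % 2 = 1
  let g : (Fin (m + 1) →₀ ℕ) × Fin (finrank L D) → R := fun p =>
    (monomial (half p.1) (1 : L)) • (oprod (gen L B) (odd p.1) ⊗ₜ[L] bD p.2)
  have hg : ∀ p, g p ∈ hom φ p.1.degree := by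
    rintro ⟨γ, t⟩
    have h1 : γ.degree = 2 * (half γ).degree + ((odd γ).card + 0) := by
      simp only [Finsupp.degree_eq_sum, half, odd, Finsupp.mapRange_apply, Finset.card_filter,
        Finset.mul_sum, add_zero, ← Finset.sum_add_distrib]
      refine Finset.sum_congr rfl fun a _ => ?_
      split_ifs <;> omega
    simp only [g]
    rw [h1, Algebra.smul_def]
    refine hom_mul φ (hom_monomial φ hτ _) ?_
    have h2 : oprod (gen L B) (odd γ) ⊗ₜ[L] bD t =
        oprod (fun a => (gen L B a ⊗ₜ[L] (1 : D) : R)) (odd γ) * (1 ⊗ₜ[L] bD t) := by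
      have := map_oprod (Algebra.TensorProduct.includeLeftRingHom (R := L) (B := D)) (gen L B)
        (odd γ)
      simp only [Algebra.TensorProduct.includeLeftRingHom_apply] at this
      rw [← this, Algebra.TensorProduct.tmul_mul_tmul, mul_one, one_mul]
    rw [h2]
    exact hom_mul φ (hom_oprod φ _ he _) (hι _)
  have hspan : Submodule.span L (Set.range g) = ⊤ := by
    set W := Submodule.span L (Set.range g)
    have h1 : ∀ (β : Fin (m + 1) →₀ ℕ) (s : Finset (Fin (m + 1))) (d : D),
        (monomial β (1 : L)) • (oprod (gen L B) s ⊗ₜ[L] d : R) ∈ W := by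
      intro β s d
      rw [← bD.sum_repr d, tmul_sum, Finset.smul_sum]
      refine Submodule.sum_mem _ fun t _ => ?_
      rw [tmul_smul, smul_comm]
      refine Submodule.smul_mem _ _ (Submodule.subset_span
        ⟨(2 • β + Finsupp.equivFunOnFinite.symm (fun a => if a ∈ s then 1 else 0), t), ?_⟩)
      simp only [g]
      congr 3
      · ext a
        simp only [half, Finsupp.mapRange_apply, Finsupp.add_apply, Finsupp.smul_apply,
          Finsupp.equivFunOnFinite_symm_apply_apply, smul_eq_mul]
        split_ifs <;> omega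
      · ext a
        simp only [odd, Finset.mem_filter, Finset.mem_univ, true_and, Finsupp.add_apply,
          Finsupp.smul_apply, Finsupp.equivFunOnFinite_symm_apply_apply, smul_eq_mul]
        split_ifs with h
        · simp only [h, iff_true]; omega
        · simp only [h, iff_false]; omega
    have h2 : ∀ (p : MvPolynomial (Fin (m + 1)) L) (s : Finset (Fin (m + 1))) (d : D),
        p • (oprod (gen L B) s ⊗ₜ[L] d : R) ∈ W := by
      intro p s d
      induction p using MvPolynomial.induction_on' with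
      | monomial β c =>
        rw [← mul_one c, ← smul_eq_mul, ← smul_monomial, smul_assoc]
        exact Submodule.smul_mem _ _ (h1 β s d)
      | add p q hp hq => rw [add_smul]; exact Submodule.add_mem _ hp hq
    rw [eq_top_iff]
    rintro u -
    induction u using TensorProduct.induction_on with
    | zero => exact Submodule.zero_mem _
    | add x y hx hy => exact Submodule.add_mem _ hx hy
    | tmul x d =>
      have hx : x ∈ Submodule.span (MvPolynomial (Fin (m + 1)) L) (Set.range (oprod (gen L B))) :=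
        span_gen L B ▸ Submodule.mem_top
      obtain ⟨c, rfl⟩ := (Submodule.mem_span_range_iff_exists_fun _).1 hx
      rw [sum_tmul]
      refine Submodule.sum_mem _ fun s _ => ?_
      rw [← smul_tmul']
      exact h2 _ _ _
  have hb := fun d => bound_of_span φ g (fun p => p.1.degree) hg hspan d
    (finsuppAntidiag univ d ×ˢ univ) (by
      rintro ⟨γ, t⟩
      simp [Finsupp.degree_eq_sum])
  refine noZeroDivisors_of_graded hdeg hreg B hB (fun a => gen L B a ⊗ₜ[L] (1 : D)) ?_ ?_ φ he hτ
    (idem_of_span φ g _ hg hspan) (inj_of_span φ g _ hg hspan)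
    (Algebra.TensorProduct.includeRight) hι (fun d => (hb d).1) (fun d => (hb d).2.trans ?_)
  · intro a b
    rw [Algebra.TensorProduct.tmul_mul_tmul, Algebra.TensorProduct.tmul_mul_tmul, mul_one,
      ← add_tmul, gen_rel]
    simp only [add_smul, Finset.sum_add_distrib, ← algebraMap_gmat, ← map_add]
    rfl
  · intro a
    rw [Algebra.TensorProduct.tmul_mul_tmul, mul_one, gen_sq, ← algebraMap_gmat]
    rfl
  · rw [Finset.card_product, Finset.card_finsuppAntidiag_nat_eq_choose]
    simp only [Finset.card_univ, Fintype.card_fin]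
    rw [mul_comm, show m + 1 + d - 1 = d + m by omega, Nat.choose_symm_add]

theorem isDomain_frac {Λ R : Type*} [CommRing Λ] [IsDomain Λ] [Ring R] [Algebra Λ R]
    [NoZeroDivisors R] [Nontrivial R] [NoZeroSMulDivisors Λ R] :
    IsDomain (FractionRing Λ ⊗[Λ] R) := by
  let f : R →ₗ[Λ] FractionRing Λ ⊗[Λ] R := TensorProduct.mk Λ (FractionRing Λ) R 1
  have hloc : IsLocalizedModule (nonZeroDivisors Λ) f :=
    (isLocalizedModule_iff_isBaseChange (nonZeroDivisors Λ) (FractionRing Λ) f).2
      (TensorProduct.isBaseChange _ _ _)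
  have hf : ∀ r, f r = 0 → r = 0 := by
    intro r hr
    obtain ⟨s, hs⟩ := (IsLocalizedModule.eq_zero_iff (nonZeroDivisors Λ) f).1 hr
    rw [Submonoid.smul_def] at hs
    exact (eq_zero_or_eq_zero_of_smul_eq_zero hs).resolve_left (nonZeroDivisors.coe_ne_zero s)
  have hs : ∀ (s : nonZeroDivisors Λ) (x : FractionRing Λ ⊗[Λ] R), s • x = 0 → x = 0 := by
    intro s x hx
    exact IsLocalizedModule.smul_injective f s (by simpa using hx)
  have : Nontrivial (FractionRing Λ ⊗[Λ] R) := ⟨f 1, 0, fun h => one_ne_zero (hf _ h)⟩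
  have : NoZeroDivisors (FractionRing Λ ⊗[Λ] R) := by
    refine ⟨fun {x y} hxy => ?_⟩
    obtain ⟨⟨r, s⟩, hr⟩ := IsLocalizedModule.surj (nonZeroDivisors Λ) f x
    obtain ⟨⟨r', s'⟩, hr'⟩ := IsLocalizedModule.surj (nonZeroDivisors Λ) f y
    have h1 : f (r * r') = 0 := by
      have : f (r * r') = f r * f r' := by simp [f]
      rw [this, ← hr, ← hr', Submonoid.smul_def, Submonoid.smul_def, smul_mul_smul_comm, hxy,
        smul_zero]
    rcases mul_eq_zero.1 (hf _ h1) with h | h
    · left
      refine hs s x ?_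
      rw [hr, h, map_zero]
    · right
      refine hs s' y ?_
      rw [hr', h, map_zero]
  exact NoZeroDivisors.to_isDomain _

theorem exists_frac {Λ R : Type u} [CommRing Λ] [IsDomain Λ] [Ring R] [Algebra Λ R]
    [NoZeroDivisors R] [Nontrivial R] [NoZeroSMulDivisors Λ R] [Module.Finite Λ R] :
    ∃ (D' : Type u) (_ : DivisionRing D') (_ : Algebra (FractionRing Λ) D')
      (_ : FiniteDimensional (FractionRing Λ) D') (ρ : R →+* D'),
      ∀ p, ρ (algebraMap Λ R p) = algebraMap _ D' (algebraMap Λ (FractionRing Λ) p) := by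
  have hdom := isDomain_frac (Λ := Λ) (R := R)
  let ρ : R →ₐ[Λ] FractionRing Λ ⊗[Λ] R := Algebra.TensorProduct.includeRight
  have hρ : ∀ p : Λ, ρ (algebraMap Λ R p) =
      algebraMap (FractionRing Λ) _ (algebraMap Λ (FractionRing Λ) p) := by
    intro p
    rw [AlgHom.commutes, ← IsScalarTower.algebraMap_apply]
  exact ⟨FractionRing Λ ⊗[Λ] R, divisionRingOfFiniteDimensional (FractionRing Λ) _, inferInstance,
    inferInstance, ρ.toRingHom, hρ⟩

theorem exists_step {k L D : Type u} [Field k] [Field L] [Algebra k L] [DivisionRing D]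
    [Algebra L D] [FiniteDimensional L D] {m : ℕ} {w : Fin (m + 1) → MvPolynomial (Fin (m + 1)) k}
    (hdeg : ∀ i, (w i).IsHomogeneous 2) (hreg : Reg w)
    (B : Fin (m + 1) → Fin (m + 1) → Fin (m + 1) → k)
    (hB : ∀ l, w l = ∑ a, ∑ b, C (B l a b) * X a * X b) :
    ∃ (L' : Type u) (_ : Field L') (_ : Algebra k L') (D' : Type u) (_ : DivisionRing D')
      (_ : Algebra L' D') (_ : FiniteDimensional L' D') (_ : Algebra L L')
      (_ : IsScalarTower k L L') (j : D →+* D') (e : Fin (m + 1) → D') (τ : Fin (m + 1) → L'),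
      (∀ c, j (algebraMap L D c) = algebraMap L' D' (algebraMap L L' c)) ∧
      (∀ a d, Commute (e a) (j d)) ∧
      (∀ a b, e a * e b + e b * e a =
        algebraMap L' D' (∑ l, τ l * algebraMap k L' (B l a b + B l b a))) ∧
      (∀ a, e a * e a = algebraMap L' D' (∑ l, τ l * algebraMap k L' (B l a a))) ∧
      LinearIndependent L τ := by
  obtain ⟨hfree, hfinite, hnt⟩ := free_cl L B
  have hnz := noZeroDivisors_cl (L := L) (D := D) hdeg hreg B hB
  have hfinR : Module.Finite (MvPolynomial (Fin (m + 1)) L) (CliffordAlgebra (gform L B) ⊗[L] D) :=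
    finite_tensor
  have hntR : Nontrivial (CliffordAlgebra (gform L B) ⊗[L] D) := inferInstance
  have hnzs : NoZeroSMulDivisors (MvPolynomial (Fin (m + 1)) L)
      (CliffordAlgebra (gform L B) ⊗[L] D) := ⟨fun h => smul_eq_zero.1 h⟩
  obtain ⟨D', _, _, _, ρ, hρ⟩ :=
    exists_frac (Λ := MvPolynomial (Fin (m + 1)) L) (R := CliffordAlgebra (gform L B) ⊗[L] D)
  set Λ := MvPolynomial (Fin (m + 1)) L with hΛ
  have hg : ∀ a b, algebraMap Λ (FractionRing Λ) (gmat L B a b) =
      ∑ l, algebraMap Λ (FractionRing Λ) (X l) * algebraMap k _ (B l a b) := by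
    intro a b
    rw [algebraMap_gmat]
    refine Finset.sum_congr rfl fun l _ => ?_
    rw [Algebra.smul_def, mul_comm]
  refine ⟨FractionRing Λ, inferInstance, inferInstance, D',
    inferInstance, inferInstance, inferInstance, inferInstance, inferInstance,
    ρ.comp (Algebra.TensorProduct.includeRight (R := L)).toRingHom,
    fun a => ρ (gen L B a ⊗ₜ[L] (1 : D)), fun l => algebraMap Λ _ (X l), ?_, ?_, ?_, ?_, ?_⟩
  · intro c
    change ρ (Algebra.TensorProduct.includeRight (R := L) (algebraMap L D c)) = _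
    rw [AlgHom.commutes, IsScalarTower.algebraMap_apply L Λ (CliffordAlgebra (gform L B) ⊗[L] D),
      hρ, ← IsScalarTower.algebraMap_apply L Λ (FractionRing Λ)]
  · intro a d
    refine Commute.map (f := ρ) (y := 1 ⊗ₜ[L] d) ?_
    rw [Commute, SemiconjBy, Algebra.TensorProduct.tmul_mul_tmul,
      Algebra.TensorProduct.tmul_mul_tmul]
    simp
  · intro a b
    rw [← map_mul, ← map_mul, ← map_add, Algebra.TensorProduct.tmul_mul_tmul,
      Algebra.TensorProduct.tmul_mul_tmul, mul_one, ← add_tmul, gen_rel]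
    simp only [map_add (algebraMap k _), mul_add, Finset.sum_add_distrib, ← hg]
    rw [← map_add (algebraMap Λ (FractionRing Λ)), ← hρ]
    rfl
  · intro a
    rw [← map_mul, Algebra.TensorProduct.tmul_mul_tmul, mul_one, gen_sq, ← hg, ← hρ]
    rfl
  · exact (MvPolynomial.linearIndependent_X (Fin (m + 1)) L).map'
      (IsScalarTower.toAlgHom L Λ (FractionRing Λ)).toLinearMap
      (LinearMap.ker_eq_bot.2 (IsFractionRing.injective Λ (FractionRing Λ)))

end Vale.Agent.P200
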